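import Vale.Agent.P328.Spec

/-! Elementary facts about the parameters and the penalty exponent. -/

namespace Vale.Agent.P328

open Finset

theorem sum_box_blk {ι : Type} [Fintype ι] [DecidableEq ι] (K D : ι → ℕ) (hD : ∀ s, 0 < D s)
    (g : (ι → ℕ) → ℝ) :
    ∑ x ∈ box (fun s => K s * D s), g x
      = ∑ y ∈ box K, ∑ v ∈ box D, g fun s => D s * y s + v s := by
  rw [← Finset.sum_product']
  symm
  refine Finset.sum_nbij' (fun p s => D s * p.1 s + p.2 s)
    (fun x => (fun s => x s / D s, fun s => x s % D s)) ?_ ?_ ?_ ?_ ?_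
  · rintro ⟨y, v⟩ hp
    rw [mem_product, mem_box, mem_box] at hp
    rw [mem_box]
    intro s
    have h1 := hp.1 s
    have h2 := hp.2 s
    simp only at h1 h2 ⊢
    nlinarith
  · intro x hx
    rw [mem_box] at hx
    rw [mem_product, mem_box, mem_box]
    exact ⟨fun s => (Nat.div_lt_iff_lt_mul (hD s)).mpr (hx s), fun s => Nat.mod_lt _ (hD s)⟩
  · rintro ⟨y, v⟩ hp
    rw [mem_product, mem_box, mem_box] at hp
    refine Prod.ext (funext fun s => ?_) (funext fun s => ?_)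
    · simp only
      rw [Nat.mul_add_div (hD s), Nat.div_eq_of_lt (hp.2 s), add_zero]
    · simp only
      rw [Nat.mul_add_mod, Nat.mod_eq_of_lt (hp.2 s)]
  · intro x _
    funext s
    exact Nat.div_add_mod _ _
  · intro p _
    rfl

theorem par_term_le {t a L W : ℕ} (h : a ≤ L * W) : t * a / L / W ≤ t := by
  rw [Nat.div_div_eq_div_mul]
  exact Nat.div_le_of_le_mul (by nlinarith)

theorem par_term_succ {t a L W : ℕ} (h : a ≤ L * W) :
    (t + 1) * a / L / W ≤ t * a / L / W + 2 := by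
  rw [Nat.div_div_eq_div_mul, Nat.div_div_eq_div_mul, add_mul, one_mul]
  have h1 := Nat.add_div_le_div_add_div_add_one (t * a) a (L * W)
  have h2 : a / (L * W) ≤ 1 := Nat.div_le_of_le_mul (by omega)
  omega

theorem par_term_real {t a a' L W : ℕ} (h : a' ≤ a) :
    ((t * a' / L / W : ℕ) : ℝ) ≤ t / (W : ℝ) * ((a : ℝ) / L) := by
  rw [Nat.div_div_eq_div_mul]
  refine Nat.cast_div_le.trans ?_
  have h1 : (a' : ℝ) ≤ a := by exact_mod_cast h
  push_cast
  rw [div_mul_div_comm, mul_comm (W : ℝ)]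
  gcongr

theorem par_term_real' {t T a a' g L W : ℕ} (ht : t ≤ T) (h : a ≤ a' + g) (hg : T * g ≤ L * W)
    (hL : 0 < L) (hW : 0 < W) :
    t / (W : ℝ) * ((a : ℝ) / L) ≤ ((t * a' / L / W : ℕ) : ℝ) + 2 := by
  rw [Nat.div_div_eq_div_mul]
  have h1 := Nat.lt_mul_div_succ (t * a') (Nat.mul_pos hL hW)
  have h2 : t * a ≤ (t * a' / (L * W) + 2) * (W * L) := by
    have := Nat.mul_le_mul_left t h
    have := Nat.mul_le_mul_right g ht
    nlinarith
  rw [div_mul_div_comm, div_le_iff₀ (by positivity)]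
  exact_mod_cast h2

namespace Inst

variable {I : Inst}

theorem W_pos : 0 < I.W := Nat.two_pow_pos _

theorem M_eq (s : I.Cell) : I.M s = I.K s * I.D s := by
  unfold M K D
  rw [← pow_add, Nat.sub_add_cancel (by unfold dl; omega)]

theorem D_pos (s : I.Cell) : 0 < I.D s := Nat.two_pow_pos _

theorem K_pos (s : I.Cell) : 0 < I.K s := Nat.two_pow_pos _

theorem K_le (s : I.Cell) : I.K s ≤ I.W ^ 11 := by
  unfold K W
  rw [← pow_mul]
  exact Nat.pow_le_pow_right (by norm_num) (by unfold dl; omega)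

theorem sig_lt_M (s : I.Cell) : I.sig s < I.M s := Nat.lt_size_self _

theorem M_le_two_sig {s : I.Cell} (h : 0 < I.lg s) : I.M s ≤ 2 * I.sig s := by
  have h1 : 2 ^ (I.lg s - 1) ≤ I.sig s := Nat.lt_size.mp (by unfold lg at h ⊢; omega)
  unfold M
  rw [show I.lg s = I.lg s - 1 + 1 by omega, pow_succ]
  omega

/-- Entries of the fine box are at most twice the scale of the cell. -/
theorem le_two_sig {x : I.St} (hx : x ∈ box I.M) (s : I.Cell) : x s ≤ 2 * I.sig s := by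
  have h1 := mem_box.mp hx s
  rcases Nat.eq_zero_or_pos (I.lg s) with h | h
  · unfold M at h1
    rw [h] at h1
    omega
  · have := M_le_two_sig h
    omega

theorem low_mem {y : I.St} (hy : y ∈ box I.K) : I.low y ∈ box I.M := by
  rw [mem_box] at hy ⊢
  intro s
  rw [M_eq, low, mul_comm]
  exact Nat.mul_lt_mul_of_pos_right (hy s) (D_pos s)

theorem blk_mem {x : I.St} (hx : x ∈ box I.M) : I.blk x ∈ box I.K := by
  rw [mem_box] at hx ⊢
  intro s
  have := hx s
  rw [M_eq] at this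
  exact (Nat.div_lt_iff_lt_mul (D_pos s)).mpr this

@[simp] theorem cell_divNat (i : Fin I.m) (j : Fin I.n) : (I.cell i j).divNat = i :=
  congrArg Prod.fst (finProdFinEquiv.symm_apply_apply (i, j))

@[simp] theorem cell_modNat (i : Fin I.m) (j : Fin I.n) : (I.cell i j).modNat = j :=
  congrArg Prod.snd (finProdFinEquiv.symm_apply_apply (i, j))

theorem cell_div_mod (s : I.Cell) : I.cell s.divNat s.modNat = s :=
  finProdFinEquiv.apply_symm_apply s

theorem sum_cell {β : Type} [AddCommMonoid β] (f : I.Cell → β) :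
    ∑ s, f s = ∑ i, ∑ j, f (I.cell i j) := by
  rw [← finProdFinEquiv.sum_comp, Fintype.sum_prod_type]
  rfl

theorem rowS_eq (x : I.St) (i : Fin I.m) : I.rowS x i = ∑ j, x (I.cell i j) := by
  unfold rowS
  rw [sum_cell]
  simp only [cell_divNat]
  rw [Finset.sum_comm]
  simp

theorem colS_eq (x : I.St) (j : Fin I.n) : I.colS x j = ∑ i, x (I.cell i j) := by
  unfold colS
  rw [sum_cell]
  simp

theorem totS_eq (x : I.St) : I.totS x = ∑ i, ∑ j, x (I.cell i j) := sum_cell x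

theorem cells_le (h : I.OK) : 4 * (I.m * I.n) ≤ I.W ^ 2 := by
  have h1 := h.hW
  have h2 : (I.m + I.n) ^ 2 ≤ I.W ^ 2 := Nat.pow_le_pow_left h1.le 2
  zify at h2 ⊢
  nlinarith [sq_nonneg ((I.m : ℤ) - I.n)]

theorem two_b_le (_h : I.OK) : 2 * I.b ≤ I.W := Nat.mul_le_pow (by norm_num) _

theorem T0_le (h : I.OK) : I.T0 ≤ 2 * I.W ^ 11 := by
  unfold T0
  calc 4 * I.b * I.W ^ 10 = 2 * (2 * I.b) * I.W ^ 10 := by ring
    _ ≤ 2 * I.W * I.W ^ 10 := by gcongr; exact two_b_le h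
    _ = 2 * I.W ^ 11 := by ring

theorem sig_le (s : I.Cell) : I.sig s ≤ min (I.r s.divNat) (I.c s.modNat) := by
  unfold sig
  split_ifs
  · exact Nat.zero_le _
  · exact le_rfl

theorem lg_le (h : I.OK) (s : I.Cell) : I.lg s ≤ I.W :=
  (Nat.size_le_size ((sig_le s).trans (min_le_left _ _))).trans (h.hsz _)

theorem dl_le (h : I.OK) (s : I.Cell) : I.dl s ≤ I.W := (Nat.sub_le _ _).trans (lg_le h s)

theorem W_real (h : I.OK) : (32 : ℝ) ≤ I.W := by exact_mod_cast h.h32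

theorem th_pos (h : I.OK) : 0 < I.th := by
  have := W_real h
  unfold th
  rw [sub_pos, div_lt_one (by positivity)]
  nlinarith

theorem th_lt_one (h : I.OK) : I.th < 1 := by
  have := W_real h
  unfold th
  have : 0 < 1 / (I.W : ℝ) ^ 2 := by positivity
  linarith

theorem bern_th (h : I.OK) (k : ℕ) : 1 - k / (I.W : ℝ) ^ 2 ≤ I.th ^ k := by
  have h1 := th_pos h
  have h2 := one_add_mul_le_pow (a := -(1 / (I.W : ℝ) ^ 2)) (by unfold th at h1; linarith) k
  unfold th
  rw [sub_eq_add_neg 1 (1 / _)]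
  refine le_trans (le_of_eq ?_) h2
  ring

theorem half_le_th_pow (h : I.OK) : 1 / 2 ≤ I.th ^ (2 * I.W) := by
  refine le_trans ?_ (bern_th h _)
  have := W_real h
  have h1 : ((2 * I.W : ℕ) : ℝ) / (I.W : ℝ) ^ 2 ≤ 1 / 2 := by
    rw [div_le_iff₀ (by positivity)]
    push_cast
    nlinarith
  linarith

theorem th_pow_le_half (h : I.OK) : I.th ^ (I.W ^ 2) ≤ 1 / 2 := by
  have := W_real h
  have h1 : I.th ≤ Real.exp (-(1 / (I.W : ℝ) ^ 2)) := by
    have := Real.add_one_le_exp (-(1 / (I.W : ℝ) ^ 2))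
    unfold th
    linarith
  refine (pow_le_pow_left₀ (th_pos h).le h1 _).trans ?_
  rw [← Real.exp_nat_mul]
  have h2 : ((I.W ^ 2 : ℕ) : ℝ) * -(1 / (I.W : ℝ) ^ 2) = -1 := by
    push_cast
    field_simp
  rw [h2, Real.exp_neg, one_div]
  exact inv_anti₀ (by norm_num) (by linarith [Real.add_one_le_exp (1 : ℝ)])

theorem quarter_le_th_pow (h : I.OK) : 1 / 4 ≤ I.th ^ (I.W ^ 2) := by
  obtain ⟨w, hw⟩ : ∃ w, I.W = 2 * w := by
    have h1 := h.h32
    unfold W at h1 ⊢
    rcases Nat.eq_zero_or_pos I.b with h0 | h0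
    · rw [h0] at h1; omega
    · exact ⟨2 ^ (I.b - 1), by rw [← pow_succ', Nat.sub_add_cancel h0]⟩
  have h1 := bern_th h (2 * w ^ 2)
  have h2 := W_real h
  have h3 : ((2 * w ^ 2 : ℕ) : ℝ) / (I.W : ℝ) ^ 2 = 1 / 2 := by
    rw [div_eq_iff (by positivity), hw]
    push_cast
    ring
  have h4 : I.W ^ 2 = 2 * w ^ 2 * 2 := by rw [hw]; ring
  rw [h4, pow_mul]
  rw [h3] at h1
  nlinarith

theorem phc_zero (y : I.St) : I.phc 0 y = 0 := by
  simp [phc, phi]

theorem phc_mono (t : ℕ) (y : I.St) : I.phc t y ≤ I.phc (t + 1) y := by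
  unfold phc phi
  gcongr <;> omega

theorem lt_ell (a : ℕ) : a < I.W ^ 6 * (a / I.W ^ 6 + 1) :=
  Nat.lt_mul_div_succ a (pow_pos W_pos 6)

theorem sigR (h : I.OK) (i : Fin I.m) (j : Fin I.n) : I.sig (I.cell i j) ≤ I.W ^ 6 * I.ellR i := by
  have h1 := sig_le (I.cell i j)
  rw [cell_divNat, cell_modNat] at h1
  exact (h1.trans (min_le_min_left _ (h.hj j))).trans (lt_ell _).le

theorem sigC (h : I.OK) (i : Fin I.m) (j : Fin I.n) : I.sig (I.cell i j) ≤ I.W ^ 6 * I.ellC j := by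
  have h1 := sig_le (I.cell i j)
  rw [cell_divNat, cell_modNat] at h1
  exact (h1.trans (min_le_min_right _ (h.hi i))).trans (lt_ell _).le

theorem sig0 (h : I.OK) (s : I.Cell) : I.sig s ≤ I.W ^ 6 * I.ell0 :=
  ((sig_le s).trans (min_le_min (h.hi _) (h.hj _))).trans (lt_ell _).le

theorem N_le_rs (h : I.OK) : I.N ≤ I.m * I.rs := by
  have := Finset.sum_le_card_nsmul univ I.r I.rs fun i _ => h.hi i
  unfold N
  simpa using this

theorem N_le_cs (h : I.OK) : I.N ≤ I.n * I.cs := by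
  have := Finset.sum_le_card_nsmul univ I.c I.cs fun j _ => h.hj j
  unfold N
  rw [h.sum_eq]
  simpa using this

theorem negR_le (h : I.OK) {x : I.St} (hx : x ∈ box I.M) (i : Fin I.m) :
    I.negR x i ≤ I.ellR i * I.W ^ 8 := by
  have h1 := Finset.sum_le_card_nsmul univ (fun j => x (I.cell i j)) (2 * (I.W ^ 6 * I.ellR i))
    fun j _ => (le_two_sig hx _).trans (Nat.mul_le_mul_left 2 (sigR h i j))
  rw [← rowS_eq, card_univ, Fintype.card_fin, smul_eq_mul] at h1
  have h2 := h.hW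
  have h3 := h.h32
  calc I.negR x i ≤ I.n * (2 * (I.W ^ 6 * I.ellR i)) := (Nat.sub_le _ _).trans h1
    _ ≤ I.W * (I.W * (I.W ^ 6 * I.ellR i)) := by gcongr <;> omega
    _ = _ := by ring

theorem negC_le (h : I.OK) {x : I.St} (hx : x ∈ box I.M) (j : Fin I.n) :
    I.negC x j ≤ I.ellC j * I.W ^ 8 := by
  have h1 := Finset.sum_le_card_nsmul univ (fun i => x (I.cell i j)) (2 * (I.W ^ 6 * I.ellC j))
    fun i _ => (le_two_sig hx _).trans (Nat.mul_le_mul_left 2 (sigC h i j))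
  rw [← colS_eq, card_univ, Fintype.card_fin, smul_eq_mul] at h1
  have h2 := h.hW
  have h3 := h.h32
  calc I.negC x j ≤ I.m * (2 * (I.W ^ 6 * I.ellC j)) := (Nat.sub_le _ _).trans h1
    _ ≤ I.W * (I.W * (I.W ^ 6 * I.ellC j)) := by gcongr <;> omega
    _ = _ := by ring

theorem N_le_min (h : I.OK) : I.N ≤ I.W * min I.rs I.cs := by
  have h2 := h.hW
  rcases le_total I.rs I.cs with h1 | h1
  · rw [min_eq_left h1]
    exact (N_le_rs h).trans (Nat.mul_le_mul_right _ (by omega))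
  · rw [min_eq_right h1]
    exact (N_le_cs h).trans (Nat.mul_le_mul_right _ (by omega))

theorem neg0_le (h : I.OK) (g : ℕ) (x : I.St) : I.neg0 g x ≤ I.ell0 * I.W ^ 8 := by
  have h3 := h.h32
  calc I.neg0 g x ≤ I.W * min I.rs I.cs := (Nat.sub_le _ _).trans (N_le_min h)
    _ ≤ I.W * (I.W ^ 6 * I.ell0) := Nat.mul_le_mul_left _ (lt_ell _).le
    _ = 1 * (I.W * (I.W ^ 6 * I.ell0)) := by ring
    _ ≤ I.W * (I.W * (I.W ^ 6 * I.ell0)) := by gcongr; omega
    _ = _ := by ring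

theorem phc_le (h : I.OK) (t : ℕ) {y : I.St} (hy : y ∈ box I.K) : I.phc t y ≤ I.W * t := by
  have hx := low_mem hy
  have h1 := Finset.sum_le_card_nsmul univ
    (fun i => t * I.negR (I.low y) i / I.ellR i / I.W ^ 8) t fun i _ => par_term_le (negR_le h hx i)
  have h2 := Finset.sum_le_card_nsmul univ
    (fun j => t * I.negC (I.low y) j / I.ellC j / I.W ^ 8) t fun j _ => par_term_le (negC_le h hx j)
  have h3 := par_term_le (t := t) (neg0_le h I.G (I.low y))
  rw [card_univ, Fintype.card_fin, smul_eq_mul] at h1 h2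
  have h4 := Nat.mul_le_mul_right t (show I.m + I.n + 1 ≤ I.W from h.hW)
  unfold phc phi
  nlinarith

theorem phc_succ_le (h : I.OK) (t : ℕ) {y : I.St} (hy : y ∈ box I.K) :
    I.phc (t + 1) y ≤ I.phc t y + 2 * I.W := by
  have hx := low_mem hy
  have h1 := Finset.sum_le_sum (s := univ) fun i _ => par_term_succ (t := t) (negR_le h hx i)
  have h2 := Finset.sum_le_sum (s := univ) fun j _ => par_term_succ (t := t) (negC_le h hx j)
  have h3 := par_term_succ (t := t) (neg0_le h I.G (I.low y))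
  rw [sum_add_distrib, sum_const, card_univ, Fintype.card_fin, smul_eq_mul] at h1 h2
  have h4 := h.hW
  unfold phc phi
  omega

theorem low_blk_le (x : I.St) (s : I.Cell) : I.low (I.blk x) s ≤ x s := Nat.mul_div_le _ _

theorem le_low_blk (x : I.St) (s : I.Cell) : x s ≤ I.low (I.blk x) s + (I.D s - 1) := by
  have h1 := Nat.div_add_mod (x s) (I.D s)
  have h2 := Nat.mod_lt (x s) (D_pos s)
  unfold low blk
  omega

theorem negR_low_le (x : I.St) (i : Fin I.m) : I.negR (I.low (I.blk x)) i ≤ I.negR x i := by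
  unfold negR
  rw [rowS_eq, rowS_eq]
  exact Nat.sub_le_sub_right (Finset.sum_le_sum fun j _ => low_blk_le x _) _

theorem negC_low_le (x : I.St) (j : Fin I.n) : I.negC (I.low (I.blk x)) j ≤ I.negC x j := by
  unfold negC
  rw [colS_eq, colS_eq]
  exact Nat.sub_le_sub_right (Finset.sum_le_sum fun i _ => low_blk_le x _) _

theorem neg0_low_le (x : I.St) : I.neg0 I.G (I.low (I.blk x)) ≤ I.neg0 0 x := by
  have h1 := Finset.sum_le_sum (s := univ) fun s _ => le_low_blk x s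
  rw [sum_add_distrib] at h1
  unfold neg0 totS G
  omega

theorem valid_iff {x : I.St} : I.valid x ↔
    (∀ i, I.negR x i = 0) ∧ (∀ j, I.negC x j = 0) ∧ I.neg0 0 x = 0 := by
  simp [valid, ng, and_assoc]

/-- A block containing a valid vector has penalty zero. -/
theorem phc_valid (t : ℕ) {x : I.St} (hv : I.valid x) : I.phc t (I.blk x) = 0 := by
  obtain ⟨h1, h2, h3⟩ := valid_iff.mp hv
  have e1 : ∀ i, I.negR (I.low (I.blk x)) i = 0 := fun i =>
    Nat.eq_zero_of_le_zero (h1 i ▸ negR_low_le x i)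
  have e2 : ∀ j, I.negC (I.low (I.blk x)) j = 0 := fun j =>
    Nat.eq_zero_of_le_zero (h2 j ▸ negC_low_le x j)
  have e3 : I.neg0 I.G (I.low (I.blk x)) = 0 := Nat.eq_zero_of_le_zero (h3 ▸ neg0_low_le x)
  simp [phc, phi, e1, e2, e3]

/-- The real exponent of the fine weight. -/
noncomputable def ex (I : Inst) (t : ℕ) (x : I.St) : ℝ :=
  t / ((I.W ^ 8 : ℕ) : ℝ) * (∑ i, (I.negR x i : ℝ) / I.ellR i + ∑ j, (I.negC x j : ℝ) / I.ellC j
      + (I.neg0 0 x : ℝ) / I.ell0)

theorem wf_eq (t : ℕ) (x : I.St) : I.wf t x = Real.exp (Real.log I.th * I.ex t x) := by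
  unfold wf ex
  congr 1
  push_cast
  ring

theorem th_pow_eq (h : I.OK) (k : ℕ) : I.th ^ k = Real.exp (Real.log I.th * k) := by
  rw [mul_comm, Real.exp_nat_mul, Real.exp_log (th_pos h)]

theorem log_th_nonpos (h : I.OK) : Real.log I.th ≤ 0 :=
  Real.log_nonpos (th_pos h).le (th_lt_one h).le

theorem wf_le_wc (h : I.OK) (t : ℕ) (x : I.St) : I.wf t x ≤ I.wc t (I.blk x) := by
  rw [wf_eq, wc, th_pow_eq h]
  refine Real.exp_le_exp.mpr (mul_le_mul_of_nonpos_left ?_ (log_th_nonpos h))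
  unfold phc phi ex
  rw [mul_add, mul_add, Finset.mul_sum, Finset.mul_sum, Nat.cast_add, Nat.cast_add, Nat.cast_sum,
    Nat.cast_sum]
  exact add_le_add (add_le_add (Finset.sum_le_sum fun i _ => par_term_real (negR_low_le x i))
    (Finset.sum_le_sum fun j _ => par_term_real (negC_low_le x j))) (par_term_real (neg0_low_le x))

theorem T0_mul_D (h : I.OK) (s : I.Cell) : I.T0 * (I.D s - 1) ≤ 4 * I.sig s := by
  rcases Nat.eq_zero_or_pos (I.dl s) with h0 | h0
  · simp [D, h0]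
  · have h1 : I.K s = I.W ^ 11 := by
      unfold K W
      rw [← pow_mul]
      congr 1
      unfold dl at h0 ⊢
      omega
    have h2 := M_le_two_sig (s := s) (by unfold dl at h0; omega)
    rw [M_eq, h1] at h2
    calc I.T0 * (I.D s - 1) ≤ 2 * I.W ^ 11 * I.D s := Nat.mul_le_mul (T0_le h) (Nat.sub_le _ _)
      _ = 2 * (I.W ^ 11 * I.D s) := by ring
      _ ≤ 4 * I.sig s := by omega

theorem T0_mul_sum (h : I.OK) {ι : Type} [Fintype ι] (f : ι → I.Cell) (L : ℕ)
    (hc : Fintype.card ι ≤ I.m * I.n) (hL : ∀ k, I.sig (f k) ≤ I.W ^ 6 * L) :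
    I.T0 * ∑ k, (I.D (f k) - 1) ≤ L * I.W ^ 8 := by
  have h1 := Finset.sum_le_card_nsmul univ (fun k => I.T0 * (I.D (f k) - 1)) (4 * (I.W ^ 6 * L))
    fun k _ => (T0_mul_D h _).trans (Nat.mul_le_mul_left 4 (hL k))
  rw [← Finset.mul_sum, card_univ, smul_eq_mul] at h1
  calc _ ≤ _ := h1
    _ ≤ I.m * I.n * (4 * (I.W ^ 6 * L)) := Nat.mul_le_mul_right _ hc
    _ = 4 * (I.m * I.n) * (I.W ^ 6 * L) := by ring
    _ ≤ I.W ^ 2 * (I.W ^ 6 * L) := Nat.mul_le_mul_right _ (cells_le h)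
    _ = _ := by ring

theorem wc_le_wf (h : I.OK) {t : ℕ} (ht : t ≤ I.T0) (x : I.St) :
    I.wc t (I.blk x) ≤ 2 * I.wf t x := by
  have hW8 : 0 < I.W ^ 8 := pow_pos W_pos 8
  have hm : 0 < I.m := Fin.pos I.i0
  have hn : 0 < I.n := Fin.pos I.j0
  have h1 : ∀ i, t / ((I.W ^ 8 : ℕ) : ℝ) * ((I.negR x i : ℝ) / I.ellR i)
      ≤ ((t * I.negR (I.low (I.blk x)) i / I.ellR i / I.W ^ 8 : ℕ) : ℝ) + 2 := by
    intro i
    refine par_term_real' ht ?_ (T0_mul_sum h (fun j => I.cell i j) _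
      (by rw [Fintype.card_fin]; exact Nat.le_mul_of_pos_left _ hm) (sigR h i))
      (Nat.succ_pos _) hW8
    have := Finset.sum_le_sum (s := univ) fun j _ => le_low_blk x (I.cell i j)
    rw [sum_add_distrib, ← rowS_eq, ← rowS_eq] at this
    unfold negR
    omega
  have h2 : ∀ j, t / ((I.W ^ 8 : ℕ) : ℝ) * ((I.negC x j : ℝ) / I.ellC j)
      ≤ ((t * I.negC (I.low (I.blk x)) j / I.ellC j / I.W ^ 8 : ℕ) : ℝ) + 2 := by
    intro j
    refine par_term_real' ht ?_ (T0_mul_sum h (fun i => I.cell i j) _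
      (by rw [Fintype.card_fin]; exact Nat.le_mul_of_pos_right _ hn) (fun i => sigC h i j))
      (Nat.succ_pos _) hW8
    have := Finset.sum_le_sum (s := univ) fun i _ => le_low_blk x (I.cell i j)
    rw [sum_add_distrib, ← colS_eq, ← colS_eq] at this
    unfold negC
    omega
  have h3 : t / ((I.W ^ 8 : ℕ) : ℝ) * ((I.neg0 0 x : ℝ) / I.ell0)
      ≤ ((t * I.neg0 I.G (I.low (I.blk x)) / I.ell0 / I.W ^ 8 : ℕ) : ℝ) + 2 := by
    refine par_term_real' ht ?_ (T0_mul_sum h (fun s => s) _ (by simp) (sig0 h))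
      (Nat.succ_pos _) hW8
    have := Finset.sum_le_sum (s := univ) fun s _ => low_blk_le x s
    unfold neg0 totS G
    omega
  have h4 : I.ex t x ≤ ((I.phc t (I.blk x) + 2 * I.W : ℕ) : ℝ) := by
    have a1 := Finset.sum_le_sum (s := univ) fun i _ => h1 i
    have a2 := Finset.sum_le_sum (s := univ) fun j _ => h2 j
    rw [sum_add_distrib, sum_const, card_univ, Fintype.card_fin, nsmul_eq_mul] at a1 a2
    have a3 : (I.m : ℝ) + I.n + 1 ≤ I.W := by exact_mod_cast h.hW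
    unfold phc phi ex
    rw [mul_add, mul_add, Finset.mul_sum, Finset.mul_sum, Nat.cast_add, Nat.cast_add, Nat.cast_add,
      Nat.cast_sum, Nat.cast_sum, Nat.cast_mul, Nat.cast_ofNat]
    linarith
  have h5 : I.th ^ (I.phc t (I.blk x) + 2 * I.W) ≤ I.wf t x := by
    rw [wf_eq, th_pow_eq h]
    exact Real.exp_le_exp.mpr (mul_le_mul_of_nonpos_left h4 (log_th_nonpos h))
  rw [pow_add] at h5
  have h6 := mul_le_mul_of_nonneg_left (half_le_th_pow h)
    (pow_pos (th_pos h) (I.phc t (I.blk x))).le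
  unfold wc
  linarith

end Inst

end Vale.Agent.P328
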