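import Vale.Agent.P328.Poin
import Vale.Agent.P328.Params

/-! Transfer of the Poincare inequality to the grid of blocks. -/

namespace Vale.Agent.P328

open Finset

variable {V : Type} [Fintype V] [DecidableEq V]

omit [Fintype V] in
theorem sh_update {p : ℕ} (es : Fin p → Edge V) (x : Fin p → ℕ) (k : Fin p) :
    sh es (Function.update x k (x k + 1)) = sh es x + (ev (es k).u - ev (es k).v) := by
  unfold sh
  rw [← add_sum_erase _ _ (mem_univ k),
    ← add_sum_erase _ (fun s => (x s : ℤ) • (ev (es s).u - ev (es s).v)) (mem_univ k)]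
  have : ∑ s ∈ univ.erase k, (Function.update x k (x k + 1) s : ℤ) • (ev (es s).u - ev (es s).v)
      = ∑ s ∈ univ.erase k, (x s : ℤ) • (ev (es s).u - ev (es s).v) :=
    sum_congr rfl fun s hs => by rw [Function.update_of_ne (ne_of_mem_erase hs)]
  rw [this, Function.update_self]
  push_cast
  module

theorem count_top {p : ℕ} (D : Fin p → ℕ) (hD : ∀ k, 0 < D k) (k : Fin p) (c : ℝ) :
    (D k : ℝ) * ∑ v ∈ box D, (if v k + 1 = D k then c else 0) = (∏ s, (D s : ℝ)) * c := by
  have h := Fintype.card_filter_piFinset_eq_of_mem (fun s => range (D s)) k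
    (a := D k - 1) (mem_range.2 (by have := hD k; omega))
  have e : ∀ v : Fin p → ℕ, v k + 1 = D k ↔ v k = D k - 1 := fun v => by have := hD k; omega
  simp only [e]
  rw [← sum_filter, sum_const, nsmul_eq_mul, box, h, ← mul_prod_erase _ _ (mem_univ k)]
  simp only [card_range]
  push_cast
  ring

theorem coarse {Φ : (V → ℤ) → ℝ} (hΦ : ∀ β, 0 < Φ β) (hH : Hyp Φ) {Λ q Γ C : ℝ}
    (hΓ : ∀ β u v, Φ (β + ev u) ≤ Γ * Φ (β + ev v)) (hq : 0 ≤ q) (hΛ : 0 ≤ Λ) (hΓ0 : 0 ≤ Γ)
    (hC0 : 0 < C) (o : V) {p : ℕ} (hC : p * (q / 2 * Γ) * (2 * Λ + 2) + q * Γ ≤ C)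
    (es : Fin p → Edge V) (hes : ∀ k, EdgeOK Φ Λ q (es k)) (K : Fin p → ℕ)
    (hD : ∀ k, 0 < (es k).D) (hMK : ∀ k, (es k).M = K k * (es k).D) (hK : ∀ k, (K k : ℝ) ≤ q)
    (β : V → ℤ) (wc : (Fin p → ℕ) → ℝ)
    (h1 : ∀ x, Φ (β + ev o - sh es x) ≤ wc fun s => x s / (es s).D)
    (h2 : ∀ x, (wc fun s => x s / (es s).D) ≤ 2 * Φ (β + ev o - sh es x))
    (F : (Fin p → ℕ) → ℝ) :
    ∃ c : ℝ, ∑ y ∈ box K, wc y * (F y - c) ^ 2 ≤ 2 * (p * C * (q * Γ)) *
      ∑ k, ∑ y ∈ box K, if y k + 1 < K k then
        min (wc y) (wc (Function.update y k (y k + 1)))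
          * (F (Function.update y k (y k + 1)) - F y) ^ 2 else 0 := by
  set f : (Fin p → ℕ) → ℝ := fun x => F fun s => x s / (es s).D with hf
  have hblk : Blk es f := by
    intro k x hk
    simp only [hf]
    congr 1
    funext s
    by_cases hs : s = k
    · subst hs; rw [Function.update_self, Nat.succ_div_of_not_dvd hk]
    · rw [Function.update_of_ne hs]
  have hP := poincare hΦ hH hΓ hq hΛ hΓ0 hC0 o hC es hes β f hblk
  have hZ := Zt_pos hΦ es (fun k => (hes k).hM) (β + ev o)
  have hbox : (fun s => (es s).M) = fun s => K s * (es s).D := funext hMK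
  have hdiv : ∀ (y v : Fin p → ℕ), v ∈ box (fun s => (es s).D) →
      (fun s => ((es s).D * y s + v s) / (es s).D) = y := by
    intro y v hv
    funext s
    rw [Nat.mul_add_div (hD s), Nat.div_eq_of_lt (mem_box.1 hv s), add_zero]
  have hPD : (0 : ℝ) < ∏ s, ((es s).D : ℝ) := prod_pos fun s _ => by exact_mod_cast hD s
  have hwc : ∀ y, 0 ≤ wc y := by
    intro y
    have := h1 fun s => (es s).D * y s
    simp only [Nat.mul_div_cancel_left _ (hD _)] at this
    exact (hΦ _).le.trans this
  set c := tot Φ es f (β + ev o) / Zt Φ es (β + ev o) with hc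
  refine ⟨c, le_of_mul_le_mul_left ?_ hPD⟩
  have e1 : (∏ s, ((es s).D : ℝ)) * ∑ y ∈ box K, wc y * (F y - c) ^ 2
      = ∑ x ∈ box fun s => (es s).M, (wc fun s => x s / (es s).D) * (f x - c) ^ 2 := by
    rw [hbox, sum_box_blk K _ hD, mul_sum]
    refine sum_congr rfl fun y _ => ?_
    rw [sum_congr rfl (g := fun _ => wc y * (F y - c) ^ 2) fun v hv => by
      simp only [hf, hdiv y v hv]]
    rw [sum_const, nsmul_eq_mul, box, Fintype.card_piFinset]
    simp only [card_range]
    push_cast
    rfl
  have e2 : ∑ x ∈ box fun s => (es s).M, (wc fun s => x s / (es s).D) * (f x - c) ^ 2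
      ≤ 2 * (tot Φ es (fun x => f x ^ 2) (β + ev o)
        - tot Φ es f (β + ev o) ^ 2 / Zt Φ es (β + ev o)) := by
    have t1 : tot Φ es (fun x => (f x - c) ^ 2) (β + ev o) = tot Φ es (fun x => f x ^ 2) (β + ev o)
        - 2 * c * tot Φ es f (β + ev o) + c ^ 2 * Zt Φ es (β + ev o) := by
      simp only [Zt, tot, mul_sum, ← sum_sub_distrib, ← sum_add_distrib]
      exact sum_congr rfl fun x _ => by ring
    have t2 : tot Φ es (fun x => f x ^ 2) (β + ev o)
        - tot Φ es f (β + ev o) ^ 2 / Zt Φ es (β + ev o)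
        = tot Φ es (fun x => (f x - c) ^ 2) (β + ev o) := by
      rw [t1, hc]; field_simp; ring
    rw [t2, tot, mul_sum]
    refine sum_le_sum fun x _ => ?_
    rw [← mul_assoc]
    exact mul_le_mul_of_nonneg_right (h2 x) (sq_nonneg _)
  have e3 : Dir Φ es f β ≤ (∏ s, ((es s).D : ℝ)) * (q * Γ) *
      ∑ k, ∑ y ∈ box K, if y k + 1 < K k then
        min (wc y) (wc (Function.update y k (y k + 1)))
          * (F (Function.update y k (y k + 1)) - F y) ^ 2 else 0 := by
    rw [Dir, mul_sum]
    refine sum_le_sum fun k _ => ?_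
    rw [tot, hbox, sum_box_blk K _ hD, mul_sum, mul_sum]
    refine sum_le_sum fun y _ => ?_
    set G : ℝ := if y k + 1 < K k then min (wc y) (wc (Function.update y k (y k + 1)))
      * (F (Function.update y k (y k + 1)) - F y) ^ 2 else 0 with hG
    have hG0 : 0 ≤ G := by
      rw [hG]; split_ifs
      · exact mul_nonneg (le_min (hwc _) (hwc _)) (sq_nonneg _)
      · exact le_rfl
    have t1 : ∀ v ∈ box fun s => (es s).D,
        Φ (β + ev (es k).v - sh es fun s => (es s).D * y s + v s) *
          (if (es k).D * y k + v k + 1 < (es k).M then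
            (f (Function.update (fun s => (es s).D * y s + v s) k ((es k).D * y k + v k + 1))
              - f fun s => (es s).D * y s + v s) ^ 2 else 0)
        ≤ if v k + 1 = (es k).D then Γ * G else 0 := by
      intro v hv
      have hvk := mem_box.1 hv k
      by_cases hk : v k + 1 = (es k).D
      · rw [if_pos hk]
        have a1 : (es k).D * y k + v k + 1 = (es k).D * (y k + 1) := by rw [add_assoc, hk]; ring
        have a2 : (es k).D * y k + v k + 1 < (es k).M ↔ y k + 1 < K k := by
          rw [a1, hMK, mul_comm (K k)]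
          exact Nat.mul_lt_mul_left (hD k)
        have a3 : (fun s => Function.update (fun s => (es s).D * y s + v s) k
            ((es k).D * y k + v k + 1) s / (es s).D) = Function.update y k (y k + 1) := by
          funext s
          by_cases hs : s = k
          · subst hs
            rw [Function.update_self, Function.update_self, a1, Nat.mul_div_cancel_left _ (hD s)]
          · rw [Function.update_of_ne hs, Function.update_of_ne hs]
            exact congrFun (hdiv y v hv) s
        by_cases hy : y k + 1 < K k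
        · rw [if_pos (a2.2 hy), hG, if_pos hy, ← mul_assoc]
          simp only [hf, a3, hdiv y v hv]
          refine mul_le_mul_of_nonneg_right ?_ (sq_nonneg _)
          rw [mul_min_of_nonneg _ _ hΓ0]
          refine le_min ?_ ?_
          · have b1 := h1 fun s => (es s).D * y s + v s
            rw [hdiv y v hv] at b1
            rw [add_sub_right_comm] at b1 ⊢
            exact (hΓ _ _ o).trans (mul_le_mul_of_nonneg_left b1 hΓ0)
          · have b1 := h1 (Function.update (fun s => (es s).D * y s + v s) k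
              ((es k).D * y k + v k + 1))
            rw [a3, sh_update es (fun s => (es s).D * y s + v s) k, add_sub_right_comm] at b1
            have b2 : β + ev (es k).v - sh es (fun s => (es s).D * y s + v s)
                = β - (sh es (fun s => (es s).D * y s + v s) + (ev (es k).u - ev (es k).v))
                  + ev (es k).u := by abel
            rw [b2]
            exact (hΓ _ _ o).trans (mul_le_mul_of_nonneg_left b1 hΓ0)
        · rw [if_neg (mt a2.1 hy), mul_zero]
          exact mul_nonneg hΓ0 hG0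
      · rw [if_neg hk]
        have a1 : ¬ (es k).D ∣ (es k).D * y k + v k + 1 := by
          rw [add_assoc, Nat.dvd_add_right (Dvd.intro _ rfl)]
          exact Nat.not_dvd_of_pos_of_lt (Nat.succ_pos _) (by omega)
        rw [hblk k (fun s => (es s).D * y s + v s) a1]
        simp
    have t2 := sum_le_sum t1
    have t3 := count_top (fun s => (es s).D) hD k (Γ * G)
    have t4 : ((es k).M : ℝ) = K k * (es k).D := by rw [hMK]; push_cast; ring
    calc _ ≤ ((es k).M : ℝ) * ∑ v ∈ box fun s => (es s).D,
          (if v k + 1 = (es k).D then Γ * G else 0) :=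
          mul_le_mul_of_nonneg_left t2 (Nat.cast_nonneg _)
      _ = K k * ((∏ s, ((es s).D : ℝ)) * (Γ * G)) := by rw [t4, mul_assoc, t3]
      _ ≤ q * ((∏ s, ((es s).D : ℝ)) * (Γ * G)) :=
          mul_le_mul_of_nonneg_right (hK k) (by positivity)
      _ = _ := by ring
  have e4 := mul_le_mul_of_nonneg_left e3 (mul_nonneg (Nat.cast_nonneg p) hC0.le)
  rw [e1]
  linarith

end Vale.Agent.P328
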