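import Vale.Agent.P328.RefInit

/-! Running time under the logarithmic cost criterion. -/

namespace Vale.Agent.P328

open Finset

theorem Expr.eval_le_of_ok (Ps : List ℕ) (B : ℕ) (hB : 200 ≤ B) (m : Mem)
    (hm : ∀ p ∈ Ps, m p 0 ≤ B) (e : Expr) (he : e.okBound Ps = true) : e.eval m ≤ B := by
  induction e with
  | const c =>
    simp only [Expr.okBound, decide_eq_true_eq] at he
    simp only [Expr.eval]; omega
  | load a i _ =>
    cases i with
    | const c =>
      cases c with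
      | zero =>
        simp only [Expr.okBound, decide_eq_true_eq] at he
        exact hm a he
      | succ c => simp [Expr.okBound] at he
    | load _ _ => simp [Expr.okBound] at he
    | add _ _ => simp [Expr.okBound] at he
    | sub _ _ => simp [Expr.okBound] at he
    | div _ _ => simp [Expr.okBound] at he
    | mod _ _ => simp [Expr.okBound] at he
    | len _ => simp [Expr.okBound] at he
  | add _ _ => simp [Expr.okBound] at he
  | sub e f ihe _ =>
    simp only [Expr.okBound] at he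
    have := ihe he
    simp only [Expr.eval]; omega
  | div _ _ => simp [Expr.okBound] at he
  | mod _ _ => simp [Expr.okBound] at he
  | len _ => simp [Expr.okBound] at he

theorem Expr.eval_cost (m : Mem) (b : ℕ) (hb : ∀ a i, m a i < 2 ^ b) (e : Expr) :
    e.eval m < 2 ^ (b + e.wt) ∧ e.cost m ≤ e.wt * (b + e.wt + 1) := by
  have mono : ∀ {v u w : ℕ}, v < 2 ^ u → u ≤ w → v < 2 ^ w := fun h huw =>
    h.trans_le (Nat.pow_le_pow_right (by norm_num) huw)
  have bin : ∀ {v c1 c2 w1 w2 : ℕ}, v < 2 ^ (b + (w1 + w2 + 1)) → c1 ≤ w1 * (b + w1 + 1) →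
      c2 ≤ w2 * (b + w2 + 1) →
      c1 + c2 + Nat.size v + 1 ≤ (w1 + w2 + 1) * (b + (w1 + w2 + 1) + 1) := by
    intro v c1 c2 w1 w2 h h1 h2
    have := Nat.size_le.2 h
    nlinarith [Nat.zero_le (w1 * w2), Nat.zero_le w1, Nat.zero_le w2]
  induction e with
  | const c =>
    refine ⟨mono (Nat.lt_size_self c) (by simp only [Expr.wt]; omega), ?_⟩
    simp only [Expr.wt, Expr.cost]
    exact Nat.le_mul_of_pos_right _ (by omega)
  | load a i ih =>
    have h := mono (hb a (i.eval m)) (show b ≤ b + (i.wt + 0 + 1) by omega)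
    exact ⟨h, bin (c2 := 0) (w2 := 0) h ih.2 (by simp)⟩
  | add e f ihe ihf =>
    have h : e.eval m + f.eval m < 2 ^ (b + (e.wt + f.wt + 1)) := by
      have h1 := mono ihe.1 (show b + e.wt ≤ b + (e.wt + f.wt) by omega)
      have h2 := mono ihf.1 (show b + f.wt ≤ b + (e.wt + f.wt) by omega)
      rw [← add_assoc, pow_succ]; omega
    exact ⟨h, bin h ihe.2 ihf.2⟩
  | sub e f ihe ihf =>
    have h := mono ((Nat.sub_le _ (f.eval m)).trans_lt ihe.1)
      (show b + e.wt ≤ b + (e.wt + f.wt + 1) by omega)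
    exact ⟨h, bin h ihe.2 ihf.2⟩
  | div e f ihe ihf =>
    have h := mono ((Nat.div_le_self _ (f.eval m)).trans_lt ihe.1)
      (show b + e.wt ≤ b + (e.wt + f.wt + 1) by omega)
    exact ⟨h, bin h ihe.2 ihf.2⟩
  | mod e f ihe ihf =>
    have h := mono ((Nat.mod_le _ (f.eval m)).trans_lt ihe.1)
      (show b + e.wt ≤ b + (e.wt + f.wt + 1) by omega)
    exact ⟨h, bin h ihe.2 ihf.2⟩
  | len e ih =>
    have h := mono ((Nat.size_le.2 ih.1).trans_lt Nat.lt_two_pow_self)
      (show b + e.wt ≤ b + (e.wt + 0 + 1) by omega)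
    exact ⟨h, bin (c2 := 0) (w2 := 0) h ih.2 (by simp)⟩

theorem exec_cost (c : Cmd) (Ps : List ℕ) (B : ℕ) (hB : 200 ≤ B) (hok : c.okLoops Ps = true)
    (hw : ∀ p ∈ Ps, p ∉ c.writes) (m : Mem) (t b : ℕ) (hm : ∀ p ∈ Ps, m p 0 ≤ B)
    (hb : ∀ a i, m a i < 2 ^ b) :
    (exec c (m, t)).All fun s => s.2 ≤ t + c.costBound B * (b + c.costBound B + 1) ∧
      (∀ a i, s.1 a i < 2 ^ (b + c.costBound B)) ∧ ∀ p ∈ Ps, s.1 p = m p := by
  have mono : ∀ {v u w : ℕ}, v < 2 ^ u → u ≤ w → v < 2 ^ w := fun h huw =>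
    h.trans_le (Nat.pow_le_pow_right (by norm_num) huw)
  induction c generalizing m t b with
  | store a i e =>
    have h1 := Expr.eval_cost m b hb i
    have h2 := Expr.eval_cost m b hb e
    refine ⟨?_, fun a' i' => ?_, fun p hp => ?_⟩
    · simp only [Cmd.costBound]
      nlinarith [h1.2, h2.2, Nat.zero_le (i.wt * e.wt), Nat.zero_le i.wt, Nat.zero_le e.wt]
    · simp only [Cmd.costBound, Mem.set_apply]
      split_ifs
      · exact mono h2.1 (by omega)
      · exact mono (hb _ _) (by omega)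
    · exact Mem.set_of_ne m _ _ (by simpa [Cmd.writes] using hw p hp)
  | seq c d ihc ihd =>
    simp only [Cmd.okLoops, Bool.and_eq_true] at hok
    have hwc : ∀ p ∈ Ps, p ∉ c.writes := fun p hp h => hw p hp (by simp [Cmd.writes, h])
    have hwd : ∀ p ∈ Ps, p ∉ d.writes := fun p hp h => hw p hp (by simp [Cmd.writes, h])
    refine Rand.All_bind (ihc hok.1 hwc m t b hm hb) ?_
    rintro ⟨m', t'⟩ ⟨h1, h0, h2⟩
    refine Rand.All_mono ?_ (ihd hok.2 hwd m' t' _ (fun p hp => ?_) h0)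
    · rintro ⟨m'', t''⟩ ⟨h3, h5, h4⟩
      refine ⟨?_, fun a i => mono (h5 a i) (by simp only [Cmd.costBound]; omega),
        fun p hp => (h4 p hp).trans (h2 p hp)⟩
      simp only [Cmd.costBound] at *
      nlinarith [Nat.zero_le (c.costBound B * d.costBound B)]
    · have := h2 p hp
      simp only at this
      rw [this]; exact hm p hp
  | ifz e c d ihc ihd =>
    simp only [Cmd.okLoops, Bool.and_eq_true] at hok
    have hwc : ∀ p ∈ Ps, p ∉ c.writes := fun p hp h => hw p hp (by simp [Cmd.writes, h])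
    have hwd : ∀ p ∈ Ps, p ∉ d.writes := fun p hp h => hw p hp (by simp [Cmd.writes, h])
    have h2 := (Expr.eval_cost m b hb e).2
    have num : ∀ {w c1 c2 ce t' : ℕ}, ce ≤ w * (b + w + 1) →
        t' ≤ t + ce + 1 + c1 * (b + c1 + 1) →
        t' ≤ t + (w + 1 + c1 + c2) * (b + (w + 1 + c1 + c2) + 1) := by
      intro w c1 c2 ce t' h h'
      have a1 := Nat.mul_le_mul_left w (show b + w + 1 ≤ b + (w + 1 + c1 + c2) + 1 by omega)
      have a2 := Nat.mul_le_mul_left c1 (show b + c1 + 1 ≤ b + (w + 1 + c1 + c2) + 1 by omega)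
      rw [add_mul, add_mul, add_mul]
      omega
    simp only [exec]
    split_ifs
    · refine Rand.All_mono ?_ (ihc hok.1 hwc m _ b hm hb)
      rintro ⟨m'', t''⟩ ⟨h3, h5, h4⟩
      exact ⟨num h2 h3, fun a i => mono (h5 a i) (by simp only [Cmd.costBound]; omega), h4⟩
    · refine Rand.All_mono ?_ (ihd hok.2 hwd m _ b hm hb)
      rintro ⟨m'', t''⟩ ⟨h3, h5, h4⟩
      refine ⟨?_, fun a i => mono (h5 a i) (by simp only [Cmd.costBound]; omega), h4⟩
      have := num (c2 := c.costBound B) h2 h3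
      simp only [Cmd.costBound]
      rwa [add_right_comm _ (d.costBound B)] at this
  | loop e c ih =>
    simp only [Cmd.okLoops, Bool.and_eq_true] at hok
    have hwc : ∀ p ∈ Ps, p ∉ c.writes := fun p hp h => hw p hp (by simpa [Cmd.writes] using h)
    have he := Expr.eval_le_of_ok Ps B hB m hm e hok.1
    have h2 := (Expr.eval_cost m b hb e).2
    simp only [exec, Cmd.costBound]
    rw [iter_eq_iterIdx]
    generalize hL : b + (e.wt + 1 + B * (c.costBound B + 1)) + 1 = L
    have key := All_iterIdx (p := fun i (s : Mem × ℕ) =>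
        s.2 ≤ t + e.cost m + 1 + i * ((c.costBound B + 1) * L) ∧
          (∀ a j, s.1 a j < 2 ^ (b + i * c.costBound B)) ∧ ∀ p ∈ Ps, s.1 p = m p)
      (g := fun _ u => exec c (u.1, u.2 + 1)) (e.eval m) (a := (m, t + e.cost m + 1))
      ⟨by simp, by simpa using hb, fun _ _ => rfl⟩ (by
        rintro i hi ⟨m', t'⟩ ⟨h1, h0, h2⟩
        refine Rand.All_mono ?_ (ih hok.2 hwc m' (t' + 1) _ (fun p hp => ?_) h0)
        · rintro ⟨m'', t''⟩ ⟨h3, h5, h4⟩
          refine ⟨?_, fun a j => mono (h5 a j) (by rw [add_mul]; omega),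
            fun p hp => (h4 p hp).trans (h2 p hp)⟩
          simp only at *
          have a1 : (i + 1) * c.costBound B ≤ B * (c.costBound B + 1) :=
            Nat.mul_le_mul (by omega) (by omega)
          have a2 := Nat.mul_le_mul_left (c.costBound B)
            (show b + i * c.costBound B + c.costBound B + 1 ≤ L by rw [add_mul] at a1; omega)
          have a3 : (i + 1) * ((c.costBound B + 1) * L) =
              i * ((c.costBound B + 1) * L) + (c.costBound B * L + L) := by ring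
          omega
        · have := h2 p hp
          simp only at this
          rw [this]; exact hm p hp)
    refine Rand.All_mono ?_ key
    rintro ⟨m', t'⟩ ⟨h1, h0, h3⟩
    have a1 : e.eval m * c.costBound B ≤ B * (c.costBound B + 1) := Nat.mul_le_mul he (by omega)
    refine ⟨?_, fun a j => mono (h0 a j) (by omega), h3⟩
    have a2 := Nat.mul_le_mul_right ((c.costBound B + 1) * L) he
    have a3 := Nat.mul_le_mul_left e.wt (show b + e.wt + 1 ≤ L by omega)
    simp only at h1 ⊢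
    rw [add_mul, add_mul, mul_assoc]
    omega
  | coin a =>
    have ha : ∀ p ∈ Ps, p ≠ a := fun p hp => by simpa [Cmd.writes] using hw p hp
    have hv : ∀ v, v ≤ 1 → ∀ a' i, m.set a 0 v a' i < 2 ^ (b + 1) := by
      intro v hv a' i
      rw [Mem.set_apply]
      split_ifs
      · exact hv.trans_lt (Nat.one_lt_two_pow (by omega))
      · exact mono (hb _ _) (by omega)
    exact ⟨⟨by simp [Cmd.costBound], hv 0 (by omega), fun p hp => Mem.set_of_ne m _ _ (ha p hp)⟩,
      ⟨by simp [Cmd.costBound], hv 1 le_rfl, fun p hp => Mem.set_of_ne m _ _ (ha p hp)⟩⟩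

theorem costBound_poly (c : Cmd) : ∃ C d : ℕ, ∀ B : ℕ, c.costBound B ≤ C * (B + 1) ^ d := by
  have hpow : ∀ (B d d' : ℕ), d ≤ d' → (B + 1) ^ d ≤ (B + 1) ^ d' := fun B d d' h =>
    Nat.pow_le_pow_right (Nat.succ_pos B) h
  have hone : ∀ (B d : ℕ), 1 ≤ (B + 1) ^ d := fun B d => Nat.one_le_pow _ _ (Nat.succ_pos B)
  induction c with
  | store a i e => exact ⟨i.wt + e.wt + 1, 0, fun B => by simp [Cmd.costBound]⟩
  | seq c d ihc ihd =>
    obtain ⟨C1, d1, h1⟩ := ihc
    obtain ⟨C2, d2, h2⟩ := ihd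
    refine ⟨C1 + C2, d1 + d2, fun B => ?_⟩
    have a1 := Nat.mul_le_mul_left C1 (hpow B d1 (d1 + d2) (by omega))
    have a2 := Nat.mul_le_mul_left C2 (hpow B d2 (d1 + d2) (by omega))
    have := h1 B
    have := h2 B
    simp only [Cmd.costBound]
    rw [Nat.add_mul]
    omega
  | ifz e c d ihc ihd =>
    obtain ⟨C1, d1, h1⟩ := ihc
    obtain ⟨C2, d2, h2⟩ := ihd
    refine ⟨e.wt + 1 + C1 + C2, d1 + d2, fun B => ?_⟩
    have a1 := Nat.mul_le_mul_left C1 (hpow B d1 (d1 + d2) (by omega))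
    have a2 := Nat.mul_le_mul_left C2 (hpow B d2 (d1 + d2) (by omega))
    have a3 := Nat.mul_le_mul_left (e.wt + 1) (hone B (d1 + d2))
    have := h1 B
    have := h2 B
    simp only [Cmd.costBound]
    rw [Nat.add_mul, Nat.add_mul]
    omega
  | loop e c ih =>
    obtain ⟨C1, d1, h1⟩ := ih
    refine ⟨e.wt + 1 + (C1 + 1), d1 + 1, fun B => ?_⟩
    have a3 := Nat.mul_le_mul_left (e.wt + 1) (hone B (d1 + 1))
    have a4 : c.costBound B + 1 ≤ (C1 + 1) * (B + 1) ^ d1 := by
      have := h1 B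
      have := hone B d1
      rw [Nat.add_mul]; omega
    have a5 : B * (c.costBound B + 1) ≤ (C1 + 1) * (B + 1) ^ (d1 + 1) := by
      calc B * (c.costBound B + 1) ≤ (B + 1) * ((C1 + 1) * (B + 1) ^ d1) :=
            Nat.mul_le_mul (Nat.le_succ B) a4
        _ = _ := by ring
    simp only [Cmd.costBound]
    rw [Nat.add_mul]
    omega
  | coin a => exact ⟨1, 0, fun B => by simp [Cmd.costBound]⟩

theorem Det.exec_All {c : Cmd} {m : Mem} {p : Mem → Prop}
    (h : Det c m p) (t : ℕ) : (exec c (m, t)).All fun s => p s.1 := by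
  have h2 := (exec_sim_run c m t).trans h
  generalize exec c (m, t) = r at h2
  cases r with
  | ret a =>
    obtain ⟨b, hb, hp⟩ := h2
    subst hb
    exact hp
  | flip _ _ => exact h2.elim

/-- Time and cell bounds after a part of weight `w`. -/
def Cst (b w : ℕ) (s : Mem × ℕ) : Prop := s.2 ≤ w * (b + w + 1) ∧ ∀ a i, s.1 a i < 2 ^ (b + w)

theorem cost_step (c : Cmd) (Ps : List ℕ) (B : ℕ) (hB : 200 ≤ B) (hok : c.okLoops Ps = true)
    (hw : ∀ p ∈ Ps, p ∉ c.writes) (m : Mem) (t b w : ℕ) (hm : ∀ p ∈ Ps, m p 0 ≤ B)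
    (h : Cst b w (m, t)) : (exec c (m, t)).All (Cst b (w + c.costBound B)) := by
  refine Rand.All_mono ?_ (exec_cost c Ps B hB hok hw m t (b + w) hm h.2)
  rintro ⟨m', t'⟩ ⟨h1, h2, -⟩
  refine ⟨?_, by simpa only [add_assoc] using h2⟩
  have h3 := h.1
  simp only at h1 h3 ⊢
  nlinarith [Nat.zero_le (w * c.costBound B)]

def psMain : List ℕ := [aM, aN, aPP, aW, aB2, aCAP, aT0, aTT, aREP, aQ]

theorem progC_cost (x : Expr) (main : Cmd) (hok : main.okLoops psMain = true)
    (hw : ∀ p ∈ psMain, p ∉ main.writes) :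
    ∃ C d : ℕ, ∀ (m n : ℕ) (r : Fin m → ℕ) (c : Fin n → ℕ), 0 < m → 0 < n →
      ∀ (ps : List ℕ) (xv : ℕ), (∀ M : Mem, M 0 = input r c ps 0 → x.eval M = xv) →
        (∀ i, ps.getD i 0 < 2 ^ parP r c xv) →
        (exec (progC x main) (input r c ps, 0)).All fun s => s.2 ≤ C * parP r c xv ^ d := by
  obtain ⟨C, d, hC⟩ := costBound_poly (progC x main)
  refine ⟨C * (2 * 2 ^ 148) ^ d * (C * (2 * 2 ^ 148) ^ d + 2), 148 * d + (148 * d + 1),
    fun m n r c hm hn ps xv hx hps => ?_⟩
  have hW := parP_lt_W r c xv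
  have hsz : ∀ i, Nat.size (r i) ≤ 2 ^ Nat.size (parP r c xv) := fun i =>
    (size_le_parP r c xv i).trans hW.le
  have hP : m + n + 32 ≤ parP r c xv := by unfold parP; omega
  have hin : ∀ a i, input r c ps a i < 2 ^ parP r c xv := by
    intro a i
    have lt : ∀ v, v ≤ parP r c xv → v < 2 ^ parP r c xv := fun v h =>
      h.trans_lt Nat.lt_two_pow_self
    unfold input
    split_ifs
    · rcases i with _ | _ | i
      · exact lt m (by omega)
      · exact lt n (by omega)
      · exact hps i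
    · by_cases hi : i < m
      · have := input_one r c ps ⟨i, hi⟩
        simp only [input, one_ne_zero, if_false, if_true] at this
        rw [this]
        exact Nat.size_le.1 (size_le_parP r c xv _)
      · rw [List.getD_eq_default _ _ (by simpa using hi)]; positivity
    · by_cases hi : i < n
      · have := input_two r c ps ⟨i, hi⟩
        simp only [input, OfNat.ofNat_ne_zero, OfNat.ofNat_ne_one, if_false, if_true] at this
        rw [this]
        refine Nat.size_le.1 ?_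
        have := single_le_sum (f := fun i => Nat.size (c i)) (fun _ _ => Nat.zero_le _)
          (mem_univ (⟨i, hi⟩ : Fin n))
        unfold parP
        omega
      · rw [List.getD_eq_default _ _ (by simpa using hi)]; positivity
    · positivity
  have hW2 : 2 ^ Nat.size (parP r c xv) ≤ 2 * parP r c xv := by
    have h1 : 0 < Nat.size (parP r c xv) := Nat.size_pos.2 (by omega)
    have h2 : 2 ^ (Nat.size (parP r c xv) - 1) ≤ parP r c xv := Nat.lt_size.1 (by omega)
    rw [show Nat.size (parP r c xv) = Nat.size (parP r c xv) - 1 + 1 by omega, pow_succ]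
    omega
  have d1 := init1C_det r c ps x xv hx
  have d2 := init23_det r c hm hn ps xv
  generalize parP r c xv = P at *
  generalize hb : Nat.size P = b at *
  have hbW : b < 2 ^ b := Nat.lt_two_pow_self
  obtain ⟨W, hWdef⟩ : ∃ W, W = 2 ^ b := ⟨_, rfl⟩
  have pw : ∀ k, k ≤ 148 → W ^ k ≤ W ^ 148 := fun k hk => Nat.pow_le_pow_right (by omega) hk
  have w1 := pw 1 (by norm_num)
  have w2 := pw 2 (by norm_num)
  have w3 : 32 * W ≤ W ^ 2 := by rw [sq]; exact Nat.mul_le_mul_right _ (by omega)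
  have w4 : m * n ≤ W ^ 2 := by rw [sq]; exact Nat.mul_le_mul (by omega) (by omega)
  have w5 : 4 * b * W ^ 10 ≤ W ^ 148 :=
    (Nat.mul_le_mul_right _ (show 4 * b ≤ W ^ 2 by omega)).trans
      (by rw [← pow_add]; exact pw _ (by norm_num))
  have w13 := pw 13 (by norm_num)
  have w33 := pw 33 (by norm_num)
  rw [pow_one] at w1
  have hBP : W ^ 148 + 1 ≤ 2 * 2 ^ 148 * P ^ 148 := by
    have : W ^ 148 ≤ (2 * P) ^ 148 := Nat.pow_le_pow_left (by omega) _
    rw [mul_pow] at this
    rw [mul_assoc]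
    omega
  obtain ⟨B, hBdef⟩ : ∃ B, B = W ^ 148 := ⟨_, rfl⟩
  rw [← hBdef] at w1 w2 w5 w13 w33 hBP
  have hB : 200 ≤ B := by omega
  have h0 := Rand.All_and (cost_step init0C [] B hB (by decide) (by simp) (input r c ps) 0 P 0
    (by simp) ⟨by simp, hin⟩) ((init0C_det r c ps).exec_All 0)
  refine Rand.All_bind h0 ?_
  rintro ⟨m1, t1⟩ ⟨c1, h1, h2, h3⟩
  simp only at h1 h2 h3
  have h4 := Rand.All_and (cost_step (init1C x) [aM, aN] B hB rfl
    (show ∀ p ∈ [aM, aN], p ∉ (init1C (.const 0)).writes by decide) m1 t1 P _ (by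
      simp only [List.mem_cons, List.not_mem_nil, or_false]
      rintro p (rfl | rfl) <;> omega) c1) ((d1 m1 h1 h2 h3).exec_All t1)
  refine Rand.All_bind h4 ?_
  rintro ⟨m2, t2⟩ ⟨c2, g1, g2, g3⟩
  simp only at g1 g2 g3
  have h5 := Rand.All_and (cost_step init2C [aB] B hB (by decide) (by decide) m2 t2 P _ (by
      simp only [List.mem_cons, List.not_mem_nil, or_false]
      rintro p rfl; omega) c2) ((d2 m1 m2 h1 h2 h3 g1 g2 g3).exec_All t2)
  refine Rand.All_bind h5 ?_
  rintro ⟨m3, t3⟩ ⟨c3, p3⟩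
  have h6 := Rand.All_and (cost_step init3C [aM, aN, aPP, aW] B hB (by decide) (by decide) m3 t3 P
    _ (by
      have e1 : m3 aM 0 = m := p3.hM
      have e2 : m3 aN 0 = n := p3.hN
      have e3 : m3 aPP 0 = m * n := p3.hPP
      have e4 : m3 aW 0 = 2 ^ b := p3.hW
      simp only [List.mem_cons, List.not_mem_nil, or_false]
      rintro p (rfl | rfl | rfl | rfl) <;> omega) c3) ((init3C_det _ hsz m3 p3).exec_All t3)
  refine Rand.All_bind h6 ?_
  rintro ⟨m4, t4⟩ ⟨c4, i0, j0, -, -, p4⟩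
  have h7 := cost_step main psMain B hB hok hw m4 t4 P _ (by
    have e1 : m4 aM 0 = m := p4.hM
    have e2 : m4 aN 0 = n := p4.hN
    have e3 : m4 aPP 0 = m * n := p4.hPP
    have e4 : m4 aW 0 = 2 ^ b := p4.hW
    have e5 : m4 aB2 0 = 2 * b := p4.hB2
    have e6 : m4 aCAP 0 = (2 ^ b) ^ 13 := p4.hCAP
    have e7 : m4 aT0 0 = 4 * b * (2 ^ b) ^ 10 := p4.hT0
    have e8 : m4 aTT 0 = (2 ^ b) ^ 148 := p4.hTT
    have e9 : m4 aREP 0 = 4 * 2 ^ b := p4.hREP
    have e10 : m4 aQ 0 = (2 ^ b) ^ 33 := p4.hQ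
    rw [← hWdef] at e4 e6 e7 e8 e9 e10
    rw [← hBdef] at e8
    simp only [psMain, List.mem_cons, List.not_mem_nil, or_false]
    rintro p (rfl | rfl | rfl | rfl | rfl | rfl | rfl | rfl | rfl | rfl) <;> omega) c4
  refine Rand.All_mono ?_ h7
  rintro ⟨m5, t5⟩ ⟨ht, -⟩
  have e : 0 + init0C.costBound B + (init1C x).costBound B + init2C.costBound B +
      init3C.costBound B + main.costBound B = (progC x main).costBound B := by
    simp only [progC, Cmd.costBound]; omega
  rw [e] at ht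
  have k1 : (progC x main).costBound B ≤ C * (2 * 2 ^ 148) ^ d * P ^ (148 * d) := by
    refine (hC B).trans ?_
    rw [pow_mul, mul_assoc, ← mul_pow]
    exact Nat.mul_le_mul_left C (Nat.pow_le_pow_left hBP d)
  generalize C * (2 * 2 ^ 148) ^ d = C' at *
  have k2 : P ^ (148 * d) ≤ P ^ (148 * d + 1) := Nat.pow_le_pow_right (by omega) (by omega)
  have k3 : P ≤ P ^ (148 * d + 1) := Nat.le_self_pow (by omega) _
  have k4 : P + (progC x main).costBound B + 1 ≤ (C' + 2) * P ^ (148 * d + 1) := by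
    have := Nat.mul_le_mul_left C' k2
    rw [add_mul]; omega
  refine ht.trans ((Nat.mul_le_mul k1 k4).trans (le_of_eq ?_))
  rw [pow_add P (148 * d) (148 * d + 1)]; ring

set_option maxRecDepth 8000 in
theorem samplerMain_ok : samplerMain.okLoops psMain = true := by decide

set_option maxRecDepth 8000 in
theorem samplerMain_w : ∀ p ∈ psMain, p ∉ samplerMain.writes := by decide

set_option maxRecDepth 8000 in
theorem counterMain_ok : counterMain.okLoops psMain = true := by decide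

set_option maxRecDepth 20000 in
theorem counterMain_w : ∀ p ∈ psMain, p ∉ counterMain.writes := by decide

theorem samplerC_cost : ∃ C d : ℕ, ∀ (m n : ℕ) (r : Fin m → ℕ) (c : Fin n → ℕ), 0 < m → 0 < n →
    ∀ k : ℕ, (exec samplerC (input r c [k], 0)).All
      fun s => s.2 ≤ C * parP r c (Nat.size k) ^ d := by
  obtain ⟨C, d, h⟩ := progC_cost xS samplerMain samplerMain_ok samplerMain_w
  refine ⟨C, d, fun m n r c hm hn k => h m n r c hm hn [k] _ (fun M h => by simp [xS, h, input])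
    fun i => ?_⟩
  rcases i with _ | i
  · exact Nat.size_le.1 (show Nat.size k ≤ _ by unfold parP; omega)
  · simp

theorem counterC_cost : ∃ C d : ℕ, ∀ (m n : ℕ) (r : Fin m → ℕ) (c : Fin n → ℕ), 0 < m → 0 < n →
    ∀ k l : ℕ, (exec counterC (input r c [k, l], 0)).All
      fun s => s.2 ≤ C * parP r c (k + Nat.size l) ^ d := by
  obtain ⟨C, d, h⟩ := progC_cost xC counterMain counterMain_ok counterMain_w
  refine ⟨C, d, fun m n r c hm hn k l => h m n r c hm hn [k, l] _
    (fun M h => by simp [xC, h, input]) fun i => ?_⟩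
  rcases i with _ | _ | i
  · exact lt_of_le_of_lt (show k ≤ _ by unfold parP; omega) Nat.lt_two_pow_self
  · exact Nat.size_le.1 (show Nat.size l ≤ _ by unfold parP; omega)
  · simp

theorem one_le_logb (v : ℕ) : 1 ≤ Real.logb 2 ((v : ℝ) + 2) := by
  have h := Real.logb_le_logb_of_le (b := 2) (x := 2) (y := (v : ℝ) + 2) (by norm_num) (by norm_num)
    (by have : (0 : ℝ) ≤ v := Nat.cast_nonneg v
        linarith)
  rwa [Real.logb_self_eq_one (by norm_num)] at h

theorem size_le_logb (v : ℕ) : (Nat.size v : ℝ) ≤ 2 * Real.logb 2 ((v : ℝ) + 2) := by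
  have h1 := one_le_logb v
  rcases Nat.eq_zero_or_pos (Nat.size v) with h | h
  · rw [h]; push_cast; linarith
  · have h2 : 2 ^ (Nat.size v - 1) ≤ v + 2 := (Nat.lt_size.1 (show _ < Nat.size v by omega)).trans
      (by omega)
    have h3 := Real.logb_le_logb_of_le (b := 2) (x := 2 ^ (Nat.size v - 1)) (y := (v : ℝ) + 2)
      (by norm_num) (by positivity) (by exact_mod_cast h2)
    rw [Real.logb_pow, Real.logb_self_eq_one (by norm_num), Nat.cast_sub h] at h3
    push_cast at h3
    linarith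

theorem parP_le {m n : ℕ} (r : Fin m → ℕ) (c : Fin n → ℕ) (x : ℕ) :
    (parP r c x : ℝ) ≤ 2 * inLen r c + x + 32 := by
  have h1 : ∑ i, (Nat.size (r i) : ℝ) ≤ ∑ i, 2 * Real.logb 2 (r i + 2) :=
    sum_le_sum fun i _ => size_le_logb _
  have h2 : ∑ i, (Nat.size (c i) : ℝ) ≤ ∑ i, 2 * Real.logb 2 (c i + 2) :=
    sum_le_sum fun i _ => size_le_logb _
  rw [← mul_sum] at h1 h2
  have h3 : (0 : ℝ) ≤ m := Nat.cast_nonneg _
  have h4 : (0 : ℝ) ≤ n := Nat.cast_nonneg _
  unfold parP inLen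
  push_cast
  linarith

theorem two_le_inLen {m n : ℕ} (r : Fin m → ℕ) (c : Fin n → ℕ) (hm : 0 < m) (hn : 0 < n) :
    2 ≤ inLen r c := by
  have h1 : 0 ≤ ∑ i, Real.logb 2 (r i + 2) :=
    sum_nonneg fun i _ => zero_le_one.trans (one_le_logb _)
  have h2 : 0 ≤ ∑ i, Real.logb 2 (c i + 2) :=
    sum_nonneg fun i _ => zero_le_one.trans (one_le_logb _)
  have h3 : (1 : ℝ) ≤ m := by exact_mod_cast hm
  have h4 : (1 : ℝ) ≤ n := by exact_mod_cast hn
  unfold inLen
  linarith

/-- Bit length of the rounded inverse accuracy. -/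
theorem size_ceil_le (ε : ℝ) (h0 : 0 < ε) (h1 : ε < 1) :
    (Nat.size ⌈1 / ε⌉₊ : ℝ) ≤ 2 + 2 * Real.log (1 / ε) := by
  have h3 : 1 ≤ 1 / ε := by rw [le_div_iff₀ h0]; linarith
  have h5 : 0 ≤ Real.log (1 / ε) := Real.log_nonneg h3
  have h2 : (⌈1 / ε⌉₊ : ℝ) ≤ 2 * (1 / ε) := by
    linarith [Nat.ceil_lt_add_one (show 0 ≤ 1 / ε by linarith)]
  generalize ⌈1 / ε⌉₊ = x at h2
  rcases Nat.eq_zero_or_pos (Nat.size x) with h | h
  · rw [h]; push_cast; linarith
  · have h7 : 2 ^ (Nat.size x - 1) ≤ x := Nat.lt_size.1 (by omega)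
    have h8 : (2 : ℝ) ^ (Nat.size x - 1) ≤ 2 * (1 / ε) := le_trans (by exact_mod_cast h7) h2
    have h9 := Real.log_le_log (by positivity) h8
    rw [Real.log_pow, Nat.cast_sub h, Real.log_mul (by norm_num) (by linarith)] at h9
    have h10 := Real.log_two_gt_d9
    push_cast at h9
    by_contra hc
    push Not at hc
    nlinarith

theorem half_pow_size_ceil (ε : ℝ) (h0 : 0 < ε) : (1 / 2 : ℝ) ^ Nat.size ⌈1 / ε⌉₊ ≤ ε := by
  have h1 : 1 / ε ≤ (⌈1 / ε⌉₊ : ℝ) := Nat.le_ceil _
  have h2 : (⌈1 / ε⌉₊ : ℝ) ≤ 2 ^ Nat.size ⌈1 / ε⌉₊ := by exact_mod_cast (Nat.lt_size_self _).le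
  have h3 := h1.trans h2
  rw [div_le_iff₀ h0] at h3
  rw [one_div_pow, div_le_iff₀ (by positivity)]
  linarith

end Vale.Agent.P328
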