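import Vale.Agent.P328.Sampler
import Vale.Agent.P328.Chernoff

/-! Correctness of the functional counter. -/

namespace Vale.Agent.P328

open Finset

theorem round_aux (N o : ℕ) (x ε : ℝ) (hε0 : 0 < ε) (hε1 : ε < 1) (h1 : (o : ℝ) ≤ x + 1 / 2)
    (h2 : x + 1 / 2 < o + 1) (h3 : (1 - ε / 16) * N ≤ x) (h4 : x ≤ (1 + ε / 16) * (N + ε / 16)) :
    (1 - ε) * (N : ℝ) ≤ o ∧ (o : ℝ) ≤ (1 + ε) * N := by
  have hN : (0 : ℝ) ≤ N := Nat.cast_nonneg N
  have hεN : 0 ≤ ε * N := mul_nonneg hε0.le hN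
  have h5 : x ≤ N + (ε * N / 16 + 17 / 256) := by nlinarith
  by_cases h : ε * N / 16 + 17 / 256 < 1 / 2
  · have e1 : (o : ℝ) < N + 1 := by linarith
    have e2 : (N : ℝ) < o + 1 := by linarith
    have e3 : o < N + 1 := by exact_mod_cast e1
    have e4 : N < o + 1 := by exact_mod_cast e2
    obtain rfl : o = N := by omega
    constructor <;> linarith
  · constructor <;> linarith

theorem Rand.prob_mono_imp {α : Type} (t : Rand α) {p q : α → Prop} (h : ∀ a, p a → q a) :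
    t.prob p ≤ t.prob q := by
  rw [Rand.prob_eq_E, Rand.prob_eq_E]
  refine t.E_mono fun a => ?_
  by_cases hp : p a
  · simp [hp, h a hp]
  · simp only [hp, if_false]; split_ifs <;> norm_num

theorem iterIdx_congr {α : Type} (g g' : ℕ → α → Rand α) (k : ℕ) (h : ∀ i, i < k → g i = g' i)
    (a : α) : iterIdx g k a = iterIdx g' k a := by
  induction k with
  | zero => rfl
  | succ k ih =>
    rw [iterIdx, iterIdx, ih fun i hi => h i (Nat.lt_succ_of_lt hi), h k (Nat.lt_succ_self k)]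

/-- Invariant of the counter: the ratio is within `(1 ± ζ)^t` of the target `τ`. -/
def Good (ζ τ : ℝ) (t : ℕ) (A : ℕ × ℕ) : Prop :=
  0 < A.2 ∧ (1 - ζ) ^ t * τ * A.2 ≤ A.1 ∧ (A.1 : ℝ) ≤ (1 + ζ) ^ t * τ * A.2

namespace Inst

variable {I : Inst}

theorem eta_le_inv (h : I.OK) : (1 / 2 : ℝ) ^ (I.W ^ 2) ≤ 1 / (I.W : ℝ) ^ 15 := by
  have h1 : I.W ^ 15 ≤ 2 ^ (I.W ^ 2) := by
    have h2 := two_b_le h
    have h3 := h.h32
    have : I.W ^ 15 = 2 ^ (I.b * 15) := by rw [pow_mul]; rfl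
    rw [this]
    refine Nat.pow_le_pow_right (by norm_num) ?_
    have : 32 * I.W ≤ I.W ^ 2 := by rw [pow_two]; exact Nat.mul_le_mul_right _ h3
    omega
  have h2 : (I.W : ℝ) ^ 15 ≤ 2 ^ (I.W ^ 2) := by exact_mod_cast h1
  have h3 : (0 : ℝ) < I.W := by have := h.h32; exact_mod_cast (by omega : 0 < I.W)
  rw [one_div_pow]
  exact one_div_le_one_div_of_le (by positivity) h2

theorem tally_good (h : I.OK) (S : Rand ℕ) (ρ τ : ℝ) (hρ : 1 / 4 ≤ ρ) (hτ : 0 < τ)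
    (hS : |(S.E fun z => if z = 0 then 0 else 1) - ρ| ≤ (1 / 2) ^ (I.W ^ 2)) (t : ℕ) (A : ℕ × ℕ)
    (hA : Good (1 / (I.W : ℝ) ^ 14) τ t A) :
    1 - 2 * Real.exp (-((I.W : ℝ) ^ 3 / 4))
      ≤ (I.tally S A).prob (Good (1 / (I.W : ℝ) ^ 14) (ρ * τ) (t + 1)) := by
  obtain ⟨hA1, hA2, hA3⟩ := hA
  have hW : (32 : ℝ) ≤ I.W := by exact_mod_cast h.h32
  have hW0 : (0 : ℝ) < I.W := by linarith
  have hζ1 : 1 / (I.W : ℝ) ^ 14 < 1 := by
    rw [div_lt_one (by positivity)]; exact one_lt_pow₀ (by linarith) (by norm_num)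
  have hζ0 : 0 < 1 / (I.W : ℝ) ^ 14 := by positivity
  have hη0 : 0 ≤ 1 / (I.W : ℝ) ^ 15 := by positivity
  have hη1 : 8 * (1 / (I.W : ℝ) ^ 15) ≤ 1 / (I.W : ℝ) ^ 14 := by
    rw [mul_one_div, div_le_div_iff₀ (by positivity) (by positivity), one_mul, pow_succ' _ 14]
    exact mul_le_mul_of_nonneg_right (by linarith) (by positivity)
  have hS' := hS.trans (eta_le_inv h)
  have hexp : ((I.W ^ 33 : ℕ) : ℝ) * (1 / (I.W : ℝ) ^ 15) ^ 2 / 4 = (I.W : ℝ) ^ 3 / 4 := by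
    push_cast; field_simp
  have hQ0 : 0 < I.W ^ 33 := pow_pos (by have := h.h32; omega) _
  have hden : (0 : ℝ) < A.2 := by exact_mod_cast hA1
  have hnum : (0 : ℝ) < A.1 :=
    lt_of_lt_of_le (mul_pos (mul_pos (pow_pos (by linarith) t) hτ) hden) hA2
  have hinv : (I.tally S A).All fun a => a.2 = I.W ^ 33 * A.2 := by
    unfold tally
    rw [iter_eq_iterIdx]
    refine All_iterIdx (p := fun i (a : ℕ × ℕ) => a.2 = i * A.2) _ (by simp) fun i _ a ha => ?_
    refine Rand.All_bind (Rand.All_of_forall (p := fun _ => True) (fun _ => trivial) _) ?_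
    intro z _
    change a.2 + A.2 = (i + 1) * A.2
    rw [ha]; ring
  have hch := chernoff S
    (fun (a : ℕ × ℕ) z => (if z = 0 then a.1 else a.1 + A.1, a.2 + A.2))
    (fun a => (a.1 : ℝ) / A.1) (fun z => if z = 0 then 0 else 1)
    (fun z => by split_ifs <;> norm_num) (fun z => by split_ifs <;> norm_num)
    (fun a z => by
      simp only
      split_ifs
      · rw [add_zero]
      · push_cast; field_simp)
    (0, 0) (by simp) (I.W ^ 33) _ hη0 (by linarith)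
  rw [hexp] at hch
  have hun := prob_union (ι := Unit) (I.tally S A) _
    (Good (1 / (I.W : ℝ) ^ 14) (ρ * τ) (t + 1)) _ hinv _ (fun _ => hch) (by
      intro a ha hb
      have hb' := not_lt.1 (hb ())
      have hQ : (0 : ℝ) < ((I.W ^ 33 : ℕ) : ℝ) := by exact_mod_cast hQ0
      have ha' : (a.2 : ℝ) = ((I.W ^ 33 : ℕ) : ℝ) * A.2 := by exact_mod_cast ha
      have hc : (a.1 : ℝ) = (a.1 : ℝ) / A.1 * A.1 := by field_simp
      generalize ((I.W ^ 33 : ℕ) : ℝ) = Q at hb' hQ ha'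
      generalize (a.1 : ℝ) / A.1 = cnt at hb' hc
      generalize 1 / (I.W : ℝ) ^ 15 = η at hb' hS' hη0 hη1
      generalize 1 / (I.W : ℝ) ^ 14 = ζ at hη1 hζ0 hζ1 hA2 hA3
      obtain ⟨b1, b2⟩ := abs_le.1 hb'
      obtain ⟨b3, b4⟩ := abs_le.1 hS'
      have b5 := mul_le_mul_of_nonneg_right b3 hQ.le
      have b6 := mul_le_mul_of_nonneg_right b4 hQ.le
      have b7 : 2 * η ≤ ζ * ρ := by nlinarith
      have b8 := mul_le_mul_of_nonneg_right b7 hQ.le
      have c1 : (1 - ζ) * ρ * Q ≤ cnt := by linarith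
      have c2 : cnt ≤ (1 + ζ) * ρ * Q := by linarith
      have c0 : 0 ≤ (1 - ζ) * ρ * Q := mul_nonneg (mul_nonneg (by linarith) (by linarith)) hQ.le
      refine ⟨by rw [ha]; positivity, ?_, ?_⟩
      · rw [ha', hc]
        calc (1 - ζ) ^ (t + 1) * (ρ * τ) * (Q * A.2)
            = (1 - ζ) * ρ * Q * ((1 - ζ) ^ t * τ * A.2) := by ring
          _ ≤ cnt * A.1 := mul_le_mul c1 hA2
              (mul_pos (mul_pos (pow_pos (by linarith) t) hτ) hden).le (c0.trans c1)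
      · rw [ha', hc]
        calc cnt * A.1 ≤ (1 + ζ) * ρ * Q * ((1 + ζ) ^ t * τ * A.2) :=
              mul_le_mul c2 hA3 hnum.le ((c0.trans c1).trans c2)
          _ = _ := by ring)
  simpa using hun

theorem bern0_close (h : I.OK) {t : ℕ} (ht : t < I.T0) :
    |((I.bern0 t).E fun z => if z = 0 then 0 else 1) - I.Zc (t + 1) / I.Zc t|
      ≤ (1 / 2) ^ (I.W ^ 2) := by
  have hth : (1 - 1 / 2 ^ (2 * I.b) : ℝ) = I.th := by
    unfold th W; push_cast; rw [← pow_mul, mul_comm]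
  have h1 := chain_close h ht.le (fun y => I.th ^ min (I.W ^ 13) (I.phc (t + 1) y - I.phc t y))
    fun y => by
      rw [abs_of_nonneg (pow_nonneg (th_pos h).le _)]
      exact pow_le_one₀ (th_pos h).le (th_lt_one h).le
  rw [bern0, Rand.E_bind]
  simp only [E_acc, hth, one_ne_zero, if_true, if_false, mul_one, mul_zero, add_zero]
  refine le_of_eq_of_le ?_ h1
  congr 3
  refine sum_congr rfl fun y hy => ?_
  have a1 := phc_mono t y
  have a2 := phc_succ_le h t hy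
  have a3 : 2 * I.W ≤ I.W ^ 13 := by
    have := h.h32
    calc 2 * I.W ≤ I.W * I.W := Nat.mul_le_mul_right _ (by omega)
      _ = I.W ^ 2 := (pow_two _).symm
      _ ≤ I.W ^ 13 := Nat.pow_le_pow_right (by omega) (by norm_num)
  rw [min_eq_right (by omega), wc, wc, ← pow_add]
  congr 1
  omega

theorem Zc_ratio (h : I.OK) (t : ℕ) : 1 / 4 ≤ I.Zc (t + 1) / I.Zc t := by
  rw [le_div_iff₀ (Zc_pos1 h t), Zc, Zc, mul_sum]
  refine sum_le_sum fun y hy => ?_
  have a1 := pow_le_pow_of_le_one (th_pos h).le (th_lt_one h).le (phc_succ_le h t hy)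
  have a2 := mul_le_mul_of_nonneg_left (half_le_th_pow h) (pow_nonneg (th_pos h).le (I.phc t y))
  have a3 := pow_nonneg (th_pos h).le (I.phc t y)
  rw [pow_add] at a1
  unfold wc
  linarith

theorem bern1_close (h : I.OK) :
    |(I.bern1.E fun z => if z = 0 then 0 else 1) - I.rho| ≤ (1 / 2) ^ (I.W ^ 2) := by
  have hq := trial_close h (fun _ => 1) (by simp)
  rw [sum_const, nsmul_eq_mul, mul_one, div_self (card_pos h).ne', mul_one] at hq
  rw [bern1, Rand.E_bind]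
  refine le_of_eq_of_le ?_ hq
  congr 3
  funext x
  rw [Rand.E_ret]
  by_cases hv : I.valid x
  · rw [if_pos hv, if_neg (by unfold valid at hv; omega)]
  · rw [if_neg hv, if_pos (by unfold valid at hv; omega)]

theorem start_eq (I : Inst) : ((2 ^ ∑ s, I.lg s : ℕ) : ℝ) = (∏ s, (I.D s : ℝ)) * I.Zc 0 := by
  have e : I.Zc 0 = ∏ s, (I.K s : ℝ) := by
    simp only [Zc, wc, phc_zero, pow_zero, sum_const, nsmul_eq_mul, mul_one, box,
      Fintype.card_piFinset, card_range]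
    push_cast
    rfl
  rw [e, ← prod_mul_distrib, ← prod_pow_eq_pow_sum]
  push_cast
  refine prod_congr rfl fun s _ => ?_
  have := M_eq s
  unfold M at this
  rw [mul_comm]
  exact_mod_cast this

theorem fail_le (h : I.OK) :
    ((I.T0 + 1 : ℕ) : ℝ) * (2 * Real.exp (-((I.W : ℝ) ^ 3 / 4))) ≤ (1 / 2 : ℝ) ^ I.W := by
  have hW : (32 : ℝ) ≤ I.W := by exact_mod_cast h.h32
  have hW0 : (0 : ℝ) < I.W := by linarith
  have h1 : (I.T0 + 1) * 2 ≤ I.W ^ 12 := by
    have a1 := T0_le h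
    have a2 := h.h32
    have a3 : 1 ≤ I.W ^ 11 := Nat.one_le_pow _ _ (by omega)
    have a4 : 32 * I.W ^ 11 ≤ I.W * I.W ^ 11 := Nat.mul_le_mul_right _ a2
    rw [pow_succ' _ 11]
    omega
  have h1' : ((I.T0 + 1 : ℕ) : ℝ) * 2 ≤ (I.W : ℝ) ^ 12 := by exact_mod_cast h1
  have h3 : (I.W : ℝ) ≤ Real.exp I.W := by linarith [Real.add_one_le_exp (I.W : ℝ)]
  have h4 : (2 : ℝ) ^ I.W ≤ Real.exp I.W := by
    have : (2 : ℝ) ≤ Real.exp 1 := by linarith [Real.add_one_le_exp (1 : ℝ)]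
    calc (2 : ℝ) ^ I.W ≤ Real.exp 1 ^ I.W := pow_le_pow_left₀ (by norm_num) this _
      _ = Real.exp I.W := by rw [← Real.exp_nat_mul, mul_one]
  have h5 : (I.W : ℝ) ^ 12 * 2 ^ I.W ≤ Real.exp ((I.W : ℝ) ^ 3 / 4) := by
    calc (I.W : ℝ) ^ 12 * 2 ^ I.W ≤ Real.exp I.W ^ 12 * Real.exp I.W :=
          mul_le_mul (pow_le_pow_left₀ hW0.le h3 12) h4 (by positivity) (by positivity)
      _ = Real.exp (13 * I.W) := by
          rw [← Real.exp_nat_mul, ← Real.exp_add]; congr 1; push_cast; ring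
      _ ≤ _ := by
          refine Real.exp_le_exp.2 ?_
          have : (52 : ℝ) ≤ (I.W : ℝ) ^ 2 := by nlinarith
          nlinarith
  rw [Real.exp_neg, one_div, inv_pow]
  have h7 : 0 < Real.exp ((I.W : ℝ) ^ 3 / 4) := Real.exp_pos _
  generalize Real.exp ((I.W : ℝ) ^ 3 / 4) = E at h5 h7
  have h8 : E⁻¹ ≤ ((I.W : ℝ) ^ 12 * 2 ^ I.W)⁻¹ := inv_anti₀ (by positivity) h5
  calc ((I.T0 + 1 : ℕ) : ℝ) * (2 * E⁻¹) = ((I.T0 + 1 : ℕ) : ℝ) * 2 * E⁻¹ := by ring
    _ ≤ (I.W : ℝ) ^ 12 * ((I.W : ℝ) ^ 12 * 2 ^ I.W)⁻¹ :=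
        mul_le_mul h1' h8 (by positivity) (by positivity)
    _ = _ := by field_simp

theorem good_final (h : I.OK) (ε : ℝ) (hε1 : ε < 1) (hε : 1 ≤ ε * I.W) (N : ℕ) (A : ℕ × ℕ)
    (hA : Good (1 / (I.W : ℝ) ^ 14) N (I.T0 + 1) A) :
    (1 - ε) * (N : ℝ) ≤ ((A.1 + A.1 + A.2) / (A.2 + A.2) : ℕ) ∧
      (((A.1 + A.1 + A.2) / (A.2 + A.2) : ℕ) : ℝ) ≤ (1 + ε) * N := by
  obtain ⟨hA1, hA2, hA3⟩ := hA
  have hW : (32 : ℝ) ≤ I.W := by exact_mod_cast h.h32
  have hW0 : (0 : ℝ) < I.W := by linarith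
  have hε0 : 0 < ε := by
    by_contra h
    nlinarith
  have hu : ((I.T0 + 1 : ℕ) : ℝ) * (1 / (I.W : ℝ) ^ 14) ≤ ε / 32 := by
    have h1 : I.T0 + 1 ≤ I.W ^ 12 := by
      have a1 := T0_le h
      have a2 := h.h32
      have a3 : 1 ≤ I.W ^ 11 := Nat.one_le_pow _ _ (by omega)
      have a4 : 32 * I.W ^ 11 ≤ I.W * I.W ^ 11 := Nat.mul_le_mul_right _ a2
      rw [pow_succ' _ 11]
      omega
    have h1' : ((I.T0 + 1 : ℕ) : ℝ) ≤ (I.W : ℝ) ^ 12 := by exact_mod_cast h1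
    rw [mul_one_div, div_le_div_iff₀ (by positivity) (by norm_num)]
    calc ((I.T0 + 1 : ℕ) : ℝ) * 32 ≤ (I.W : ℝ) ^ 12 * I.W :=
          mul_le_mul h1' hW (by norm_num) (by positivity)
      _ = 1 * (I.W : ℝ) ^ 13 := by ring
      _ ≤ ε * I.W * (I.W : ℝ) ^ 13 := mul_le_mul_of_nonneg_right hε (by positivity)
      _ = _ := by ring
  have hζ1 : 1 / (I.W : ℝ) ^ 14 ≤ 1 := by
    rw [div_le_one (by positivity)]; exact one_le_pow₀ (by linarith)
  have hζ0 : 0 ≤ 1 / (I.W : ℝ) ^ 14 := by positivity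
  generalize 1 / (I.W : ℝ) ^ 14 = ζ at hu hζ1 hζ0 hA2 hA3
  generalize I.T0 + 1 = k at hu hA2 hA3
  have hlo : 1 - ε / 16 ≤ (1 - ζ) ^ k := by
    have := one_add_mul_le_pow (a := -ζ) (by linarith) k
    rw [← sub_eq_add_neg] at this
    linarith
  have hhi : (1 + ζ) ^ k ≤ 1 + ε / 16 := by
    have h1 : (1 + ζ) ^ k ≤ Real.exp ζ ^ k :=
      pow_le_pow_left₀ (by linarith) (by linarith [Real.add_one_le_exp ζ]) _
    rw [← Real.exp_nat_mul] at h1
    have h2 : Real.exp ((k : ℝ) * ζ) ≤ Real.exp (ε / 32) := Real.exp_le_exp.2 hu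
    have h3 := Real.abs_exp_sub_one_le (x := ε / 32) (by rw [abs_of_pos (by linarith)]; linarith)
    rw [abs_of_pos (show 0 < ε / 32 by linarith)] at h3
    have := (abs_le.1 h3).2
    linarith
  have hden : (0 : ℝ) < A.2 := by exact_mod_cast hA1
  have hN : (0 : ℝ) ≤ N := Nat.cast_nonneg _
  have hx1 : (1 - ε / 16) * N * A.2 ≤ (A.1 : ℝ) :=
    (mul_le_mul_of_nonneg_right (mul_le_mul_of_nonneg_right hlo hN) hden.le).trans hA2
  have hx2 : (A.1 : ℝ) ≤ (1 + ε / 16) * (N + ε / 16) * A.2 :=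
    hA3.trans (mul_le_mul_of_nonneg_right (mul_le_mul hhi (by linarith) hN (by linarith)) hden.le)
  generalize A.2 = Y at hA1 hx1 hx2 hden
  generalize A.1 = X at hx1 hx2
  have d1 : (X + X + Y) / (Y + Y) * (Y + Y) ≤ X + X + Y := Nat.div_mul_le_self _ _
  have d2 : X + X + Y < (Y + Y) * ((X + X + Y) / (Y + Y) + 1) :=
    Nat.lt_mul_div_succ _ (by omega)
  generalize (X + X + Y) / (Y + Y) = o at d1 d2
  have d1' : (o : ℝ) * (Y + Y) ≤ X + X + Y := by exact_mod_cast d1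
  have d2' : (X : ℝ) + X + Y < (Y + Y) * (o + 1) := by exact_mod_cast d2
  refine round_aux N o (X / Y) ε hε0 hε1 ?_ ?_ ?_ ?_
  · rw [← sub_le_iff_le_add, le_div_iff₀ hden]; linarith
  · rw [← lt_sub_iff_add_lt, div_lt_iff₀ hden]; linarith
  · rw [le_div_iff₀ hden]; exact hx1
  · rw [div_le_iff₀ hden]; exact hx2

end Inst

theorem Inst.counter_correct {I : Inst} (h : I.OK) (ε : ℝ) (hε1 : ε < 1) (hε : 1 ≤ ε * I.W) :
    1 - (1 / 2 : ℝ) ^ I.W ≤ I.counterR.prob fun out : ℕ =>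
      (1 - ε) * ((tables I.r I.c).card : ℝ) ≤ out ∧
        (out : ℝ) ≤ (1 + ε) * ((tables I.r I.c).card : ℝ) := by
  set g : ℕ → ℕ × ℕ → Rand (ℕ × ℕ) := fun t =>
    if t < I.T0 then I.tally (I.bern0 t) else I.tally I.bern1 with hg
  set τ : ℕ → ℝ := fun t =>
    if t ≤ I.T0 then (∏ s, (I.D s : ℝ)) * I.Zc t else (tables I.r I.c).card with hτ
  have e : (iterIdx (fun t => I.tally (I.bern0 t)) I.T0 (2 ^ ∑ s, I.lg s, 1)).bind
      (I.tally I.bern1) = iterIdx g (I.T0 + 1) (2 ^ ∑ s, I.lg s, 1) := by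
    rw [iterIdx, iterIdx_congr g (fun t => I.tally (I.bern0 t)) I.T0 fun i hi => if_pos hi]
    simp only [hg, lt_irrefl, if_false]
  have h1 := prob_iterIdx (fun t => Good (1 / (I.W : ℝ) ^ 14) (τ t) t) g
    (2 * Real.exp (-((I.W : ℝ) ^ 3 / 4))) (by positivity) (I.T0 + 1) (2 ^ ∑ s, I.lg s, 1)
    (by
      simp only [hτ, Nat.zero_le, if_true, Good, pow_zero, one_mul, Nat.cast_one, mul_one,
        I.start_eq, le_refl, and_self, one_pos])
    (by
      intro i hi A hA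
      have hi' : i ≤ I.T0 := by omega
      have hpos := mul_pos I.prodD_pos (Inst.Zc_pos1 h i)
      simp only [hτ, hi', if_true] at hA
      by_cases hlt : i < I.T0
      · have := Inst.tally_good h _ _ _ (Inst.Zc_ratio h i) hpos (Inst.bern0_close h hlt) i A hA
        have e1 : I.Zc (i + 1) / I.Zc i * ((∏ s, (I.D s : ℝ)) * I.Zc i) = τ (i + 1) := by
          have := (Inst.Zc_pos1 h i).ne'
          simp only [hτ, show i + 1 ≤ I.T0 from hlt, if_true]
          field_simp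
        rw [e1] at this
        simpa only [hg, hlt, if_true] using this
      · obtain rfl : i = I.T0 := by omega
        have := Inst.tally_good h _ _ _ (by linarith [Inst.rho_ge h]) hpos (Inst.bern1_close h) _ A
          hA
        have e1 : I.rho * ((∏ s, (I.D s : ℝ)) * I.Zc I.T0) = τ (I.T0 + 1) := by
          simp only [hτ, Nat.not_succ_le_self, if_false, Inst.rho]
          exact div_mul_cancel₀ _ hpos.ne'
        rw [e1] at this
        simpa only [hg, lt_irrefl, if_false] using this)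
  rw [Inst.counterR, prob_bind_ret, e]
  refine le_trans (by linarith [Inst.fail_le h]) (h1.trans (Rand.prob_mono_imp _ fun A hA => ?_))
  simp only [hτ, Nat.not_succ_le_self, if_false] at hA
  exact Inst.good_final h ε hε1 hε _ A hA

end Vale.Agent.P328
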