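import Vale.Agent.P328.RandE

/-! Functional description of the sampler and the counter. -/

namespace Vale.Agent.P328

open Finset

/-- An instance together with a largest row `i0`, a largest column `j0` and the bit length `b`
of the size parameter. -/
structure Inst where
  m : ℕ
  n : ℕ
  r : Fin m → ℕ
  c : Fin n → ℕ
  i0 : Fin m
  j0 : Fin n
  b : ℕ

/-- The box of vectors with `x s < M s`. -/
def box {ι : Type} [Fintype ι] [DecidableEq ι] (M : ι → ℕ) : Finset (ι → ℕ) :=
  Fintype.piFinset fun s => range (M s)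

theorem mem_box {ι : Type} [Fintype ι] [DecidableEq ι] {M x : ι → ℕ} :
    x ∈ box M ↔ ∀ s, x s < M s := by simp [box]

def coinR : Rand ℕ := .flip (.ret 0) (.ret 1)

/-- A uniform number below `2^k`. -/
def bits (k : ℕ) : Rand ℕ := iter (fun r => coinR.bind fun c => .ret (r + r + c)) k 0

/-- 1 with probability `(1 - 2^(-j))^d`, else 0. -/
def acc (j d : ℕ) : Rand ℕ :=
  iter (fun a => (bits j).bind fun r => .ret (if r = 0 then 0 else a)) d 1

namespace Inst

variable (I : Inst)

abbrev Cell : Type := Fin (I.m * I.n)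
abbrev St : Type := I.Cell → ℕ
abbrev Tab : Type := Fin I.m → Fin I.n → ℕ

def W : ℕ := 2 ^ I.b
def N : ℕ := ∑ i, I.r i
def rs : ℕ := I.r I.i0
def cs : ℕ := I.c I.j0

structure OK : Prop where
  sum_eq : ∑ i, I.r i = ∑ j, I.c j
  hi : ∀ i, I.r i ≤ I.r I.i0
  hj : ∀ j, I.c j ≤ I.c I.j0
  hW : I.m + I.n < I.W
  h32 : 32 ≤ I.W
  hsz : ∀ i, Nat.size (I.r i) ≤ I.W

def cell (i : Fin I.m) (j : Fin I.n) : I.Cell := finProdFinEquiv (i, j)

/-- Scale of a cell; 0 for the cells in row `i0` or column `j0`. -/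
def sig (s : I.Cell) : ℕ :=
  if s.divNat = I.i0 ∨ s.modNat = I.j0 then 0 else min (I.r s.divNat) (I.c s.modNat)

def lg (s : I.Cell) : ℕ := Nat.size (I.sig s)
def dl (s : I.Cell) : ℕ := I.lg s - 11 * I.b
/-- Block length. -/
def D (s : I.Cell) : ℕ := 2 ^ I.dl s
/-- Side of the fine box. -/
def M (s : I.Cell) : ℕ := 2 ^ I.lg s
/-- Side of the coarse box. -/
def K (s : I.Cell) : ℕ := 2 ^ (I.lg s - I.dl s)
def G : ℕ := ∑ s, (I.D s - 1)

def rowS (x : I.St) (i : Fin I.m) : ℕ := ∑ s, if s.divNat = i then x s else 0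
def colS (x : I.St) (j : Fin I.n) : ℕ := ∑ s, if s.modNat = j then x s else 0
def totS (x : I.St) : ℕ := ∑ s, x s

def negR (x : I.St) (i : Fin I.m) : ℕ := I.rowS x i - I.r i
def negC (x : I.St) (j : Fin I.n) : ℕ := I.colS x j - I.c j
def neg0 (g : ℕ) (x : I.St) : ℕ := I.N - (I.rs + I.cs + g + I.totS x)

def ellR (i : Fin I.m) : ℕ := min (I.r i) I.cs / I.W ^ 6 + 1
def ellC (j : Fin I.n) : ℕ := min I.rs (I.c j) / I.W ^ 6 + 1
def ell0 : ℕ := min I.rs I.cs / I.W ^ 6 + 1

/-- Penalty exponent at annealing level `t`, with slack `g` in the corner constraint. -/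
def phi (g t : ℕ) (x : I.St) : ℕ :=
  ∑ i, t * I.negR x i / I.ellR i / I.W ^ 8 + ∑ j, t * I.negC x j / I.ellC j / I.W ^ 8
    + t * I.neg0 g x / I.ell0 / I.W ^ 8

/-- Total violation. -/
def ng (g : ℕ) (x : I.St) : ℕ := ∑ i, I.negR x i + ∑ j, I.negC x j + I.neg0 g x

/-- The free cells `x` extend to a table. -/
def valid (x : I.St) : Prop := I.ng 0 x = 0

instance (x : I.St) : Decidable (I.valid x) := inferInstanceAs (Decidable (I.ng 0 x = 0))

/-- The table with free cells `x`. -/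
def tab (x : I.St) : I.Tab := fun i j =>
  if i = I.i0 then
    (if j = I.j0 then I.rs + I.cs + I.totS x - I.N else I.c j - I.colS x j)
  else if j = I.j0 then I.r i - I.rowS x i else x (I.cell i j)

def preR (i : Fin I.m) : ℕ := ∑ i', if i' < i then I.r i' else 0
def preC (j : Fin I.n) : ℕ := ∑ j', if j' < j then I.c j' else 0

/-- The north-west corner table. -/
def nw : I.Tab := fun i j =>
  min (I.preR i + I.r i) (I.preC j + I.c j) - max (I.preR i) (I.preC j)

/-- Lower corner of the block `y`. -/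
def low (y : I.St) : I.St := fun s => I.D s * y s

/-- Block of a fine vector. -/
def blk (x : I.St) : I.St := fun s => x s / I.D s

def phc (t : ℕ) (y : I.St) : ℕ := I.phi I.G t (I.low y)

noncomputable def th : ℝ := 1 - 1 / (I.W : ℝ) ^ 2

/-- Weight of a block at level `t`. -/
noncomputable def wc (t : ℕ) (y : I.St) : ℝ := I.th ^ I.phc t y

noncomputable def Zc (t : ℕ) : ℝ := ∑ y ∈ box I.K, I.wc t y

def T0 : ℕ := 4 * I.b * I.W ^ 10

def tryR (t : ℕ) (y y' : I.St) : Rand I.St :=
  (acc (2 * I.b) (min (I.W ^ 13) (I.phc t y' - I.phc t y))).bind fun a =>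
    .ret (if a = 0 then y else y')

def moveR (t : ℕ) (y : I.St) (s : I.Cell) (dir : ℕ) : Rand I.St :=
  if dir = 0 then
    (if y s + 1 < I.K s then I.tryR t y (Function.update y s (y s + 1)) else .ret y)
  else if y s = 0 then .ret y else I.tryR t y (Function.update y s (y s - 1))

def step0 (t : ℕ) (y : I.St) : Rand I.St :=
  (bits (2 * I.b)).bind fun s => coinR.bind fun dir =>
    if h : s < I.m * I.n then I.moveR t y ⟨s, h⟩ dir else .ret y

def stepR (t : ℕ) (y : I.St) : Rand I.St :=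
  coinR.bind fun z => if z = 0 then .ret y else I.step0 t y

def chainR (t : ℕ) : Rand I.St := iter (I.stepR t) (I.W ^ 148) fun _ => 0

/-- Add a uniform offset inside the block. -/
def offsR (y : I.St) : Rand I.St :=
  iterIdx (fun s x => if h : s < I.m * I.n then
      (bits (I.dl ⟨s, h⟩)).bind fun v => .ret (Function.update x ⟨s, h⟩ (x ⟨s, h⟩ + v))
    else .ret x) (I.m * I.n) (I.low y)

def trialR : Rand I.St := (I.chainR I.T0).bind I.offsR

def samplerR : Rand I.Tab :=
  iter (fun out => I.trialR.bind fun x => .ret (if I.valid x then I.tab x else out)) (4 * I.W) I.nw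

def bern0 (t : ℕ) : Rand ℕ :=
  (I.chainR t).bind fun y => acc (2 * I.b) (min (I.W ^ 13) (I.phc (t + 1) y - I.phc t y))

def bern1 : Rand ℕ := I.trialR.bind fun x => .ret (1 - I.ng 0 x)

def tally (S : Rand ℕ) (A : ℕ × ℕ) : Rand (ℕ × ℕ) :=
  iter (fun a => S.bind fun z => .ret (if z = 0 then a.1 else a.1 + A.1, a.2 + A.2))
    (I.W ^ 33) (0, 0)

def counterR : Rand ℕ :=
  ((iterIdx (fun t => I.tally (I.bern0 t)) I.T0 (2 ^ ∑ s, I.lg s, 1)).bind
    (I.tally I.bern1)).bind fun A => .ret ((A.1 + A.1 + A.2) / (A.2 + A.2))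

/-- Fine weight at level `t`. -/
noncomputable def wf (t : ℕ) (x : I.St) : ℝ :=
  Real.exp (-(t * (-Real.log I.th) / (I.W : ℝ) ^ 8 *
    (∑ i, (I.negR x i : ℝ) / I.ellR i + ∑ j, (I.negC x j : ℝ) / I.ellC j
      + (I.neg0 0 x : ℝ) / I.ell0)))

/-- Dirichlet form of the coarse grid with minimum conductances. -/
noncomputable def Dc (t : ℕ) (F : I.St → ℝ) : ℝ :=
  ∑ s, ∑ y ∈ box I.K, if y s + 1 < I.K s then
    min (I.wc t y) (I.wc t (Function.update y s (y s + 1)))
      * (F (Function.update y s (y s + 1)) - F y) ^ 2 else 0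

end Inst

end Vale.Agent.P328
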