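import Vale.Agent.P328.Hyp
import Vale.Agent.P328.Spec

/-! The triangular flow and its energy on block boundaries. -/

namespace Vale.Agent.P328

open Finset

structure Edge (V : Type) where
  u : V
  v : V
  M : ℕ
  D : ℕ

theorem sum_box_succ {p : ℕ} (M : Fin (p + 1) → ℕ) (G : (Fin (p + 1) → ℕ) → ℝ) :
    ∑ x ∈ box M, G x = ∑ a ∈ range (M 0), ∑ x ∈ box (Fin.tail M), G (Fin.cons a x) := by
  rw [← sum_product']
  refine sum_nbij' (fun x => (x 0, Fin.tail x)) (fun z => Fin.cons z.1 z.2) ?_ ?_ ?_ ?_ ?_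
  · intro x hx
    rw [mem_box] at hx
    exact mem_product.2 ⟨mem_range.2 (hx 0), mem_box.2 fun s => hx s.succ⟩
  · intro z hz
    obtain ⟨h1, h2⟩ := mem_product.1 hz
    refine mem_box.2 fun s => ?_
    refine Fin.cases ?_ (fun s => ?_) s
    · exact mem_range.1 h1
    · exact mem_box.1 h2 s
  · intro x _; exact Fin.cons_self_tail x
  · intro z _; simp
  · intro x _; rw [Fin.cons_self_tail]

variable {V : Type} [Fintype V] [DecidableEq V]

def sh {p : ℕ} (es : Fin p → Edge V) (x : Fin p → ℕ) : V → ℤ :=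
  ∑ s, (x s : ℤ) • (ev (es s).u - ev (es s).v)

def tot {p : ℕ} (Φ : (V → ℤ) → ℝ) (es : Fin p → Edge V) (f : (Fin p → ℕ) → ℝ) (β : V → ℤ) : ℝ :=
  ∑ x ∈ box fun s => (es s).M, Φ (β - sh es x) * f x

def Zt {p : ℕ} (Φ : (V → ℤ) → ℝ) (es : Fin p → Edge V) (β : V → ℤ) : ℝ :=
  tot Φ es (fun _ => 1) β

section basic
omit [Fintype V]
variable {p : ℕ} {Φ : (V → ℤ) → ℝ}

theorem tot_succ (Φ : (V → ℤ) → ℝ) (es : Fin (p + 1) → Edge V) (f : (Fin (p + 1) → ℕ) → ℝ)
    (β : V → ℤ) : tot Φ es f β = ∑ a ∈ range (es 0).M,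
      tot Φ (Fin.tail es) (fun x => f (Fin.cons a x)) (bs (es 0).u (es 0).v β a) := by
  unfold tot
  rw [sum_box_succ]
  refine sum_congr rfl fun a _ => sum_congr rfl fun x _ => ?_
  congr 2
  simp only [sh, bs, Fin.sum_univ_succ, Fin.cons_zero, Fin.cons_succ, Fin.tail]
  abel

theorem tot_zero (Φ : (V → ℤ) → ℝ) (es : Fin 0 → Edge V) (f : (Fin 0 → ℕ) → ℝ) (β : V → ℤ) :
    tot Φ es f β = Φ β * f Fin.elim0 := by
  unfold tot
  rw [sum_eq_single Fin.elim0]
  · simp [sh]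
  · intro x _ hx; exact absurd (Subsingleton.elim _ _) hx
  · intro h; exact absurd (mem_box.2 fun s => s.elim0) h

theorem tot_mono (hΦ : ∀ β, 0 < Φ β) (es : Fin p → Edge V) {f g : (Fin p → ℕ) → ℝ}
    (h : ∀ x, f x ≤ g x) (β : V → ℤ) : tot Φ es f β ≤ tot Φ es g β :=
  sum_le_sum fun x _ => mul_le_mul_of_nonneg_left (h x) (hΦ _).le

theorem tot_nonneg (hΦ : ∀ β, 0 < Φ β) (es : Fin p → Edge V) {f : (Fin p → ℕ) → ℝ}
    (h : ∀ x, 0 ≤ f x) (β : V → ℤ) : 0 ≤ tot Φ es f β :=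
  sum_nonneg fun x _ => mul_nonneg (hΦ _).le (h x)

theorem tot_lin (Φ : (V → ℤ) → ℝ) (es : Fin p → Edge V) (f g : (Fin p → ℕ) → ℝ) (a b : ℝ)
    (β : V → ℤ) : tot Φ es (fun x => a * f x + b * g x) β
      = a * tot Φ es f β + b * tot Φ es g β := by
  simp only [tot, mul_sum, ← sum_add_distrib]
  exact sum_congr rfl fun x _ => by ring

theorem tot_const (Φ : (V → ℤ) → ℝ) (es : Fin p → Edge V) (c : ℝ) (β : V → ℤ) :
    tot Φ es (fun _ => c) β = c * Zt Φ es β := by
  simp only [Zt, tot, mul_sum]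
  exact sum_congr rfl fun x _ => by ring

theorem Zt_pos (hΦ : ∀ β, 0 < Φ β) (es : Fin p → Edge V) (hM : ∀ k, 0 < (es k).M) (β : V → ℤ) :
    0 < Zt Φ es β :=
  sum_pos (fun x _ => by rw [mul_one]; exact hΦ _) ⟨fun _ => 0, mem_box.2 hM⟩

theorem tot_lip (es : Fin p → Edge V) {f : (Fin p → ℕ) → ℝ} (hf : ∀ x, 0 ≤ f x) {u v : V} {γ : ℝ}
    (h : ∀ β, Φ (β + ev u) ≤ γ * Φ (β + ev v)) (β : V → ℤ) :
    tot Φ es f (β + ev u) ≤ γ * tot Φ es f (β + ev v) := by
  simp only [tot, mul_sum]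
  refine sum_le_sum fun x _ => ?_
  rw [add_sub_right_comm, add_sub_right_comm, ← mul_assoc]
  exact mul_le_mul_of_nonneg_right (h _) (hf x)

theorem Zt_succ (Φ : (V → ℤ) → ℝ) (es : Fin (p + 1) → Edge V) :
    Zt Φ es = fun β => ∑ a ∈ range (es 0).M, Zt Φ (Fin.tail es) (bs (es 0).u (es 0).v β a) :=
  funext fun β => tot_succ Φ es _ β

end basic

theorem Zt_hyp {Φ : (V → ℤ) → ℝ} (hΦ : ∀ β, 0 < Φ β) (hH : Hyp Φ) {p : ℕ} (es : Fin p → Edge V)
    (hM : ∀ k, 0 < (es k).M) : Hyp (Zt Φ es) := by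
  induction p with
  | zero =>
    have : Zt Φ es = Φ := funext fun β => by rw [Zt, tot_zero, mul_one]
    rwa [this]
  | succ p ih =>
    rw [Zt_succ]
    exact Hyp.conv (Zt_pos hΦ _ fun k => hM k.succ) (ih _ fun k => hM k.succ) _ _ _

theorem green_id (g E : ℕ → ℝ) (n : ℕ) :
    ∑ α ∈ range n, g (α + 1) * (2 * E (α + 1) - E α - E (α + 2))
      = ∑ α ∈ range n, E (α + 1) * (2 * g (α + 1) - g α - g (α + 2))
        + (E 1 * g 0 - g 1 * E 0) - (E (n + 1) * g n - g (n + 1) * E n) := by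
  induction n with
  | zero => simp
  | succ n ih => rw [sum_range_succ, sum_range_succ, ih]; ring

theorem green (E : ℕ → ℝ) (hE : ∀ a, 0 ≤ E a) (M : ℕ) (h0 : E 0 = 0) (hM : E M = 0) (a : ℕ)
    (ha : a < M) :
    E (a + 1) ≤ ∑ α ∈ range M, (if α + 1 < M then ((M : ℝ) - |(α : ℝ) - a|) / 2 else 0)
      * (2 * E (α + 1) - E α - E (α + 2)) := by
  obtain ⟨n, rfl⟩ : ∃ n, M = n + 1 := ⟨M - 1, by omega⟩
  rw [sum_range_succ, if_neg (lt_irrefl _), zero_mul, add_zero]
  set g : ℕ → ℝ := fun i => (((n + 1 : ℕ) : ℝ) - |(i : ℝ) - 1 - a|) / 2 with hg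
  have e1 : ∑ α ∈ range n, (if α + 1 < n + 1 then (((n + 1 : ℕ) : ℝ) - |(α : ℝ) - a|) / 2 else 0)
      * (2 * E (α + 1) - E α - E (α + 2))
      = ∑ α ∈ range n, g (α + 1) * (2 * E (α + 1) - E α - E (α + 2)) := by
    refine sum_congr rfl fun α hα => ?_
    rw [if_pos (by have := mem_range.1 hα; omega)]
    simp only [hg]; push_cast; rw [add_sub_cancel_right]
  have e2 : ∀ α : ℕ, 2 * g (α + 1) - g α - g (α + 2) = if α = a then 1 else 0 := by
    intro α
    simp only [hg]; push_cast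
    rcases lt_trichotomy α a with h | h | h
    · have : (α : ℝ) + 1 ≤ a := by exact_mod_cast h
      rw [if_neg h.ne, abs_of_nonpos (by linarith), abs_of_nonpos (by linarith),
        abs_of_nonpos (by linarith)]
      ring
    · subst h
      rw [if_pos rfl, abs_of_nonpos (by linarith), abs_of_nonpos (by linarith),
        abs_of_nonneg (by linarith)]
      ring
    · have : (a : ℝ) + 1 ≤ α := by exact_mod_cast h
      rw [if_neg h.ne', abs_of_nonneg (by linarith), abs_of_nonneg (by linarith),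
        abs_of_nonneg (by linarith)]
      ring
  have ha' : (a : ℝ) ≤ n := by exact_mod_cast Nat.lt_succ_iff.1 ha
  have ha0 : (0 : ℝ) ≤ a := Nat.cast_nonneg a
  have g0 : 0 ≤ g 0 := by
    simp only [hg]; push_cast
    rw [abs_of_nonpos (by linarith)]; linarith
  have g1 : 0 ≤ g (n + 1) := by
    simp only [hg]; push_cast
    rw [abs_of_nonneg (by linarith)]; linarith
  rw [e1, green_id, h0, hM]
  simp only [e2, mul_ite, mul_one, mul_zero, sum_ite_eq', mem_range]
  have t1 := mul_nonneg (hE 1) g0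
  have t2 := mul_nonneg g1 (hE n)
  split_ifs with h
  · linarith
  · have : a = n := by omega
    rw [this, hM]; linarith

/-- Block boundaries of an edge. -/
def Edge.Bd (e : Edge V) : Finset ℕ := (range e.M).filter fun a => e.D ∣ a + 1

/-- Green potential of the block boundaries. -/
noncomputable def Edge.gk (e : Edge V) (α : ℕ) : ℝ :=
  (∑ a ∈ e.Bd, if α + 1 < e.M then ((e.M : ℝ) - |(α : ℝ) - a|) / 2 else 0) / e.M

omit [Fintype V] [DecidableEq V] in
theorem Edge.gk_nonneg (e : Edge V) (α : ℕ) : 0 ≤ e.gk α := by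
  refine div_nonneg (sum_nonneg fun a ha => ?_) (Nat.cast_nonneg _)
  split_ifs with h
  · have h1 : (a : ℝ) ≤ e.M := by exact_mod_cast (mem_range.1 (mem_filter.1 ha).1).le
    have h2 : (α : ℝ) ≤ e.M := by exact_mod_cast (by omega : α ≤ e.M)
    have := Nat.cast_nonneg (α := ℝ) a
    have := Nat.cast_nonneg (α := ℝ) α
    have : |(α : ℝ) - a| ≤ e.M := abs_le.2 ⟨by linarith, by linarith⟩
    linarith
  · exact le_rfl

omit [Fintype V] [DecidableEq V] in
theorem Edge.gk_le (e : Edge V) (hM : 0 < e.M) (α : ℕ) : e.gk α ≤ e.Bd.card / 2 := by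
  have hM' : (0 : ℝ) < e.M := by exact_mod_cast hM
  rw [Edge.gk, div_le_iff₀ hM']
  refine (sum_le_card_nsmul _ _ ((e.M : ℝ) / 2) fun a _ => ?_).trans (le_of_eq ?_)
  · split_ifs
    · linarith [abs_nonneg ((α : ℝ) - a)]
    · linarith
  · rw [nsmul_eq_mul]; ring

omit [Fintype V] [DecidableEq V] in
theorem Edge.gk_zero (e : Edge V) {α : ℕ} (h : ¬ α + 1 < e.M) : e.gk α = 0 := by
  simp [Edge.gk, h]

omit [Fintype V] [DecidableEq V] in
theorem Edge.green (e : Edge V) (E : ℕ → ℝ) (hE : ∀ a, 0 ≤ E a) (h0 : E 0 = 0) (hM : E e.M = 0) :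
    ∑ a ∈ e.Bd, E (a + 1) / e.M
      ≤ ∑ α ∈ range e.M, e.gk α * (2 * E (α + 1) - E α - E (α + 2)) := by
  simp only [Edge.gk, div_mul_eq_mul_div, ← sum_div, sum_mul]
  refine div_le_div_of_nonneg_right ?_ (Nat.cast_nonneg _)
  rw [sum_comm]
  exact sum_le_sum fun a ha => _root_.Vale.Agent.P328.green E hE e.M h0 hM a
    (mem_range.1 (mem_filter.1 ha).1)

noncomputable def Psi {p : ℕ} (Φ : (V → ℤ) → ℝ) (es : Fin p → Edge V) (β : V → ℤ) : ℝ :=
  ∑ k, tot Φ es (fun x => (es k).gk (x k)) (β - ev (es k).u)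

noncomputable def Dir {p : ℕ} (Φ : (V → ℤ) → ℝ) (es : Fin p → Edge V) (f : (Fin p → ℕ) → ℝ)
    (β : V → ℤ) : ℝ :=
  ∑ k, (es k).M * tot Φ es (fun x => if x k + 1 < (es k).M then
    (f (Function.update x k (x k + 1)) - f x) ^ 2 else 0) (β + ev (es k).v)

/-- `f` is constant on blocks. -/
def Blk {p : ℕ} (es : Fin p → Edge V) (f : (Fin p → ℕ) → ℝ) : Prop :=
  ∀ k x, ¬ (es k).D ∣ x k + 1 → f (Function.update x k (x k + 1)) = f x

section succ
omit [Fintype V]
variable {p : ℕ}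

theorem Psi_succ (Φ : (V → ℤ) → ℝ) (es : Fin (p + 1) → Edge V) :
    Psi Φ es = fun β => ∑ a ∈ range (es 0).M,
      ((es 0).gk a * Zt Φ (Fin.tail es) (bs (es 0).u (es 0).v β a - ev (es 0).u)
        + Psi Φ (Fin.tail es) (bs (es 0).u (es 0).v β a)) := by
  funext β
  unfold Psi
  rw [Fin.sum_univ_succ, sum_add_distrib, sum_comm]
  simp only [tot_succ Φ es, Fin.cons_zero, Fin.cons_succ, tot_const, bs_sub]
  rfl

theorem Dir_succ (Φ : (V → ℤ) → ℝ) (es : Fin (p + 1) → Edge V) (f : (Fin (p + 1) → ℕ) → ℝ)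
    (β : V → ℤ) :
    Dir Φ es f β = ∑ a ∈ range (es 0).M,
      ((es 0).M * tot Φ (Fin.tail es) (fun x => if a + 1 < (es 0).M then
          (f (Fin.cons (a + 1) x) - f (Fin.cons a x)) ^ 2 else 0)
          (bs (es 0).u (es 0).v β a + ev (es 0).v)
        + Dir Φ (Fin.tail es) (fun x => f (Fin.cons a x)) (bs (es 0).u (es 0).v β a)) := by
  unfold Dir
  rw [Fin.sum_univ_succ, sum_add_distrib, sum_comm]
  simp only [tot_succ Φ es, Fin.cons_zero, Fin.cons_succ, Fin.update_cons_zero,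
    ← Fin.cons_update, bs_add, mul_sum]
  rfl

omit [DecidableEq V] in
theorem Blk.tail {es : Fin (p + 1) → Edge V} {f : (Fin (p + 1) → ℕ) → ℝ} (h : Blk es f) (a : ℕ) :
    Blk (Fin.tail es) fun x => f (Fin.cons a x) := by
  intro k x hk
  have := h k.succ (Fin.cons a x) hk
  simp only [Fin.cons_succ, ← Fin.cons_update] at this
  exact this

omit [DecidableEq V] in
theorem Blk.head {es : Fin (p + 1) → Edge V} {f : (Fin (p + 1) → ℕ) → ℝ} (h : Blk es f) {a : ℕ}
    (ha : ¬ (es 0).D ∣ a + 1) (x : Fin p → ℕ) : f (Fin.cons (a + 1) x) = f (Fin.cons a x) := by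
  have := h 0 (Fin.cons a x) ha
  simpa only [Fin.cons_zero, Fin.update_cons_zero] using this

theorem Psi_nonneg {Φ : (V → ℤ) → ℝ} (hΦ : ∀ β, 0 < Φ β) (es : Fin p → Edge V) (β : V → ℤ) :
    0 ≤ Psi Φ es β :=
  sum_nonneg fun k _ => tot_nonneg hΦ es (fun _ => (es k).gk_nonneg _) _

end succ

def FlowOK {p : ℕ} (Φ : (V → ℤ) → ℝ) (es : Fin p → Edge V) : Prop :=
  ∀ β μ f, Blk es f → lin (Zt Φ es) β μ = 0 →
    2 * lin (tot Φ es f) β μ ≤ -quad (Psi Φ es) β μ + Dir Φ es f β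

/-- One step of the triangular construction, for sources that may depend on the first value. -/
theorem flow_step {p : ℕ} {Φ : (V → ℤ) → ℝ} (hΦ : ∀ β, 0 < Φ β) (es : Fin (p + 1) → Edge V)
    (hM : ∀ k, 0 < (es k).M) (ih : FlowOK Φ (Fin.tail es)) (β : V → ℤ) (μ : ℕ → V → ℝ)
    (f : (Fin (p + 1) → ℕ) → ℝ) (hf : Blk es f) (b z : ℕ → ℝ)
    (hb : ∀ a, b a = lin (Zt Φ (Fin.tail es)) (bs (es 0).u (es 0).v β a) (μ a))
    (hz : ∀ a, z a = Zt Φ (Fin.tail es) (bs (es 0).u (es 0).v β a + ev (es 0).u))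
    (hsum : ∑ a ∈ range (es 0).M, b a = 0) :
    2 * ∑ a ∈ range (es 0).M,
        lin (tot Φ (Fin.tail es) fun x => f (Fin.cons a x)) (bs (es 0).u (es 0).v β a) (μ a)
      ≤ -∑ a ∈ range (es 0).M, quad (Psi Φ (Fin.tail es)) (bs (es 0).u (es 0).v β a)
            (ext (μ a) (es 0).u (es 0).v (nuOf b z a) (nuOf b z (a + 1)))
        + ∑ a ∈ (es 0).Bd, nuOf b z (a + 1) ^ 2 * z (a + 1) / (es 0).M + Dir Φ es f β := by
  have hz0 : ∀ a, 0 < z a := fun a => by rw [hz]; exact Zt_pos hΦ _ (fun k => hM k.succ) _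
  have hnM : nuOf b z (es 0).M = 0 := by simp only [nuOf, hsum, zero_div]
  have hM0 : (0 : ℝ) < (es 0).M := by exact_mod_cast hM 0
  have h1 : ∀ a, 2 * lin (tot Φ (Fin.tail es) fun x => f (Fin.cons a x))
      (bs (es 0).u (es 0).v β a) (ext (μ a) (es 0).u (es 0).v (nuOf b z a) (nuOf b z (a + 1)))
      ≤ -quad (Psi Φ (Fin.tail es)) (bs (es 0).u (es 0).v β a)
          (ext (μ a) (es 0).u (es 0).v (nuOf b z a) (nuOf b z (a + 1)))
        + Dir Φ (Fin.tail es) (fun x => f (Fin.cons a x)) (bs (es 0).u (es 0).v β a) := by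
    intro a
    refine ih _ _ _ (hf.tail a) ?_
    rw [lin_ext, ← bs_succ, ← hb, ← hz, ← hz]
    exact nuOf_step b z hz0 a
  have h2 := sum_range_sub' (fun a => nuOf b z a * tot Φ (Fin.tail es) (fun x => f (Fin.cons a x))
    (bs (es 0).u (es 0).v β a + ev (es 0).u)) (es 0).M
  simp only [nuOf_zero, hnM, zero_mul, sub_self, bs_succ] at h2
  have h3 : ∀ a ∈ range (es 0).M,
      -2 * nuOf b z (a + 1) * (tot Φ (Fin.tail es) (fun x => f (Fin.cons (a + 1) x))
          (bs (es 0).u (es 0).v β a + ev (es 0).v)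
        - tot Φ (Fin.tail es) (fun x => f (Fin.cons a x)) (bs (es 0).u (es 0).v β a + ev (es 0).v))
      ≤ (if (es 0).D ∣ a + 1 then nuOf b z (a + 1) ^ 2 * z (a + 1) / (es 0).M else 0)
        + (es 0).M * tot Φ (Fin.tail es) (fun x => if a + 1 < (es 0).M then
          (f (Fin.cons (a + 1) x) - f (Fin.cons a x)) ^ 2 else 0)
          (bs (es 0).u (es 0).v β a + ev (es 0).v) := by
    intro a ha
    have t0 : 0 ≤ (es 0).M * tot Φ (Fin.tail es) (fun x => if a + 1 < (es 0).M then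
        (f (Fin.cons (a + 1) x) - f (Fin.cons a x)) ^ 2 else 0)
        (bs (es 0).u (es 0).v β a + ev (es 0).v) :=
      mul_nonneg hM0.le (tot_nonneg hΦ _ (fun x => by split_ifs <;> positivity) _)
    by_cases hD : (es 0).D ∣ a + 1
    · rw [if_pos hD]
      by_cases hl : a + 1 < (es 0).M
      · simp only [hl, if_true]
        have e1 := tot_lin Φ (Fin.tail es) (fun x => f (Fin.cons (a + 1) x))
          (fun x => f (Fin.cons a x)) (-2 * nuOf b z (a + 1)) (2 * nuOf b z (a + 1))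
          (bs (es 0).u (es 0).v β a + ev (es 0).v)
        have e2 := tot_lin Φ (Fin.tail es) (fun _ => 1)
          (fun x => (f (Fin.cons (a + 1) x) - f (Fin.cons a x)) ^ 2)
          (nuOf b z (a + 1) ^ 2 / (es 0).M) (es 0).M (bs (es 0).u (es 0).v β a + ev (es 0).v)
        have e3 := tot_mono hΦ (Fin.tail es)
          (f := fun x => -2 * nuOf b z (a + 1) * f (Fin.cons (a + 1) x)
            + 2 * nuOf b z (a + 1) * f (Fin.cons a x))
          (g := fun x => nuOf b z (a + 1) ^ 2 / (es 0).M * 1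
            + (es 0).M * (f (Fin.cons (a + 1) x) - f (Fin.cons a x)) ^ 2)
          (fun x => by
            have := div_nonneg (sq_nonneg (nuOf b z (a + 1)
              + (es 0).M * (f (Fin.cons (a + 1) x) - f (Fin.cons a x)))) hM0.le
            have e : (nuOf b z (a + 1) + (es 0).M * (f (Fin.cons (a + 1) x) - f (Fin.cons a x))) ^ 2
                / (es 0).M = nuOf b z (a + 1) ^ 2 / (es 0).M
                  + 2 * nuOf b z (a + 1) * (f (Fin.cons (a + 1) x) - f (Fin.cons a x))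
                  + (es 0).M * (f (Fin.cons (a + 1) x) - f (Fin.cons a x)) ^ 2 := by
              field_simp; ring
            linarith)
          (bs (es 0).u (es 0).v β a + ev (es 0).v)
        have e4 : tot Φ (Fin.tail es) (fun _ => 1) (bs (es 0).u (es 0).v β a + ev (es 0).v)
            = z (a + 1) := by rw [hz, bs_succ]; rfl
        rw [e1, e2, e4] at e3
        have e5 : nuOf b z (a + 1) ^ 2 * z (a + 1) / (es 0).M
            = nuOf b z (a + 1) ^ 2 / (es 0).M * z (a + 1) := by ring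
        linarith
      · have : a + 1 = (es 0).M := by have := mem_range.1 ha; omega
        have e0 : nuOf b z (a + 1) = 0 := by rw [this]; exact hnM
        rw [e0, mul_zero, zero_mul, zero_pow two_ne_zero, zero_mul, zero_div, zero_add]
        exact t0
    · rw [if_neg hD]
      simp only [hf.head hD, sub_self, mul_zero] at t0 ⊢
      linarith
  have h4 := sum_le_sum h3
  have h5 := sum_le_sum fun a (_ : a ∈ range (es 0).M) => h1 a
  rw [sum_add_distrib, ← sum_filter] at h4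
  rw [Dir_succ, sum_add_distrib]
  simp only [lin_ext, mul_add, mul_sub, sum_add_distrib, sum_sub_distrib, sum_neg_distrib,
    ← mul_sum, mul_assoc] at h2 h4 h5 ⊢
  unfold Edge.Bd
  linarith

theorem quad_scale (Y : (V → ℤ) → ℝ) (c : ℝ) (γ β : V → ℤ) (μ : V → ℝ) (u v : V) (a : ℕ) :
    quad (fun δ => c * Y (bs u v δ a - γ)) β μ = c * quad Y (bs u v β a - γ) μ := by
  simp only [quad, lin, bs_add, mul_sum, add_sub_right_comm]
  exact sum_congr rfl fun _ _ => sum_congr rfl fun _ _ => by ring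

theorem quad_add (Y Y' : (V → ℤ) → ℝ) (β : V → ℤ) (μ : V → ℝ) :
    quad (fun δ => Y δ + Y' δ) β μ = quad Y β μ + quad Y' β μ := by
  simp only [quad, lin, mul_add, sum_add_distrib]

theorem flow {Φ : (V → ℤ) → ℝ} (hΦ : ∀ β, 0 < Φ β) (hH : Hyp Φ) {p : ℕ} (es : Fin p → Edge V)
    (hM : ∀ k, 0 < (es k).M) : FlowOK Φ es := by
  induction p with
  | zero =>
    intro β μ f _ h
    have e1 : lin (tot Φ es f) β μ = lin (Zt Φ es) β μ * f Fin.elim0 := by
      simp only [lin, Zt, tot_zero, sum_mul]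
      exact sum_congr rfl fun _ _ => by ring
    rw [e1, h]
    simp [quad, lin, Psi, Dir]
  | succ p ih =>
    intro β μ f hf h
    have hM' : ∀ k, 0 < (Fin.tail es k).M := fun k => hM k.succ
    have hZ := Zt_hyp hΦ hH (Fin.tail es) hM'
    rw [Zt_succ, lin_sum] at h
    simp only [lin_bs] at h
    set b : ℕ → ℝ := fun a => lin (Zt Φ (Fin.tail es)) (bs (es 0).u (es 0).v β a) μ with hb
    set z : ℕ → ℝ := fun a => Zt Φ (Fin.tail es) (bs (es 0).u (es 0).v β a + ev (es 0).u) with hz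
    have hz0 : ∀ a, 0 < z a := fun a => Zt_pos hΦ _ hM' _
    have hnM : nuOf b z (es 0).M = 0 := by simp only [nuOf, h, zero_div]
    have h1 := flow_step hΦ es hM (ih _ hM') β (fun _ => μ) f hf b z (fun _ => rfl)
      (fun _ => rfl) h
    have h2 := sum_quad_ext_const (Psi Φ (Fin.tail es)) (Psi_nonneg hΦ _) (es 0).u (es 0).v β
      (nuOf b z) (es 0).M (nuOf_zero b z) hnM μ
    have h3 := (es 0).green (fun a => nuOf b z a ^ 2 * z a)
      (fun a => mul_nonneg (sq_nonneg _) (hz0 a).le) (by simp [nuOf_zero]) (by simp [hnM])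
    have h4 : ∀ α ∈ range (es 0).M, (es 0).gk α * (2 * (nuOf b z (α + 1) ^ 2 * z (α + 1))
        - nuOf b z α ^ 2 * z α - nuOf b z (α + 2) ^ 2 * z (α + 2))
        ≤ -((es 0).gk α * quad (Zt Φ (Fin.tail es)) (bs (es 0).u (es 0).v β α - ev (es 0).u) μ) := by
      intro α _
      rw [← mul_neg]
      refine mul_le_mul_of_nonneg_left ?_ ((es 0).gk_nonneg α)
      have q := hZ (bs (es 0).u (es 0).v β α - ev (es 0).u) (es 0).u
        (ext μ (es 0).u (es 0).v (nuOf b z α) (nuOf b z (α + 1))) (by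
          rw [sub_add_cancel, lin_ext, ← bs_succ]
          exact nuOf_step b z hz0 α)
      have e1 : bs (es 0).u (es 0).v β α - ev (es 0).u + ev (es 0).v
          = bs (es 0).u (es 0).v β (α + 1) := by
        rw [sub_add_eq_add_sub, ← bs_succ, add_sub_cancel_right]
      rw [quad_ext, sub_add_cancel, e1, ← bs_succ, ← bs_succ] at q
      have s1 := nuOf_step b z hz0 α
      have s2 := nuOf_step b z hz0 (α + 1)
      change quad _ _ μ + 2 * nuOf b z α * b α - 2 * nuOf b z (α + 1) * b (α + 1)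
        + nuOf b z α ^ 2 * z α - 2 * nuOf b z α * nuOf b z (α + 1) * z (α + 1)
        + nuOf b z (α + 1) ^ 2 * z (α + 1 + 1) ≤ 0 at q
      have t := mul_nonneg (sq_nonneg (nuOf b z (α + 2) - nuOf b z (α + 1))) (hz0 (α + 2)).le
      have s1' : b α = nuOf b z (α + 1) * z (α + 1) - nuOf b z α * z α := by linarith
      have s2' : b (α + 1) = nuOf b z (α + 2) * z (α + 2) - nuOf b z (α + 1) * z (α + 1) := by
        linarith
      rw [s1', s2'] at q
      have e2 : α + 1 + 1 = α + 2 := rfl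
      rw [e2] at q
      nlinarith
    have h5 := sum_le_sum h4
    have e1 : tot Φ es f = fun β => ∑ a ∈ range (es 0).M,
        tot Φ (Fin.tail es) (fun x => f (Fin.cons a x)) (bs (es 0).u (es 0).v β a) :=
      funext fun β => tot_succ Φ es f β
    rw [e1, lin_sum, Psi_succ, quad_sum]
    simp only [lin_bs, quad_add, quad_scale, quad_bs, sum_add_distrib]
    rw [sum_neg_distrib] at h5
    linarith

end Vale.Agent.P328
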