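import Mathlib

/-! Hyperbolicity of lattice weights and its preservation under convolution along an edge. -/

namespace Vale.Agent.P328

open Finset

variable {V : Type} [Fintype V] [DecidableEq V]

def ev (v : V) : V → ℤ := Pi.single v 1

def lin (Y : (V → ℤ) → ℝ) (β : V → ℤ) (μ : V → ℝ) : ℝ := ∑ v, μ v * Y (β + ev v)

def quad (Y : (V → ℤ) → ℝ) (β : V → ℤ) (μ : V → ℝ) : ℝ := ∑ u, μ u * lin Y (β + ev u) μ

def Hyp (Φ : (V → ℤ) → ℝ) : Prop :=
  ∀ β w μ, lin Φ (β + ev w) μ = 0 → quad Φ β μ ≤ 0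

def ext (μ : V → ℝ) (u v : V) (a b : ℝ) : V → ℝ :=
  fun w => μ w + (if w = u then a else 0) - (if w = v then b else 0)

theorem sum_ext (μ : V → ℝ) (u v : V) (a b : ℝ) (g : V → ℝ) :
    ∑ w, ext μ u v a b w * g w = ∑ w, μ w * g w + a * g u - b * g v := by
  simp only [ext, add_mul, sub_mul, ite_mul, zero_mul, sum_add_distrib, sum_sub_distrib,
    sum_ite_eq', mem_univ, if_true]

theorem lin_ext (Y : (V → ℤ) → ℝ) (β : V → ℤ) (μ : V → ℝ) (u v : V) (a b : ℝ) :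
    lin Y β (ext μ u v a b) = lin Y β μ + a * Y (β + ev u) - b * Y (β + ev v) :=
  sum_ext μ u v a b _

theorem quad_ext (Y : (V → ℤ) → ℝ) (β : V → ℤ) (μ : V → ℝ) (u v : V) (a b : ℝ) :
    quad Y β (ext μ u v a b) = quad Y β μ + 2 * a * lin Y (β + ev u) μ
      - 2 * b * lin Y (β + ev v) μ + a ^ 2 * Y (β + ev u + ev u)
      - 2 * a * b * Y (β + ev u + ev v) + b ^ 2 * Y (β + ev v + ev v) := by
  unfold quad
  rw [sum_ext]
  simp only [lin_ext, mul_add, mul_sub, sum_add_distrib, sum_sub_distrib]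
  have h1 : ∀ (c : ℝ) (x : V), ∑ w, μ w * (c * Y (β + ev w + ev x)) = c * lin Y (β + ev x) μ := by
    intro c x
    unfold lin
    rw [mul_sum]
    refine sum_congr rfl fun w _ => ?_
    rw [add_right_comm]; ring
  rw [h1, h1, add_right_comm β (ev v) (ev u)]
  ring

/-- Residual after sending `a` units along the edge from `u` to `v`. -/
def bs (u v : V) (β : V → ℤ) (a : ℕ) : V → ℤ := β - (a : ℤ) • (ev u - ev v)

omit [Fintype V] in
theorem bs_succ (u v : V) (β : V → ℤ) (a : ℕ) :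
    bs u v β (a + 1) + ev u = bs u v β a + ev v := by
  unfold bs; push_cast; module

omit [Fintype V] in
theorem bs_add (u v : V) (β γ : V → ℤ) (a : ℕ) : bs u v (β + γ) a = bs u v β a + γ := by
  unfold bs; abel

omit [Fintype V] in
theorem bs_sub (u v : V) (β γ : V → ℤ) (a : ℕ) : bs u v (β - γ) a = bs u v β a - γ := by
  unfold bs; abel

omit [Fintype V] in
theorem sum_sq_terms (Y : (V → ℤ) → ℝ) (hY : ∀ β, 0 ≤ Y β) (u v : V) (β : V → ℤ) (nu : ℕ → ℝ)
    (h0 : nu 0 = 0) (M : ℕ) :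
    nu M ^ 2 * Y (bs u v β M + ev u + ev v) - nu M ^ 2 * Y (bs u v β M + ev u + ev u)
      ≤ ∑ a ∈ range M, (nu a ^ 2 * Y (bs u v β a + ev u + ev u)
        - 2 * nu a * nu (a + 1) * Y (bs u v β a + ev u + ev v)
        + nu (a + 1) ^ 2 * Y (bs u v β a + ev v + ev v)) := by
  induction M with
  | zero => simp [h0]
  | succ M ih =>
    rw [sum_range_succ, bs_succ, add_right_comm (bs u v β M) (ev v) (ev u)]
    have := mul_nonneg (sq_nonneg (nu (M + 1) - nu M)) (hY (bs u v β M + ev u + ev v))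
    nlinarith

theorem sum_quad_ext (Y : (V → ℤ) → ℝ) (hY : ∀ β, 0 ≤ Y β) (u v : V) (β : V → ℤ) (nu : ℕ → ℝ)
    (M : ℕ) (h0 : nu 0 = 0) (hM : nu M = 0) (μ : ℕ → V → ℝ) :
    ∑ a ∈ range M, (quad Y (bs u v β a) (μ a) + 2 * nu a * lin Y (bs u v β a + ev u) (μ a)
        - 2 * nu (a + 1) * lin Y (bs u v β a + ev v) (μ a))
      ≤ ∑ a ∈ range M, quad Y (bs u v β a) (ext (μ a) u v (nu a) (nu (a + 1))) := by
  have h := sum_sq_terms Y hY u v β nu h0 M
  rw [hM] at h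
  have e : ∑ a ∈ range M, quad Y (bs u v β a) (ext (μ a) u v (nu a) (nu (a + 1)))
      = ∑ a ∈ range M, (quad Y (bs u v β a) (μ a) + 2 * nu a * lin Y (bs u v β a + ev u) (μ a)
        - 2 * nu (a + 1) * lin Y (bs u v β a + ev v) (μ a))
        + ∑ a ∈ range M, (nu a ^ 2 * Y (bs u v β a + ev u + ev u)
        - 2 * nu a * nu (a + 1) * Y (bs u v β a + ev u + ev v)
        + nu (a + 1) ^ 2 * Y (bs u v β a + ev v + ev v)) := by
    rw [← sum_add_distrib]
    refine sum_congr rfl fun a _ => ?_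
    rw [quad_ext]; ring
  rw [e]
  linarith

/-- With a fixed vector the cross terms telescope. -/
theorem sum_quad_ext_const (Y : (V → ℤ) → ℝ) (hY : ∀ β, 0 ≤ Y β) (u v : V) (β : V → ℤ)
    (nu : ℕ → ℝ) (M : ℕ) (h0 : nu 0 = 0) (hM : nu M = 0) (μ : V → ℝ) :
    ∑ a ∈ range M, quad Y (bs u v β a) μ
      ≤ ∑ a ∈ range M, quad Y (bs u v β a) (ext μ u v (nu a) (nu (a + 1))) := by
  refine le_trans (le_of_eq ?_) (sum_quad_ext Y hY u v β nu M h0 hM fun _ => μ)
  have h := sum_range_sub' (fun a => 2 * nu a * lin Y (bs u v β a + ev u) μ) M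
  simp only [h0, hM, bs_succ] at h
  simp only [add_sub_assoc, sum_add_distrib]
  rw [h]; ring

/-- The flow density determined by the sources `b` and conductances `z`. -/
noncomputable def nuOf (b z : ℕ → ℝ) (a : ℕ) : ℝ := (∑ i ∈ range a, b i) / z a

theorem nuOf_zero (b z : ℕ → ℝ) : nuOf b z 0 = 0 := by simp [nuOf]

theorem nuOf_mul (b z : ℕ → ℝ) (a : ℕ) (hz : 0 < z a) : nuOf b z a * z a = ∑ i ∈ range a, b i :=
  div_mul_cancel₀ _ hz.ne'

theorem nuOf_step (b z : ℕ → ℝ) (hz : ∀ a, 0 < z a) (a : ℕ) :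
    b a + nuOf b z a * z a - nuOf b z (a + 1) * z (a + 1) = 0 := by
  rw [nuOf_mul b z a (hz a), nuOf_mul b z _ (hz _), sum_range_succ]; ring

theorem lin_sum {ι : Type} (s : Finset ι) (Y : ι → (V → ℤ) → ℝ) (β : V → ℤ) (μ : V → ℝ) :
    lin (fun γ => ∑ a ∈ s, Y a γ) β μ = ∑ a ∈ s, lin (Y a) β μ := by
  simp only [lin, mul_sum]
  exact sum_comm

theorem quad_sum {ι : Type} (s : Finset ι) (Y : ι → (V → ℤ) → ℝ) (β : V → ℤ) (μ : V → ℝ) :
    quad (fun γ => ∑ a ∈ s, Y a γ) β μ = ∑ a ∈ s, quad (Y a) β μ := by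
  simp only [quad, lin_sum, mul_sum]
  exact sum_comm

theorem lin_bs (Y : (V → ℤ) → ℝ) (u v : V) (a : ℕ) (β : V → ℤ) (μ : V → ℝ) :
    lin (fun γ => Y (bs u v γ a)) β μ = lin Y (bs u v β a) μ := by
  simp only [lin, bs_add]

theorem quad_bs (Y : (V → ℤ) → ℝ) (u v : V) (a : ℕ) (β : V → ℤ) (μ : V → ℝ) :
    quad (fun γ => Y (bs u v γ a)) β μ = quad Y (bs u v β a) μ := by
  simp only [quad, lin_bs, bs_add]

theorem Hyp.conv {Φ : (V → ℤ) → ℝ} (hΦ : ∀ β, 0 < Φ β) (hH : Hyp Φ) (u v : V) (M : ℕ) :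
    Hyp fun β => ∑ a ∈ range M, Φ (bs u v β a) := by
  intro β w μ h
  rw [lin_sum] at h
  rw [quad_sum]
  simp only [lin_bs, quad_bs] at h ⊢
  set b : ℕ → ℝ := fun a => lin Φ (bs u v (β + ev w) a) μ with hb
  set z : ℕ → ℝ := fun a => Φ (bs u v (β + ev w) a + ev u) with hz
  have hz0 : ∀ a, 0 < z a := fun a => hΦ _
  refine (sum_quad_ext_const Φ (fun β => (hΦ β).le) u v β (nuOf b z) M (nuOf_zero b z)
    (by simp only [nuOf, h, zero_div]) μ).trans (sum_nonpos fun a _ => hH _ w _ ?_)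
  rw [lin_ext, ← bs_add, ← bs_succ]
  exact nuOf_step b z hz0 a

/-- The reverse Cauchy-Schwarz inequality for two coordinates. -/
theorem Hyp.logconc {Φ : (V → ℤ) → ℝ} (hΦ : ∀ β, 0 < Φ β) (hH : Hyp Φ) (β : V → ℤ) (u v : V) :
    Φ (β + ev u + ev u) * Φ (β + ev v + ev v) ≤ Φ (β + ev u + ev v) ^ 2 := by
  have h := hH β u (ext 0 u v (Φ (β + ev u + ev v)) (Φ (β + ev u + ev u)))
    (by rw [lin_ext]; simp only [lin, Pi.zero_apply, zero_mul, sum_const_zero]; ring)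
  rw [quad_ext] at h
  simp only [quad, lin, Pi.zero_apply, zero_mul, sum_const_zero] at h
  have h1 := hΦ (β + ev u + ev u)
  have h2 : Φ (β + ev u + ev u) * (Φ (β + ev u + ev u) * Φ (β + ev v + ev v))
      ≤ Φ (β + ev u + ev u) * Φ (β + ev u + ev v) ^ 2 := by nlinarith
  exact le_of_mul_le_mul_left h2 h1

/-- The base weight: concave potentials at the vertices and on one set of vertices. -/
noncomputable def base (ψ : V → ℤ → ℝ) (S : Finset V) (ψ0 : ℤ → ℝ) (β : V → ℤ) : ℝ :=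
  Real.exp (∑ w, ψ w (β w) + ψ0 (∑ w ∈ S, β w))

theorem sum_psi_ev (ψ : V → ℤ → ℝ) (β : V → ℤ) (u : V) :
    ∑ w, ψ w ((β + ev u) w) = ∑ w, ψ w (β w) + (ψ u (β u + 1) - ψ u (β u)) := by
  rw [← add_sum_erase _ _ (mem_univ u), ← add_sum_erase _ (fun w => ψ w (β w)) (mem_univ u)]
  have : ∑ w ∈ univ.erase u, ψ w ((β + ev u) w) = ∑ w ∈ univ.erase u, ψ w (β w) :=
    sum_congr rfl fun w hw => by simp [ev, Pi.single_eq_of_ne (ne_of_mem_erase hw)]
  rw [this]
  simp only [ev, Pi.add_apply, Pi.single_eq_same]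
  ring

omit [Fintype V] in
theorem sum_S_ev (S : Finset V) (β : V → ℤ) (u : V) :
    ∑ w ∈ S, (β + ev u) w = ∑ w ∈ S, β w + if u ∈ S then 1 else 0 := by
  simp only [Pi.add_apply, sum_add_distrib, ev, Pi.single_apply, sum_ite_eq']

omit [DecidableEq V] in
theorem base_pos (ψ : V → ℤ → ℝ) (S : Finset V) (ψ0 : ℤ → ℝ) (β : V → ℤ) :
    0 < base ψ S ψ0 β := Real.exp_pos _

theorem base_lip (ψ : V → ℤ → ℝ) (S : Finset V) (ψ0 : ℤ → ℝ) (u v : V) (c : ℝ)
    (hu : ∀ z, |ψ u (z + 1) - ψ u z| ≤ c) (hv : ∀ z, |ψ v (z + 1) - ψ v z| ≤ c)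
    (h0 : ∀ z, |ψ0 (z + 1) - ψ0 z| ≤ c) (β : V → ℤ) :
    base ψ S ψ0 (β + ev u) ≤ Real.exp (3 * c) * base ψ S ψ0 (β + ev v) := by
  unfold base
  rw [← Real.exp_add, Real.exp_le_exp, sum_psi_ev, sum_psi_ev, sum_S_ev, sum_S_ev]
  have a1 := abs_le.1 (hu (β u))
  have a2 := abs_le.1 (hv (β v))
  have a3 := abs_le.1 (h0 (∑ w ∈ S, β w))
  have hc : 0 ≤ c := (abs_nonneg _).trans (h0 0)
  split_ifs <;> (try simp only [add_zero]) <;> linarith [a1.1, a1.2, a2.1, a2.2, a3.1, a3.2]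

theorem form_eq (x t d : V → ℝ) (k : ℝ) :
    ∑ u, ∑ v, x u * x v * (1 - k * (t u * t v) - if v = u then d u else 0)
      = (∑ u, x u) ^ 2 - k * (∑ u, x u * t u) ^ 2 - ∑ u, x u ^ 2 * d u := by
  rw [pow_two, pow_two, sum_mul_sum, sum_mul_sum, mul_sum, ← sum_sub_distrib, ← sum_sub_distrib]
  refine sum_congr rfl fun u _ => ?_
  have : x u ^ 2 * d u = ∑ v, x u * x v * if v = u then d u else 0 := by
    simp only [mul_ite, mul_zero, sum_ite_eq', mem_univ, if_true]; ring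
  rw [this, mul_sum, ← sum_sub_distrib, ← sum_sub_distrib]
  exact sum_congr rfl fun v _ => by ring

theorem base_hyp (ψ : V → ℤ → ℝ) (S : Finset V) (ψ0 : ℤ → ℝ)
    (hψ : ∀ w z, ψ w (z + 1 + 1) + ψ w z ≤ 2 * ψ w (z + 1))
    (hψ0 : ∀ z, ψ0 (z + 1 + 1) + ψ0 z ≤ 2 * ψ0 (z + 1)) : Hyp (base ψ S ψ0) := by
  intro β w μ h
  set s := ∑ w ∈ S, β w with hs
  set a : V → ℝ := fun u => Real.exp (ψ u (β u + 1) - ψ u (β u)
    + if u ∈ S then ψ0 (s + 1) - ψ0 s else 0) with ha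
  set e : V → ℝ := fun u => Real.exp (ψ u (β u + 1 + 1) + ψ u (β u) - 2 * ψ u (β u + 1)) with he
  set e0 : ℝ := Real.exp (ψ0 (s + 1 + 1) + ψ0 s - 2 * ψ0 (s + 1)) with he0
  have he1 : ∀ u, e u ≤ 1 := fun u => Real.exp_le_one_iff.2 (by linarith [hψ u (β u)])
  have he01 : e0 ≤ 1 := Real.exp_le_one_iff.2 (by linarith [hψ0 s])
  have he00 : 0 < e0 := Real.exp_pos _
  have ha0 : ∀ u, 0 < a u := fun u => Real.exp_pos _
  have key : ∀ u v, base ψ S ψ0 (β + ev u + ev v) = base ψ S ψ0 β * (a u * a v *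
      (1 - (1 - e0) * ((if u ∈ S then 1 else 0) * (if v ∈ S then 1 else 0))
        - if v = u then (1 - e u) * (if u ∈ S then e0 else 1) else 0)) := by
    intro u v
    have k1 : base ψ S ψ0 (β + ev u + ev v) = base ψ S ψ0 β * (a u * a v *
        ((if v = u then e u else 1) * (if u ∈ S ∧ v ∈ S then e0 else 1))) := by
      unfold base
      rw [sum_psi_ev, sum_psi_ev, sum_S_ev, sum_S_ev, ← hs]
      by_cases huv : v = u
      · subst huv
        by_cases hS : v ∈ S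
        · simp only [ha, he, he0, hS, if_true, and_self, ← Real.exp_add, ev, Pi.add_apply,
            Pi.single_eq_same]
          congr 1; ring
        · simp only [ha, he, hS, if_true, if_false, and_self, mul_one, ← Real.exp_add, ev,
            Pi.add_apply, Pi.single_eq_same, add_zero]
          congr 1; ring
      · have hv : (β + ev u) v = β v := by simp [ev, Pi.single_eq_of_ne huv]
        rw [hv]
        by_cases hu : u ∈ S <;> by_cases hS : v ∈ S <;>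
          simp only [ha, he0, hu, hS, huv, if_true, if_false, and_self, and_true, and_false,
            mul_one, one_mul, ← Real.exp_add, add_zero] <;> congr 1 <;> ring
    rw [k1]
    by_cases huv : v = u
    · subst huv
      by_cases hS : v ∈ S <;> simp only [hS, if_true, if_false, and_self] <;> ring
    · by_cases hu : u ∈ S <;> by_cases hS : v ∈ S <;>
        simp only [hu, hS, huv, if_true, if_false, and_self, and_true, and_false] <;> ring
  have form : ∀ ν : V → ℝ, ∑ u, ν u * a u = 0 → quad (base ψ S ψ0) β ν ≤ 0 := by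
    intro ν hν
    have e1 : quad (base ψ S ψ0) β ν = base ψ S ψ0 β * ((∑ u, ν u * a u) ^ 2
        - (1 - e0) * (∑ u, ν u * a u * (if u ∈ S then 1 else 0)) ^ 2
        - ∑ u, (ν u * a u) ^ 2 * ((1 - e u) * (if u ∈ S then e0 else 1))) := by
      rw [← form_eq]
      simp only [quad, lin, key, mul_sum]
      exact sum_congr rfl fun u _ => sum_congr rfl fun v _ => by ring
    rw [e1, hν]
    refine mul_nonpos_of_nonneg_of_nonpos (base_pos _ _ _ _).le ?_
    have t1 := mul_nonneg (sub_nonneg.2 he01)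
      (sq_nonneg (∑ u, ν u * a u * (if u ∈ S then 1 else 0)))
    have t2 : 0 ≤ ∑ u, (ν u * a u) ^ 2 * ((1 - e u) * (if u ∈ S then e0 else 1)) :=
      sum_nonneg fun u _ => mul_nonneg (sq_nonneg _) (mul_nonneg (sub_nonneg.2 (he1 u))
        (by split_ifs <;> linarith))
    linarith
  have h1 := form (ext μ w w 0 ((∑ u, μ u * a u) / a w))
    (by rw [sum_ext, div_mul_cancel₀ _ (ha0 w).ne']; ring)
  rw [quad_ext, h] at h1
  have h2 := mul_nonneg (sq_nonneg ((∑ u, μ u * a u) / a w))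
    (base_pos ψ S ψ0 (β + ev w + ev w)).le
  linarith

end Vale.Agent.P328
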