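import Vale.Agent.P328.RandE

/-! Cost-free semantics, frame rule, generic running-time bound. -/

namespace Vale.Agent.P328

/-- Execution without the step counter. -/
def run : Cmd → Mem → Rand Mem
  | .store a i e, m => .ret (m.set a (i.eval m) (e.eval m))
  | .seq c d, m => (run c m).bind (run d)
  | .ifz e c d, m => if e.eval m = 0 then run c m else run d m
  | .loop e c, m => iter (run c) (e.eval m) m
  | .coin a, m => .flip (.ret (m.set a 0 0)) (.ret (m.set a 0 1))

theorem exec_sim_run (c : Cmd) (m : Mem) (t : ℕ) :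
    Sim (fun s m' => s.1 = m') (exec c (m, t)) (run c m) := by
  induction c generalizing m t with
  | store a i e => exact rfl
  | seq c d ihc ihd =>
    refine (ihc m t).bind ?_
    rintro ⟨m', t'⟩ b rfl
    exact ihd m' t'
  | ifz e c d ihc ihd =>
    simp only [exec, run]
    split_ifs
    · exact ihc _ _
    · exact ihd _ _
  | loop e c ih =>
    simp only [exec, run]
    refine Sim.iter _ rfl ?_
    rintro ⟨m', t'⟩ b rfl
    exact ih _ _
  | coin a => exact ⟨rfl, rfl⟩

@[simp] theorem Mem.set_self (m : Mem) (a i v : ℕ) : m.set a i v a i = v := by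
  simp [Mem.set]

theorem Mem.set_apply (m : Mem) (a i v a' i' : ℕ) :
    m.set a i v a' i' = if a' = a ∧ i' = i then v else m a' i' := by
  unfold Mem.set
  by_cases ha : a' = a
  · subst ha
    by_cases hi : i' = i
    · subst hi; simp
    · simp [hi]
  · simp [ha]

@[simp] theorem Mem.set_of_ne (m : Mem) {a a' : ℕ} (i v : ℕ) (h : a' ≠ a) :
    m.set a i v a' = m a' := by
  simp [Mem.set, h]

theorem Mem.set_same (m : Mem) (a i v i' : ℕ) :
    m.set a i v a i' = if i' = i then v else m a i' := by
  simp [Mem.set_apply]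

/-- Arrays a command may write. -/
def Cmd.writes : Cmd → List ℕ
  | .store a _ _ => [a]
  | .seq c d => c.writes ++ d.writes
  | .ifz _ c d => c.writes ++ d.writes
  | .loop _ c => c.writes
  | .coin a => [a]

/-- `m'` agrees with `m` outside the arrays in `W`. -/
def Fr (W : List ℕ) (m m' : Mem) : Prop := ∀ a, a ∉ W → m' a = m a

theorem Fr.refl (W : List ℕ) (m : Mem) : Fr W m m := fun _ _ => rfl

theorem Fr.trans {W : List ℕ} {m m' m'' : Mem} (h : Fr W m m') (h' : Fr W m' m'') :
    Fr W m m'' := fun a ha => (h' a ha).trans (h a ha)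

theorem Fr.mono {W W' : List ℕ} {m m' : Mem} (h : Fr W m m') (hW : ∀ a ∈ W, a ∈ W') :
    Fr W' m m' := fun a ha => h a fun h' => ha (hW a h')

theorem Fr.set {W : List ℕ} (m : Mem) {a : ℕ} (ha : a ∈ W) (i v : ℕ) : Fr W m (m.set a i v) :=
  fun _ hb => Mem.set_of_ne m i v fun h => hb (h ▸ ha)

theorem run_frame (c : Cmd) (W : List ℕ) (hW : ∀ a ∈ c.writes, a ∈ W)
    (m : Mem) : (run c m).All (Fr W m) := by
  induction c generalizing m with
  | store a i e => exact Fr.set m (hW a (by simp [Cmd.writes])) _ _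
  | seq c d ihc ihd =>
    refine Rand.All_bind (ihc (fun a ha => hW a (by simp [Cmd.writes, ha])) m) fun m' hm' => ?_
    exact Rand.All_mono (fun m'' h => hm'.trans h)
      (ihd (fun a ha => hW a (by simp [Cmd.writes, ha])) m')
  | ifz e c d ihc ihd =>
    simp only [run]
    split_ifs
    · exact ihc (fun a ha => hW a (by simp [Cmd.writes, ha])) m
    · exact ihd (fun a ha => hW a (by simp [Cmd.writes, ha])) m
  | loop e c ih =>
    simp only [run]
    exact All_iter _ (Fr.refl W m) fun m' hm' =>
      Rand.All_mono (fun m'' h => hm'.trans h) (ih hW m')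
  | coin a =>
    exact ⟨Fr.set m (hW a (by simp [Cmd.writes])) _ _, Fr.set m (hW a (by simp [Cmd.writes])) _ _⟩

/-- Add the frame property to a simulation. -/
theorem Sim.frame {β : Type} {c : Cmd} {m : Mem} {R : Mem → β → Prop}
    {t : Rand β} (h : Sim R (run c m) t) (W : List ℕ) (hW : ∀ a ∈ c.writes, a ∈ W) :
    Sim (fun m' b => R m' b ∧ Fr W m m') (run c m) t :=
  h.and_All (run_frame c W hW m)

/-- Loop bounds that are visibly at most a parameter or a small constant. -/
def Expr.okBound (Ps : List ℕ) : Expr → Bool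
  | .const c => decide (c ≤ 200)
  | .load a (.const 0) => decide (a ∈ Ps)
  | .sub e _ => e.okBound Ps
  | _ => false

def Cmd.okLoops (Ps : List ℕ) : Cmd → Bool
  | .store _ _ _ => true
  | .seq c d => c.okLoops Ps && d.okLoops Ps
  | .ifz _ c d => c.okLoops Ps && d.okLoops Ps
  | .loop e c => e.okBound Ps && c.okLoops Ps
  | .coin _ => true

/-- Number of nodes, constants counted with their bit length. -/
def Expr.wt : Expr → ℕ
  | .const c => Nat.size c + 1
  | .load _ i => i.wt + 1
  | .add e f => e.wt + f.wt + 1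
  | .sub e f => e.wt + f.wt + 1
  | .div e f => e.wt + f.wt + 1
  | .mod e f => e.wt + f.wt + 1
  | .len e => e.wt + 1

/-- Bound on the number of executed nodes when every loop bound is at most `B`. -/
def Cmd.costBound (B : ℕ) : Cmd → ℕ
  | .store _ i e => i.wt + e.wt + 1
  | .seq c d => c.costBound B + d.costBound B
  | .ifz e c d => e.wt + 1 + c.costBound B + d.costBound B
  | .loop e c => e.wt + 1 + B * (c.costBound B + 1)
  | .coin _ => 1

/-- Scalar variable: cell 0 of an array. -/
def var (a : ℕ) : Expr := .load a (.const 0)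

def asg (a : ℕ) (e : Expr) : Cmd := .store a (.const 0) e

abbrev aJUNK : ℕ := 50

def skip : Cmd := asg aJUNK (.const 0)

/-- Minimum of a scalar variable and an expression. -/
def minE (p : ℕ) (e : Expr) : Expr := .sub (var p) (.sub (var p) e)

/-- Deterministic triple: the run has a single outcome, and it satisfies `p`. -/
def Det (c : Cmd) (m : Mem) (p : Mem → Prop) : Prop :=
  Sim (fun m' (_ : Unit) => p m') (run c m) (.ret ())


theorem Det.mono {c : Cmd} {m : Mem} {p q : Mem → Prop} (h : Det c m p)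
    (hpq : ∀ m', p m' → q m') : Det c m q :=
  Sim.mono (fun a _ ha => hpq a ha) h

theorem Det.frame {c : Cmd} {m : Mem} {p : Mem → Prop} (h : Det c m p) (W : List ℕ)
    (hW : ∀ a ∈ c.writes, a ∈ W) : Det c m fun m' => p m' ∧ Fr W m m' :=
  Sim.frame h W hW

theorem Det.seq {c d : Cmd} {m : Mem} {p q : Mem → Prop} (h : Det c m p)
    (h' : ∀ m', p m' → Det d m' q) : Det (.seq c d) m q :=
  Sim.det_bind h h'

theorem Det.seq_sim {β : Type} {c d : Cmd} {m : Mem} {p : Mem → Prop} {R : Mem → β → Prop}
    {t : Rand β} (h : Det c m p) (h' : ∀ m', p m' → Sim R (run d m') t) :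
    Sim R (run (.seq c d) m) t :=
  Sim.det_bind h h'

theorem Det.store {a : ℕ} {i e : Expr} {m : Mem} {p : Mem → Prop}
    (h : p (m.set a (i.eval m) (e.eval m))) : Det (.store a i e) m p := h

theorem Det.asg {a : ℕ} {e : Expr} {m : Mem} {p : Mem → Prop}
    (h : p (m.set a 0 (e.eval m))) : Det (asg a e) m p := h

theorem Det.skip {m : Mem} {p : Mem → Prop} (h : p (m.set aJUNK 0 0)) :
    Det skip m p := h

theorem Det.to_sim {β : Type} {c : Cmd} {m : Mem} {R : Mem → β → Prop} {b : β}
    (h : Det c m fun m' => R m' b) : Sim R (run c m) (.ret b) := by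
  unfold Det at h
  revert h
  cases run c m with
  | ret a => exact id
  | flip _ _ => exact id

theorem sim_store_seq {β : Type} {a : ℕ} {i e : Expr} {d : Cmd} {m : Mem} {R : Mem → β → Prop}
    {t : Rand β} (h : Sim R (run d (m.set a (i.eval m) (e.eval m))) t) :
    Sim R (run (.seq (.store a i e) d) m) t := h

theorem sim_asg_seq {β : Type} {a : ℕ} {e : Expr} {d : Cmd} {m : Mem} {R : Mem → β → Prop}
    {t : Rand β} (h : Sim R (run d (m.set a 0 (e.eval m))) t) :
    Sim R (run (.seq (asg a e) d) m) t := h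

theorem sim_ifz_zero {β : Type} {e : Expr} {c d : Cmd} {m : Mem} {R : Mem → β → Prop}
    {t : Rand β} (he : e.eval m = 0) (h : Sim R (run c m) t) :
    Sim R (run (.ifz e c d) m) t := by
  simp only [run, he, if_true]; exact h

theorem sim_ifz_ne {β : Type} {e : Expr} {c d : Cmd} {m : Mem} {R : Mem → β → Prop}
    {t : Rand β} (he : e.eval m ≠ 0) (h : Sim R (run d m) t) :
    Sim R (run (.ifz e c d) m) t := by
  simp only [run, he, if_false]; exact h

theorem Det.ifz_zero {e : Expr} {c d : Cmd} {m : Mem} {p : Mem → Prop} (he : e.eval m = 0)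
    (h : Det c m p) : Det (.ifz e c d) m p := sim_ifz_zero he h

theorem Det.ifz_ne {e : Expr} {c d : Cmd} {m : Mem} {p : Mem → Prop} (he : e.eval m ≠ 0)
    (h : Det d m p) : Det (.ifz e c d) m p := sim_ifz_ne he h

theorem Det.store_seq {a : ℕ} {i e : Expr} {d : Cmd} {m : Mem} {p : Mem → Prop}
    (h : Det d (m.set a (i.eval m) (e.eval m)) p) :
    Det (.seq (.store a i e) d) m p := h

theorem Det.asg_seq {a : ℕ} {e : Expr} {d : Cmd} {m : Mem} {p : Mem → Prop}
    (h : Det d (m.set a 0 (e.eval m)) p) :
    Det (.seq (Vale.Agent.P328.asg a e) d) m p := h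

theorem Det.loop {e : Expr} {c : Cmd} {m : Mem} {k : ℕ} (hk : e.eval m = k) (p : ℕ → Mem → Prop)
    (h0 : p 0 m) (hstep : ∀ i, i < k → ∀ m', p i m' → Det c m' (p (i + 1))) :
    Det (.loop e c) m (p k) := by
  unfold Det
  simp only [run, hk]
  exact Sim.iter_det k h0 hstep

@[simp] theorem eval_var (m : Mem) (a : ℕ) : (var a).eval m = m a 0 := rfl

@[simp] theorem eval_const (m : Mem) (c : ℕ) : (Expr.const c).eval m = c := rfl

@[simp] theorem eval_load (m : Mem) (a : ℕ) (i : Expr) :
    (Expr.load a i).eval m = m a (i.eval m) := rfl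

@[simp] theorem eval_add (m : Mem) (e f : Expr) :
    (Expr.add e f).eval m = e.eval m + f.eval m := rfl

@[simp] theorem eval_sub (m : Mem) (e f : Expr) :
    (Expr.sub e f).eval m = e.eval m - f.eval m := rfl

@[simp] theorem eval_div (m : Mem) (e f : Expr) :
    (Expr.div e f).eval m = e.eval m / f.eval m := rfl

@[simp] theorem eval_mod (m : Mem) (e f : Expr) :
    (Expr.mod e f).eval m = e.eval m % f.eval m := rfl

@[simp] theorem eval_len (m : Mem) (e : Expr) :
    (Expr.len e).eval m = Nat.size (e.eval m) := rfl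

theorem eval_minE (m : Mem) (p : ℕ) (e : Expr) :
    (minE p e).eval m = min (m p 0) (e.eval m) := by
  simp only [minE, eval_sub, eval_var]; omega

theorem Fr.set_right {W : List ℕ} {m m' : Mem} (h : Fr W m m') {a : ℕ} (ha : a ∈ W) (i v : ℕ) :
    Fr W m (m'.set a i v) := h.trans (Fr.set m' ha i v)

end Vale.Agent.P328
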