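import Vale.Agent.P328.Cost
import Vale.Agent.P328.Counter

/-! The final theorems. -/

namespace Vale.Agent.P328

open Finset

theorem Sim.prob_eq {α β : Type} {R : α → β → Prop} {s : Rand α} {t : Rand β} (hs : Sim R s t)
    {p : α → Prop} {q : β → Prop} (h : ∀ a b, R a b → (p a ↔ q b)) : s.prob p = t.prob q := by
  induction s generalizing t with
  | ret a => cases t with
    | ret b =>
      by_cases hq : q b
      · simp [Rand.prob, hq, (h a b hs).2 hq]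
      · simp [Rand.prob, hq, mt (h a b hs).1 hq]
    | flip _ _ => exact hs.elim
  | flip l r ihl ihr => cases t with
    | ret b => exact hs.elim
    | flip l' r' => simp only [Rand.prob, ihl hs.1, ihr hs.2]

theorem Sim.All_left {α β : Type} {R : α → β → Prop} {s : Rand α} {t : Rand β} (hs : Sim R s t)
    {p : α → Prop} {q : β → Prop} (h : ∀ a b, R a b → q b → p a) (ht : t.All q) : s.All p := by
  induction s generalizing t with
  | ret a => cases t with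
    | ret b => exact h a b hs ht
    | flip _ _ => exact hs.elim
  | flip l r ihl ihr => cases t with
    | ret b => exact hs.elim
    | flip l' r' => exact ⟨ihl hs.1 ht.1, ihr hs.2 ht.2⟩

theorem sampler : ∃ (prog : Cmd) (C d : ℕ), ∀ (m n : ℕ) (r : Fin m → ℕ) (c : Fin n → ℕ),
    0 < m → 0 < n → ∑ i, r i = ∑ j, c j → ∀ ε : ℝ, 0 < ε → ε < 1 →
      (exec prog (input r c [⌈1 / ε⌉₊], 0)).All (fun s =>
          (s.2 : ℝ) ≤ C * (inLen r c + Real.log (1 / ε)) ^ d ∧ outTable m n s.1 ∈ tables r c) ∧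
        1 / 2 * ∑ X ∈ tables r c,
          |(exec prog (input r c [⌈1 / ε⌉₊], 0)).prob (fun s => outTable m n s.1 = X)
            - 1 / ((tables r c).card : ℝ)| ≤ ε := by
  obtain ⟨C, d, hC⟩ := samplerC_cost
  refine ⟨samplerC, C * 20 ^ d, d, fun m n r c hm hn hs ε h0 h1 => ?_⟩
  obtain ⟨i0, j0, hok, hsim⟩ := samplerC_sim r c hm hn hs ⌈1 / ε⌉₊
  have hlog : 0 ≤ Real.log (1 / ε) := Real.log_nonneg (by rw [le_div_iff₀ h0]; linarith)
  refine ⟨Rand.All_and (Rand.All_mono (fun s hs => ?_) (hC m n r c hm hn ⌈1 / ε⌉₊))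
    (hsim.All_left (fun a b hab hb => hab ▸ hb) (Inst.sampler_All hok)), ?_⟩
  · have e1 : (s.2 : ℝ) ≤ C * (parP r c (Nat.size ⌈1 / ε⌉₊) : ℝ) ^ d := by exact_mod_cast hs
    have e2 : (parP r c (Nat.size ⌈1 / ε⌉₊) : ℝ) ≤ 20 * (inLen r c + Real.log (1 / ε)) := by
      have := parP_le r c (Nat.size ⌈1 / ε⌉₊)
      have := size_ceil_le ε h0 h1
      have := two_le_inLen r c hm hn
      linarith
    have e3 := pow_le_pow_left₀ (Nat.cast_nonneg _) e2 d
    rw [mul_pow] at e3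
    push_cast
    calc (s.2 : ℝ) ≤ _ := e1
      _ ≤ C * (20 ^ d * (inLen r c + Real.log (1 / ε)) ^ d) :=
          mul_le_mul_of_nonneg_left e3 (Nat.cast_nonneg _)
      _ = _ := by ring
  · have e1 := Inst.sampler_tv hok
    have e2 : ∀ X, (exec samplerC (input r c [⌈1 / ε⌉₊], 0)).prob (fun s => outTable m n s.1 = X)
        = (Inst.mk m n r c i0 j0 (Nat.size (parP r c (Nat.size ⌈1 / ε⌉₊)))).samplerR.prob
          (fun Y => Y = X) := fun X => hsim.prob_eq fun a b hab => by rw [hab]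
    simp only [e2]
    refine e1.trans ?_
    have e3 : Nat.size ⌈1 / ε⌉₊ + 3
        ≤ (Inst.mk m n r c i0 j0 (Nat.size (parP r c (Nat.size ⌈1 / ε⌉₊)))).W := by
      have := Nat.lt_size_self (parP r c (Nat.size ⌈1 / ε⌉₊))
      unfold Inst.W
      unfold parP at this ⊢
      simp only
      omega
    have e4 := pow_le_pow_of_le_one (show (0 : ℝ) ≤ 1 / 2 by norm_num) (by norm_num) e3
    have e5 := half_pow_size_ceil ε h0
    rw [pow_add] at e4
    norm_num at e4 e5 ⊢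
    nlinarith

theorem counter : ∃ (prog : Cmd) (C d : ℕ), ∀ (m n : ℕ) (r : Fin m → ℕ) (c : Fin n → ℕ),
    0 < m → 0 < n → ∑ i, r i = ∑ j, c j → ∀ ε δ : ℝ, 0 < ε → ε < 1 → 0 < δ → δ < 1 →
      (exec prog (input r c [⌈1 / ε⌉₊, ⌈1 / δ⌉₊], 0)).All (fun s =>
          (s.2 : ℝ) ≤ C * (inLen r c + 1 / ε + Real.log (1 / δ)) ^ d) ∧
        1 - δ ≤ (exec prog (input r c [⌈1 / ε⌉₊, ⌈1 / δ⌉₊], 0)).prob fun s =>
          (1 - ε) * ((tables r c).card : ℝ) ≤ (s.1 3 0 : ℝ) ∧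
            (s.1 3 0 : ℝ) ≤ (1 + ε) * ((tables r c).card : ℝ) := by
  obtain ⟨C, d, hC⟩ := counterC_cost
  refine ⟨counterC, C * 20 ^ d, d, fun m n r c hm hn hs ε δ h0 h1 g0 g1 => ?_⟩
  obtain ⟨i0, j0, hok, hsim⟩ := counterC_sim r c hm hn hs ⌈1 / ε⌉₊ ⌈1 / δ⌉₊
  have hlog : 0 ≤ Real.log (1 / δ) := Real.log_nonneg (by rw [le_div_iff₀ g0]; linarith)
  have hinv : 0 < 1 / ε := by positivity
  refine ⟨Rand.All_mono (fun s hs => ?_) (hC m n r c hm hn ⌈1 / ε⌉₊ ⌈1 / δ⌉₊), ?_⟩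
  · have e1 : (s.2 : ℝ) ≤ C * (parP r c (⌈1 / ε⌉₊ + Nat.size ⌈1 / δ⌉₊) : ℝ) ^ d := by
      exact_mod_cast hs
    have e2 : (parP r c (⌈1 / ε⌉₊ + Nat.size ⌈1 / δ⌉₊) : ℝ)
        ≤ 20 * (inLen r c + 1 / ε + Real.log (1 / δ)) := by
      have := parP_le r c (⌈1 / ε⌉₊ + Nat.size ⌈1 / δ⌉₊)
      have := size_ceil_le δ g0 g1
      have := two_le_inLen r c hm hn
      have := (Nat.ceil_lt_add_one hinv.le).le
      push_cast at *
      linarith
    have e3 := pow_le_pow_left₀ (Nat.cast_nonneg _) e2 d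
    rw [mul_pow] at e3
    push_cast
    calc (s.2 : ℝ) ≤ _ := e1
      _ ≤ C * (20 ^ d * (inLen r c + 1 / ε + Real.log (1 / δ)) ^ d) :=
          mul_le_mul_of_nonneg_left e3 (Nat.cast_nonneg _)
      _ = _ := by ring
  · have e3 : ⌈1 / ε⌉₊ + Nat.size ⌈1 / δ⌉₊
        ≤ (Inst.mk m n r c i0 j0 (Nat.size (parP r c (⌈1 / ε⌉₊ + Nat.size ⌈1 / δ⌉₊)))).W := by
      have := Nat.lt_size_self (parP r c (⌈1 / ε⌉₊ + Nat.size ⌈1 / δ⌉₊))
      unfold Inst.W
      unfold parP at this ⊢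
      simp only
      omega
    have e4 : 1 ≤ ε * ((Inst.mk m n r c i0 j0
        (Nat.size (parP r c (⌈1 / ε⌉₊ + Nat.size ⌈1 / δ⌉₊)))).W : ℝ) := by
      have a1 : 1 / ε ≤ (⌈1 / ε⌉₊ : ℝ) := Nat.le_ceil _
      have a2 : (⌈1 / ε⌉₊ : ℝ) ≤ ((Inst.mk m n r c i0 j0
          (Nat.size (parP r c (⌈1 / ε⌉₊ + Nat.size ⌈1 / δ⌉₊)))).W : ℝ) := by
        exact_mod_cast le_trans (Nat.le_add_right _ _) e3
      have a3 := a1.trans a2
      rw [div_le_iff₀ h0] at a3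
      linarith
    have e1 := Inst.counter_correct hok ε h1 e4
    have e5 := pow_le_pow_of_le_one (show (0 : ℝ) ≤ 1 / 2 by norm_num) (by norm_num)
      (le_trans (Nat.le_add_left _ _) e3)
    have e6 := half_pow_size_ceil δ g0
    refine le_trans (by linarith) (e1.trans (hsim.prob_le ?_))
    rintro s out rfl h
    exact h

end Vale.Agent.P328
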