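import Vale.Agent.P328.Spec

/-! Geometric convergence of a lazy chain from a Poincare inequality. -/

namespace Vale.Agent.P328

open Finset

theorem sum_range_double (m : ℕ) (f : ℕ → ℝ) :
    ∑ r ∈ range (2 * m), f r = ∑ r ∈ range m, (f (r + r) + f (r + r + 1)) := by
  induction m with
  | zero => simp
  | succ m ih =>
    rw [show 2 * (m + 1) = 2 * m + 1 + 1 by ring, sum_range_succ, sum_range_succ, ih,
      sum_range_succ, two_mul]
    ring

theorem E_bits (k : ℕ) (f : ℕ → ℝ) : (bits k).E f = (∑ r ∈ range (2 ^ k), f r) / 2 ^ k := by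
  induction k generalizing f with
  | zero => simp [bits, iter]
  | succ k ih =>
    have h : bits (k + 1) = (bits k).bind fun r => coinR.bind fun c => .ret (r + r + c) :=
      iter_succ' _ _ _
    rw [h, Rand.E_bind, ih, pow_succ' 2 k, sum_range_double]
    simp only [coinR, Rand.flip_bind, Rand.ret_bind, Rand.E_flip, Rand.E_ret, add_zero]
    rw [← Finset.sum_div, pow_succ]
    field_simp

theorem E_bits_zero (j : ℕ) (u v : ℝ) :
    ((bits j).E fun r => if r = 0 then u else v) = 1 / 2 ^ j * u + (1 - 1 / 2 ^ j) * v := by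
  have h : ∀ r : ℕ, (if r = 0 then u else v) = v + if r = 0 then u - v else 0 := fun r => by
    split_ifs <;> ring
  rw [E_bits]
  simp only [h, sum_add_distrib, sum_const, card_range, nsmul_eq_mul, sum_ite_eq', mem_range,
    Nat.two_pow_pos, if_true]
  push_cast
  field_simp
  ring

theorem E_acc (j d : ℕ) (f : ℕ → ℝ) :
    (acc j d).E f = (1 - 1 / 2 ^ j) ^ d * f 1 + (1 - (1 - 1 / 2 ^ j) ^ d) * f 0 := by
  induction d generalizing f with
  | zero => simp [acc, iter]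
  | succ d ih =>
    have h : acc j (d + 1)
        = (acc j d).bind fun a => (bits j).bind fun r => .ret (if r = 0 then 0 else a) :=
      iter_succ' _ _ _
    rw [h, Rand.E_bind, ih]
    simp only [Rand.E_bind, Rand.E_ret, apply_ite f, E_bits_zero]
    ring

theorem mk_E_sq {α : Type} (t : Rand α) (f : α → ℝ) (a : ℝ) :
    (t.E fun y => (f y - a) ^ 2) = (t.E fun y => f y ^ 2) - 2 * a * t.E f + a ^ 2 := by
  have h : (fun y => (f y - a) ^ 2) = fun y => (f y ^ 2 - (2 * a) * f y) + a ^ 2 := by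
    funext y; ring
  rw [h, Rand.E_add, Rand.E_sub, Rand.E_const, Rand.E_const_mul]

theorem mk_step {α : Type} (S : Finset α) (w : α → ℝ) (hw : ∀ x ∈ S, 0 < w x) (K0 : α → Rand α)
    (κ : ℝ) (hκ : 1 ≤ κ)
    (hstat : ∀ g : α → ℝ, ∑ x ∈ S, w x * (K0 x).E g = ∑ x ∈ S, w x * g x)
    (hP : ∀ g : α → ℝ, ∃ c : ℝ, ∑ x ∈ S, w x * (g x - c) ^ 2
      ≤ κ * ∑ x ∈ S, w x * (K0 x).E fun y => (g y - g x) ^ 2)
    (f : α → ℝ) (hf : ∑ x ∈ S, w x * f x = 0) :
    ∑ x ∈ S, w x * ((f x + (K0 x).E f) / 2) ^ 2 ≤ (1 - 1 / (4 * κ)) * ∑ x ∈ S, w x * f x ^ 2 := by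
  obtain ⟨c, hc⟩ := hP f
  have h1 : ∑ x ∈ S, w x * ((f x + (K0 x).E f) / 2) ^ 2 ≤ ∑ x ∈ S,
      (1 / 2 * (w x * f x ^ 2) + 1 / 2 * (w x * (K0 x).E fun y => f y ^ 2)
        - 1 / 4 * (w x * (K0 x).E fun y => (f y - f x) ^ 2)) := by
    refine Finset.sum_le_sum fun x hx => ?_
    have e1 := (K0 x).E_nonneg (f := fun y => (f y - (K0 x).E f) ^ 2) fun _ => sq_nonneg _
    rw [mk_E_sq] at e1 ⊢
    nlinarith [mul_nonneg (hw x hx).le e1]
  rw [sum_sub_distrib, sum_add_distrib, ← Finset.mul_sum, ← Finset.mul_sum, ← Finset.mul_sum,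
    hstat] at h1
  have h2 : ∑ x ∈ S, w x * (f x - c) ^ 2
      = ∑ x ∈ S, w x * f x ^ 2 - 2 * c * ∑ x ∈ S, w x * f x + c ^ 2 * ∑ x ∈ S, w x := by
    rw [Finset.mul_sum, Finset.mul_sum, ← sum_sub_distrib, ← sum_add_distrib]
    exact Finset.sum_congr rfl fun x _ => by ring
  have h3 : 0 ≤ c ^ 2 * ∑ x ∈ S, w x :=
    mul_nonneg (sq_nonneg _) (Finset.sum_nonneg fun x hx => (hw x hx).le)
  rw [h2, hf] at hc
  have h4 : 1 / (4 * κ) * ∑ x ∈ S, w x * f x ^ 2
      ≤ 1 / 4 * ∑ x ∈ S, w x * (K0 x).E fun y => (f y - f x) ^ 2 := by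
    rw [div_mul_eq_mul_div, div_le_iff₀ (by positivity)]
    linarith
  linarith

theorem mix {α : Type} (S : Finset α) (w : α → ℝ) (hw : ∀ x ∈ S, 0 < w x) (K0 : α → Rand α)
    (κ : ℝ) (hκ : 1 ≤ κ)
    (hstat : ∀ g : α → ℝ, ∑ x ∈ S, w x * (K0 x).E g = ∑ x ∈ S, w x * g x)
    (hP : ∀ g : α → ℝ, ∃ c : ℝ, ∑ x ∈ S, w x * (g x - c) ^ 2
      ≤ κ * ∑ x ∈ S, w x * (K0 x).E fun y => (g y - g x) ^ 2)
    (g : α → ℝ) (hg : ∀ x, |g x| ≤ 1) (x0 : α) (hx0 : x0 ∈ S) (T : ℕ) :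
    w x0 * ((iter (fun x => coinR.bind fun z => if z = 0 then .ret x else K0 x) T x0).E g
        - (∑ x ∈ S, w x * g x) / ∑ x ∈ S, w x) ^ 2
      ≤ (1 - 1 / (4 * κ)) ^ T * ∑ x ∈ S, w x := by
  have hZ : 0 < ∑ x ∈ S, w x := Finset.sum_pos hw ⟨x0, hx0⟩
  set μ := (∑ x ∈ S, w x * g x) / ∑ x ∈ S, w x with hμ
  set P : α → Rand α := fun x => coinR.bind fun z => if z = 0 then .ret x else K0 x with hPdef
  have hq : 0 ≤ 1 - 1 / (4 * κ) := by
    rw [sub_nonneg, div_le_one (by positivity)]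
    linarith
  have hμ' : ∑ x ∈ S, w x * g x = μ * ∑ x ∈ S, w x := by rw [hμ, div_mul_cancel₀ _ hZ.ne']
  have key : ∀ T : ℕ, ∑ x ∈ S, w x * ((iter P T x).E g - μ) = 0 ∧
      ∑ x ∈ S, w x * ((iter P T x).E g - μ) ^ 2 ≤ (1 - 1 / (4 * κ)) ^ T * ∑ x ∈ S, w x := by
    intro T
    induction T with
    | zero =>
      simp only [iter, Rand.E_ret, pow_zero, one_mul]
      constructor
      · simp only [mul_sub, sum_sub_distrib, ← Finset.sum_mul, hμ']
        ring
      · have h2 : ∑ x ∈ S, w x * (g x - μ) ^ 2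
            = ∑ x ∈ S, w x * g x ^ 2 - 2 * μ * ∑ x ∈ S, w x * g x + μ ^ 2 * ∑ x ∈ S, w x := by
          rw [Finset.mul_sum, Finset.mul_sum, ← sum_sub_distrib, ← sum_add_distrib]
          exact Finset.sum_congr rfl fun x _ => by ring
        have h3 : ∑ x ∈ S, w x * g x ^ 2 ≤ ∑ x ∈ S, w x := Finset.sum_le_sum fun x hx =>
          mul_le_of_le_one_right (hw x hx).le ((sq_le_one_iff_abs_le_one _).mpr (hg x))
        rw [h2, hμ']
        nlinarith [mul_nonneg (sq_nonneg μ) hZ.le]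
    | succ T ih =>
      have h1 : ∀ x, (iter P (T + 1) x).E g - μ = (((iter P T x).E g - μ)
          + (K0 x).E fun y => (iter P T y).E g - μ) / 2 := by
        intro x
        rw [iter, Rand.E_bind, Rand.E_sub, Rand.E_const]
        simp only [hPdef, coinR, Rand.flip_bind, Rand.ret_bind, Rand.E_flip, Rand.E_ret, if_true,
          one_ne_zero, if_false]
        ring
      simp only [h1]
      constructor
      · have h2 := hstat fun y => (iter P T y).E g - μ
        simp only [← mul_div_assoc, mul_add, ← Finset.sum_div, sum_add_distrib, h2, ih.1]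
        simp
      · refine (mk_step S w hw K0 κ hκ hstat hP _ ih.1).trans ?_
        rw [pow_succ', mul_assoc]
        exact mul_le_mul_of_nonneg_left ih.2 hq
  exact (Finset.single_le_sum (f := fun x => w x * ((iter P T x).E g - μ) ^ 2)
    (fun x hx => mul_nonneg (hw x hx).le (sq_nonneg _)) hx0).trans (key T).2

end Vale.Agent.P328
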