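import Vale.Agent.P328.Coarse

/-! The Poincare inequality for the coarse weights. -/

namespace Vale.Agent.P328

open Finset

theorem pen_conc (c : ℝ) (hc : 0 ≤ c) (e o z : ℤ) :
    c * ((min (e * (z + 1 + 1) + o) 0 : ℤ) : ℝ) + c * ((min (e * z + o) 0 : ℤ) : ℝ)
      ≤ 2 * (c * ((min (e * (z + 1) + o) 0 : ℤ) : ℝ)) := by
  have h : min (e * (z + 1 + 1) + o) 0 + min (e * z + o) 0 ≤ 2 * min (e * (z + 1) + o) 0 := by
    have e1 : e * (z + 1 + 1) = e * z + e + e := by ring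
    have e2 : e * (z + 1) = e * z + e := by ring
    rw [e1, e2]
    omega
  have h' : ((min (e * (z + 1 + 1) + o) 0 : ℤ) : ℝ) + ((min (e * z + o) 0 : ℤ) : ℝ)
      ≤ 2 * ((min (e * (z + 1) + o) 0 : ℤ) : ℝ) := by exact_mod_cast h
  have := mul_le_mul_of_nonneg_left h' hc
  linarith

theorem pen_lip (c c' : ℝ) (hc : 0 ≤ c) (hcc : c ≤ c') (e o z : ℤ) (he : e = 1 ∨ e = -1) :
    |c * ((min (e * (z + 1) + o) 0 : ℤ) : ℝ) - c * ((min (e * z + o) 0 : ℤ) : ℝ)| ≤ c' := by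
  have h : |min (e * (z + 1) + o) 0 - min (e * z + o) 0| ≤ 1 := by
    rw [abs_le]
    rcases he with rfl | rfl <;> constructor <;> omega
  have h' : |((min (e * (z + 1) + o) 0 : ℤ) : ℝ) - ((min (e * z + o) 0 : ℤ) : ℝ)| ≤ 1 := by
    exact_mod_cast h
  rw [← mul_sub, abs_mul, abs_of_nonneg hc]
  exact (mul_le_of_le_one_right hc h').trans hcc

theorem min_sub_cast (a b : ℕ) : ((min ((a : ℤ) - b) 0 : ℤ) : ℝ) = -((b - a : ℕ) : ℝ) := by
  have : min ((a : ℤ) - b) 0 = -((b - a : ℕ) : ℤ) := by omega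
  rw [this]; simp

theorem exp_div_sub_one (y : ℝ) (l : ℕ) (hl : 0 < l) :
    Real.exp (y / l) - 1 ≤ Real.exp y / l := by
  have hl' : (1 : ℝ) ≤ l := by exact_mod_cast hl
  have h := convexOn_exp.2 (Set.mem_univ y) (Set.mem_univ 0)
    (show (0 : ℝ) ≤ 1 / l by positivity)
    (show (0 : ℝ) ≤ 1 - 1 / l by rw [sub_nonneg, div_le_one (by linarith)]; exact hl') (by ring)
  simp only [smul_eq_mul, mul_zero, add_zero, Real.exp_zero, mul_one] at h
  have e1 : 1 / (l : ℝ) * y = y / l := by ring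
  have e2 : 1 / (l : ℝ) * Real.exp y = Real.exp y / l := by ring
  have : (0 : ℝ) ≤ 1 / l := by positivity
  rw [e1, e2] at h
  linarith

namespace Inst

variable (I : Inst)

noncomputable def aa (t : ℕ) : ℝ := t * (-Real.log I.th) / (I.W : ℝ) ^ 8

noncomputable def psi (t : ℕ) : Fin I.m ⊕ Fin I.n → ℤ → ℝ
  | .inl i, z => I.aa t / I.ellR i * ((min (1 * z + 0) 0 : ℤ) : ℝ)
  | .inr j, z => I.aa t / I.ellC j * ((min (-1 * z + 0) 0 : ℤ) : ℝ)

noncomputable def psi0 (t : ℕ) (z : ℤ) : ℝ :=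
  I.aa t / I.ell0 * ((min (1 * z + ((I.rs + I.cs : ℕ) : ℤ)) 0 : ℤ) : ℝ)

def cols : Finset (Fin I.m ⊕ Fin I.n) := univ.map Function.Embedding.inr

noncomputable def Phi (t : ℕ) : (Fin I.m ⊕ Fin I.n → ℤ) → ℝ := base (I.psi t) I.cols (I.psi0 t)

def edge (s : I.Cell) : Edge (Fin I.m ⊕ Fin I.n) := ⟨.inl s.divNat, .inr s.modNat, I.M s, I.D s⟩

def b0 : Fin I.m ⊕ Fin I.n → ℤ
  | .inl i => I.r i
  | .inr j => -(I.c j : ℤ)

theorem sh_inl (x : I.St) (i : Fin I.m) : sh I.edge x (.inl i) = I.rowS x i := by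
  simp only [sh, edge, rowS, Finset.sum_apply, Pi.smul_apply, Pi.sub_apply, ev, Pi.single_apply,
    smul_eq_mul]
  push_cast
  refine sum_congr rfl fun s _ => ?_
  by_cases h : s.divNat = i
  · simp [h]
  · simp [h, Ne.symm h]

theorem sh_inr (x : I.St) (j : Fin I.n) : sh I.edge x (.inr j) = -(I.colS x j : ℤ) := by
  simp only [sh, edge, colS, Finset.sum_apply, Pi.smul_apply, Pi.sub_apply, ev, Pi.single_apply,
    smul_eq_mul]
  push_cast
  rw [← sum_neg_distrib]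
  refine sum_congr rfl fun s _ => ?_
  by_cases h : s.modNat = j
  · simp [h]
  · simp [h, Ne.symm h]

theorem sum_colS (x : I.St) : ∑ j, I.colS x j = I.totS x := by
  simp only [colS, totS]
  rw [sum_comm]
  simp

variable {I}

theorem Phi_eq (h : I.OK) (t : ℕ) (x : I.St) : I.Phi t (I.b0 - sh I.edge x) = I.wf t x := by
  unfold Phi base wf
  congr 1
  rw [Fintype.sum_sum_type, cols, sum_map]
  have e1 : ∀ i, I.psi t (.inl i) ((I.b0 - sh I.edge x) (.inl i))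
      = -(I.aa t * ((I.negR x i : ℝ) / I.ellR i)) := by
    intro i
    simp only [psi, Pi.sub_apply, sh_inl, b0, one_mul, add_zero, min_sub_cast, negR]
    ring
  have e2 : ∀ j, I.psi t (.inr j) ((I.b0 - sh I.edge x) (.inr j))
      = -(I.aa t * ((I.negC x j : ℝ) / I.ellC j)) := by
    intro j
    have : -1 * ((I.b0 - sh I.edge x) (.inr j)) + 0 = (I.c j : ℤ) - I.colS x j := by
      simp only [Pi.sub_apply, sh_inr, b0]; ring
    simp only [psi, this, min_sub_cast, negC]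
    ring
  have e3 : I.psi0 t (∑ j, (I.b0 - sh I.edge x) (Function.Embedding.inr j))
      = -(I.aa t * ((I.neg0 0 x : ℝ) / I.ell0)) := by
    have : 1 * (∑ j, (I.b0 - sh I.edge x) (Function.Embedding.inr j)) + ((I.rs + I.cs : ℕ) : ℤ)
        = ((I.rs + I.cs + 0 + I.totS x : ℕ) : ℤ) - I.N := by
      simp only [Function.Embedding.inr_apply, Pi.sub_apply, sh_inr, b0, sum_sub_distrib,
        sum_neg_distrib, N, h.sum_eq, ← sum_colS]
      push_cast
      ring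
    simp only [psi0, this, min_sub_cast, neg0]
    ring
  simp only [e1, e2, e3, sum_neg_distrib, ← mul_sum, aa]
  ring

theorem aa_nonneg (h : I.OK) (t : ℕ) : 0 ≤ I.aa t := by
  have := Real.log_nonpos (th_pos h).le (th_lt_one h).le
  unfold aa
  have : 0 ≤ -Real.log I.th := by linarith
  positivity

theorem exp_aa (h : I.OK) {t : ℕ} (ht : t ≤ I.T0) : Real.exp (I.aa t) ≤ (I.W : ℝ) ^ 8 := by
  have hW : (0 : ℝ) < I.W := by have := h.h32; exact_mod_cast (by omega : 0 < I.W)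
  have hL : 0 ≤ -Real.log I.th := by
    linarith [Real.log_nonpos (th_pos h).le (th_lt_one h).le]
  have h1 := Real.log_le_log (by norm_num) (quarter_le_th_pow h)
  rw [Real.log_pow, one_div, Real.log_inv] at h1
  have h2 : (t : ℝ) ≤ 4 * I.b * (I.W : ℝ) ^ 10 := by exact_mod_cast ht
  have h3 : I.aa t ≤ (4 * I.b : ℕ) * Real.log 4 := by
    unfold aa
    rw [div_le_iff₀ (by positivity)]
    push_cast at h1 ⊢
    calc t * -Real.log I.th ≤ 4 * I.b * (I.W : ℝ) ^ 10 * -Real.log I.th :=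
          mul_le_mul_of_nonneg_right h2 hL
      _ = 4 * I.b * ((I.W : ℝ) ^ 2 * -Real.log I.th) * (I.W : ℝ) ^ 8 := by ring
      _ ≤ 4 * I.b * Real.log 4 * (I.W : ℝ) ^ 8 :=
          mul_le_mul_of_nonneg_right
            (mul_le_mul_of_nonneg_left (by linarith) (by positivity)) (by positivity)
  refine (Real.exp_le_exp.2 h3).trans (le_of_eq ?_)
  rw [Real.exp_nat_mul, Real.exp_log (by norm_num), W]
  push_cast
  rw [← pow_mul, show (4 : ℝ) = 2 ^ 2 by norm_num, ← pow_mul]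
  congr 1
  ring

theorem Phi_lip (h : I.OK) (t l : ℕ) (hl : 0 < l) (u v : Fin I.m ⊕ Fin I.n)
    (hR : ∀ i, u = .inl i ∨ v = .inl i → l ≤ I.ellR i)
    (hC : ∀ j, u = .inr j ∨ v = .inr j → l ≤ I.ellC j) (h0 : l ≤ I.ell0)
    (β : Fin I.m ⊕ Fin I.n → ℤ) :
    I.Phi t (β + ev u) ≤ Real.exp (3 * (I.aa t / l)) * I.Phi t (β + ev v) := by
  have ha := aa_nonneg h t
  have hl' : (0 : ℝ) < l := by exact_mod_cast hl
  have key : ∀ l' : ℕ, l ≤ l' → 0 ≤ I.aa t / l' ∧ I.aa t / l' ≤ I.aa t / l := fun l' hl' =>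
    ⟨by positivity, div_le_div_of_nonneg_left ha (by exact_mod_cast hl) (by exact_mod_cast hl')⟩
  have hw : ∀ w, u = w ∨ v = w → ∀ z, |I.psi t w (z + 1) - I.psi t w z| ≤ I.aa t / l := by
    rintro (i | j) hw z
    · exact pen_lip _ _ (key _ (hR i hw)).1 (key _ (hR i hw)).2 1 0 z (Or.inl rfl)
    · exact pen_lip _ _ (key _ (hC j hw)).1 (key _ (hC j hw)).2 (-1) 0 z (Or.inr rfl)
  exact base_lip _ _ _ u v _ (hw u (Or.inl rfl)) (hw v (Or.inr rfl))
    (fun z => pen_lip _ _ (key _ h0).1 (key _ h0).2 1 _ z (Or.inl rfl)) β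

theorem Phi_hyp (h : I.OK) (t : ℕ) : Hyp (I.Phi t) := by
  have ha := aa_nonneg h t
  refine base_hyp _ _ _ ?_ fun z => pen_conc _ (by positivity) 1 _ z
  rintro (i | j) z
  · exact pen_conc _ (by positivity) 1 0 z
  · exact pen_conc _ (by positivity) (-1) 0 z

theorem M_le_sig (s : I.Cell) : I.M s ≤ 2 * I.sig s + 1 := by
  unfold M lg
  rcases Nat.eq_zero_or_pos (I.sig s) with h | h
  · simp [h]
  · have h1 : 0 < Nat.size (I.sig s) := Nat.size_pos.2 h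
    have h2 : 2 ^ (Nat.size (I.sig s) - 1) ≤ I.sig s := Nat.lt_size.1 (by omega)
    have h3 : 2 ^ Nat.size (I.sig s) = 2 * 2 ^ (Nat.size (I.sig s) - 1) := by
      rw [← pow_succ']; congr 1; omega
    omega

theorem edge_ok (h : I.OK) {t : ℕ} (ht : t ≤ I.T0) (s : I.Cell) :
    EdgeOK (I.Phi t) (2 * (I.W : ℝ) ^ 54) ((I.W : ℝ) ^ 11) (I.edge s) := by
  have hW0 : 0 < I.W := by have := h.h32; omega
  have hW : (0 : ℝ) < I.W := by exact_mod_cast hW0
  refine ⟨by simp only [edge, M]; positivity, ?_, ?_⟩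
  · have : (I.edge s).Bd.card = I.K s := by
      refine (Nat.card_multiples (I.M s) (I.D s)).trans ?_
      rw [M_eq, Nat.mul_div_cancel _ (D_pos s)]
    rw [this]
    exact_mod_cast K_le s
  · set l := I.sig s / I.W ^ 6 + 1 with hl
    have hl0 : 0 < l := Nat.succ_pos _
    have s1 : I.sig s ≤ I.r s.divNat := by unfold sig; split_ifs <;> omega
    have s2 : I.sig s ≤ I.c s.modNat := by unfold sig; split_ifs <;> omega
    have s3 : I.sig s ≤ I.rs := s1.trans (h.hi _)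
    have s4 : I.sig s ≤ I.cs := s2.trans (h.hj _)
    have l1 : l ≤ I.ellR s.divNat := Nat.succ_le_succ (Nat.div_le_div_right (le_min s1 s4))
    have l2 : l ≤ I.ellC s.modNat := Nat.succ_le_succ (Nat.div_le_div_right (le_min s3 s2))
    have l3 : l ≤ I.ell0 := Nat.succ_le_succ (Nat.div_le_div_right (le_min s3 s4))
    have ha := aa_nonneg h t
    refine ⟨Real.exp (3 * (I.aa t / l)), Real.one_le_exp (by positivity), ?_, ?_, ?_⟩
    · refine Phi_lip h t l hl0 _ _ ?_ ?_ l3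
      · rintro i (hi | hi) <;> cases hi; exact l1
      · rintro j (hj | hj) <;> cases hj; exact l2
    · refine Phi_lip h t l hl0 _ _ ?_ ?_ l3
      · rintro i (hi | hi) <;> cases hi; exact l1
      · rintro j (hj | hj) <;> cases hj; exact l2
    · have e1 : Real.exp (3 * (I.aa t / l)) ^ 2 = Real.exp (6 * I.aa t / l) := by
        rw [← Real.exp_nat_mul]; congr 1; push_cast; ring
      have e2 := exp_div_sub_one (6 * I.aa t) l hl0
      have e3 : Real.exp (6 * I.aa t) ≤ (I.W : ℝ) ^ 48 := by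
        have := pow_le_pow_left₀ (Real.exp_pos _).le (exp_aa h ht) 6
        rw [← Real.exp_nat_mul, ← pow_mul] at this
        exact_mod_cast this
      have e4 : I.M s ≤ 2 * I.W ^ 6 * l := by
        have a1 := M_le_sig s
        have a2 : I.sig s < I.W ^ 6 * l := Nat.lt_mul_div_succ _ (by positivity)
        rw [mul_assoc]
        omega
      have e5 : ((I.edge s).M : ℝ) ≤ 2 * (I.W : ℝ) ^ 6 * l := by
        simp only [edge]; exact_mod_cast e4
      have hl' : (0 : ℝ) < l := by exact_mod_cast hl0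
      rw [e1]
      calc ((I.edge s).M : ℝ) * (Real.exp (6 * I.aa t / l) - 1)
          ≤ (I.edge s).M * ((I.W : ℝ) ^ 48 / l) :=
            mul_le_mul_of_nonneg_left (e2.trans (div_le_div_of_nonneg_right e3 hl'.le))
              (Nat.cast_nonneg _)
        _ ≤ 2 * (I.W : ℝ) ^ 6 * l * ((I.W : ℝ) ^ 48 / l) :=
            mul_le_mul_of_nonneg_right e5 (by positivity)
        _ = _ := by field_simp

end Inst

theorem Inst.poincare_c {I : Inst} (h : I.OK) {t : ℕ} (ht : t ≤ I.T0) (F : I.St → ℝ) :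
    ∃ c : ℝ, ∑ y ∈ box I.K, I.wc t y * (F y - c) ^ 2 ≤ 2 * (I.W : ℝ) ^ 130 * I.Dc t F := by
  have hW : (32 : ℝ) ≤ I.W := by exact_mod_cast h.h32
  have hW0 : (0 : ℝ) < I.W := by linarith
  have hp : 4 * ((I.m * I.n : ℕ) : ℝ) ≤ (I.W : ℝ) ^ 2 := by exact_mod_cast Inst.cells_le h
  have hΓ : ∀ β u v, I.Phi t (β + ev u) ≤ (I.W : ℝ) ^ 24 * I.Phi t (β + ev v) := by
    intro β u v
    refine (Inst.Phi_lip h t 1 one_pos u v (fun _ _ => Nat.succ_le_succ (Nat.zero_le _))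
      (fun _ _ => Nat.succ_le_succ (Nat.zero_le _)) (Nat.succ_le_succ (Nat.zero_le _)) β).trans
      (mul_le_mul_of_nonneg_right ?_ (base_pos _ _ _ _).le)
    have := pow_le_pow_left₀ (Real.exp_pos _).le (Inst.exp_aa h ht) 3
    rw [← Real.exp_nat_mul, ← pow_mul] at this
    simpa using this
  have hC : ((I.m * I.n : ℕ) : ℝ) * ((I.W : ℝ) ^ 11 / 2 * (I.W : ℝ) ^ 24)
      * (2 * (2 * (I.W : ℝ) ^ 54) + 2) + (I.W : ℝ) ^ 11 * (I.W : ℝ) ^ 24 ≤ (I.W : ℝ) ^ 93 := by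
    have a1 : (1 : ℝ) ≤ (I.W : ℝ) ^ 54 := one_le_pow₀ (by linarith)
    have a2 : (I.W : ℝ) ^ 35 ≤ (I.W : ℝ) ^ 91 := pow_le_pow_right₀ (by linarith) (by norm_num)
    have a3 : ((I.m * I.n : ℕ) : ℝ) * ((I.W : ℝ) ^ 11 / 2 * (I.W : ℝ) ^ 24)
        * (2 * (2 * (I.W : ℝ) ^ 54) + 2)
        ≤ (I.W : ℝ) ^ 2 * ((I.W : ℝ) ^ 11 / 2 * (I.W : ℝ) ^ 24) * (6 * (I.W : ℝ) ^ 54) :=
      mul_le_mul (mul_le_mul_of_nonneg_right (by linarith [Nat.cast_nonneg (α := ℝ) (I.m * I.n)])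
        (by positivity)) (by linarith) (by positivity) (by positivity)
    have a4 : 4 * (I.W : ℝ) ^ 91 ≤ (I.W : ℝ) ^ 2 * (I.W : ℝ) ^ 91 :=
      mul_le_mul_of_nonneg_right (by nlinarith) (by positivity)
    have a5 : (I.W : ℝ) ^ 2 * ((I.W : ℝ) ^ 11 / 2 * (I.W : ℝ) ^ 24) * (6 * (I.W : ℝ) ^ 54)
        = 3 * (I.W : ℝ) ^ 91 := by ring
    have a6 : (I.W : ℝ) ^ 11 * (I.W : ℝ) ^ 24 = (I.W : ℝ) ^ 35 := by ring
    have a7 : (I.W : ℝ) ^ 2 * (I.W : ℝ) ^ 91 = (I.W : ℝ) ^ 93 := by ring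
    linarith
  obtain ⟨c, hc⟩ := coarse (Φ := I.Phi t) (base_pos _ _ _) (Inst.Phi_hyp h t) hΓ
    (q := (I.W : ℝ) ^ 11) (Λ := 2 * (I.W : ℝ) ^ 54) (by positivity) (by positivity)
    (by positivity) (C := (I.W : ℝ) ^ 93) (by positivity) (.inl I.i0) hC I.edge
    (Inst.edge_ok h ht) I.K (fun s => Inst.D_pos s) (fun s => Inst.M_eq s)
    (fun s => by exact_mod_cast Inst.K_le s) (I.b0 - ev (.inl I.i0)) (I.wc t)
    (fun x => by rw [sub_add_cancel, Inst.Phi_eq h]; exact Inst.wf_le_wc h t x)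
    (fun x => by rw [sub_add_cancel, Inst.Phi_eq h]; exact Inst.wc_le_wf h ht x) F
  refine ⟨c, hc.trans (mul_le_mul_of_nonneg_right ?_ ?_)⟩
  · have a1 : ((I.m * I.n : ℕ) : ℝ) * (I.W : ℝ) ^ 128 ≤ (I.W : ℝ) ^ 2 * (I.W : ℝ) ^ 128 :=
      mul_le_mul_of_nonneg_right (by linarith [Nat.cast_nonneg (α := ℝ) (I.m * I.n)])
        (by positivity)
    calc _ = 2 * (((I.m * I.n : ℕ) : ℝ) * (I.W : ℝ) ^ 128) := by ring
      _ ≤ 2 * ((I.W : ℝ) ^ 2 * (I.W : ℝ) ^ 128) := by linarith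
      _ = _ := by ring
  · have hw : ∀ y, 0 ≤ I.wc t y := fun y => pow_nonneg (Inst.th_pos h).le _
    refine sum_nonneg fun s _ => sum_nonneg fun y _ => ?_
    split_ifs
    · exact mul_nonneg (le_min (hw _) (hw _)) (sq_nonneg _)
    · exact le_rfl

end Vale.Agent.P328
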