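import Vale.Agent.P328.Markov
import Vale.Agent.P328.Weights

/-! The Metropolis chain on the coarse box converges. -/

namespace Vale.Agent.P328

open Finset

theorem sum_range_dite (a b : ℕ) (hab : a ≤ b) (F : Fin a → ℝ) :
    ∑ j ∈ range b, (if h : j < a then F ⟨j, h⟩ else 0) = ∑ j, F j := by
  rw [← Finset.sum_subset (range_subset_range.2 hab)
    (fun j _ hj => dif_neg (by simpa using hj)), Finset.sum_range]
  exact Finset.sum_congr rfl fun j _ => dif_pos j.2

namespace Inst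

variable {I : Inst}

theorem W_sq : (I.W : ℝ) ^ 2 = 2 ^ (2 * I.b) := by
  unfold W
  push_cast
  rw [← pow_mul, mul_comm]

theorem E_acc_th (d : ℕ) (f : ℕ → ℝ) :
    (acc (2 * I.b) d).E f = I.th ^ d * f 1 + (1 - I.th ^ d) * f 0 := by
  rw [E_acc, th, W_sq]

theorem cap_le (h : I.OK) {t : ℕ} (ht : t ≤ I.T0) {y : I.St} (hy : y ∈ box I.K) :
    I.phc t y ≤ I.W ^ 13 := by
  have h1 := h.h32
  calc I.phc t y ≤ I.W * t := phc_le h t hy
    _ ≤ I.W * (2 * I.W ^ 11) := Nat.mul_le_mul_left _ (ht.trans (T0_le h))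
    _ ≤ I.W * (I.W * I.W ^ 11) := by gcongr; omega
    _ = I.W ^ 13 := by ring

theorem wc_pos (h : I.OK) (t : ℕ) (y : I.St) : 0 < I.wc t y := pow_pos (th_pos h) _

theorem wc_le_one (h : I.OK) (t : ℕ) (y : I.St) : I.wc t y ≤ 1 :=
  pow_le_one₀ (th_pos h).le (th_lt_one h).le

theorem E_tryR (h : I.OK) {t : ℕ} (ht : t ≤ I.T0) (y : I.St) {y' : I.St} (hy' : y' ∈ box I.K)
    (f : I.St → ℝ) (hf : f y = 0) :
    I.wc t y * (I.tryR t y y').E f = min (I.wc t y) (I.wc t y') * f y' := by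
  unfold tryR
  rw [Rand.E_bind, E_acc_th, min_eq_right ((Nat.sub_le _ _).trans (cap_le h ht hy'))]
  simp only [Rand.E_ret, one_ne_zero, if_false, if_true, hf, mul_zero, add_zero]
  rw [← mul_assoc]
  congr 1
  unfold wc
  rcases le_total (I.phc t y) (I.phc t y') with h1 | h1
  · rw [← pow_add, Nat.add_sub_cancel' h1,
      min_eq_right (pow_le_pow_of_le_one (th_pos h).le (th_lt_one h).le h1)]
  · rw [Nat.sub_eq_zero_of_le h1, pow_zero, mul_one,
      min_eq_left (pow_le_pow_of_le_one (th_pos h).le (th_lt_one h).le h1)]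

theorem up_mem {y : I.St} (hy : y ∈ box I.K) {s : I.Cell} (hs : y s + 1 < I.K s) :
    Function.update y s (y s + 1) ∈ box I.K := by
  rw [mem_box] at hy ⊢
  intro s'
  by_cases h : s' = s
  · subst h; rwa [Function.update_self]
  · rw [Function.update_of_ne h]; exact hy s'

theorem dn_mem {y : I.St} (hy : y ∈ box I.K) (s : I.Cell) :
    Function.update y s (y s - 1) ∈ box I.K := by
  rw [mem_box] at hy ⊢
  intro s'
  by_cases h : s' = s
  · subst h; rw [Function.update_self]; exact (Nat.sub_le _ _).trans_lt (hy _)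
  · rw [Function.update_of_ne h]; exact hy s'

theorem E_step0 (h : I.OK) (t : ℕ) (y : I.St) (f : I.St → ℝ) (hf : f y = 0) :
    (I.step0 t y).E f = (∑ s, ((I.moveR t y s 0).E f + (I.moveR t y s 1).E f) / 2)
      / (I.W : ℝ) ^ 2 := by
  have hle : I.m * I.n ≤ 2 ^ (2 * I.b) := by
    have h1 := cells_le h
    have h2 : I.W ^ 2 = 2 ^ (2 * I.b) := by unfold W; rw [← pow_mul, mul_comm]
    omega
  unfold step0
  rw [Rand.E_bind, E_bits, W_sq, ← sum_range_dite _ _ hle]
  congr 1
  refine Finset.sum_congr rfl fun s _ => ?_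
  by_cases hs : s < I.m * I.n
  · simp [coinR, hs]
  · simp [coinR, hs, hf]

theorem sum_dn (s : I.Cell) (H : I.St → I.St → ℝ) :
    ∑ y ∈ box I.K, (if y s = 0 then 0 else H (Function.update y s (y s - 1)) y)
      = ∑ y ∈ box I.K, if y s + 1 < I.K s then H y (Function.update y s (y s + 1)) else 0 := by
  have e : ∀ y : I.St, (if y s = 0 then 0 else H (Function.update y s (y s - 1)) y)
      = if y s ≠ 0 then H (Function.update y s (y s - 1)) y else 0 := fun y => by
    by_cases h : y s = 0 <;> simp [h]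
  simp only [e]
  rw [← Finset.sum_filter, ← Finset.sum_filter]
  refine Finset.sum_nbij' (fun y => Function.update y s (y s - 1))
    (fun y => Function.update y s (y s + 1)) ?_ ?_ ?_ ?_ ?_
  · intro y hy
    obtain ⟨h1, h2⟩ := mem_filter.mp hy
    refine mem_filter.mpr ⟨dn_mem h1 s, ?_⟩
    have := mem_box.mp h1 s
    rw [Function.update_self]
    omega
  · intro y hy
    obtain ⟨h1, h2⟩ := mem_filter.mp hy
    exact mem_filter.mpr ⟨up_mem h1 h2, by simp⟩
  · intro y hy
    have h2 := (mem_filter.mp hy).2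
    simp only [Function.update_self, Function.update_idem]
    rw [Nat.sub_add_cancel (Nat.pos_of_ne_zero h2), Function.update_eq_self]
  · intro y _
    simp
  · intro y hy
    have h2 := (mem_filter.mp hy).2
    simp only [Function.update_self, Function.update_idem]
    rw [Nat.sub_add_cancel (Nat.pos_of_ne_zero h2), Function.update_eq_self]

theorem sum_step0 (h : I.OK) {t : ℕ} (ht : t ≤ I.T0) (F : I.St → I.St → ℝ) (hF : ∀ y, F y y = 0) :
    ∑ y ∈ box I.K, I.wc t y * (I.step0 t y).E (F y)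
      = (∑ s, ∑ y ∈ box I.K, if y s + 1 < I.K s then
          min (I.wc t y) (I.wc t (Function.update y s (y s + 1)))
            * (F y (Function.update y s (y s + 1)) + F (Function.update y s (y s + 1)) y) else 0)
        / (2 * (I.W : ℝ) ^ 2) := by
  have h1 : ∀ y ∈ box I.K, I.wc t y * (I.step0 t y).E (F y) = (∑ s,
      ((if y s + 1 < I.K s then min (I.wc t y) (I.wc t (Function.update y s (y s + 1)))
          * F y (Function.update y s (y s + 1)) else 0)
        + if y s = 0 then 0 else min (I.wc t (Function.update y s (y s - 1))) (I.wc t y)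
          * F y (Function.update y s (y s - 1)))) / (2 * (I.W : ℝ) ^ 2) := by
    intro y hy
    rw [E_step0 h t y _ (hF y), ← Finset.sum_div, div_div, ← mul_div_assoc, Finset.mul_sum]
    congr 1
    refine Finset.sum_congr rfl fun s _ => ?_
    rw [mul_add]
    congr 1
    · unfold moveR
      rw [if_pos rfl]
      split_ifs with hs
      · exact E_tryR h ht y (up_mem hy hs) _ (hF y)
      · simp [hF]
    · unfold moveR
      rw [if_neg one_ne_zero]
      split_ifs with hs
      · simp [hF]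
      · rw [E_tryR h ht y (dn_mem hy s) _ (hF y), min_comm]
  rw [Finset.sum_congr rfl h1, ← Finset.sum_div, Finset.sum_comm]
  congr 1
  refine Finset.sum_congr rfl fun s _ => ?_
  rw [sum_add_distrib, sum_dn s fun a b => min (I.wc t a) (I.wc t b) * F b a, ← sum_add_distrib]
  refine Finset.sum_congr rfl fun y _ => ?_
  split_ifs
  · ring
  · simp

end Inst

theorem Inst.step0_stat {I : Inst} (h : I.OK) {t : ℕ} (ht : t ≤ I.T0) (g : I.St → ℝ) :
    ∑ y ∈ box I.K, I.wc t y * (I.step0 t y).E g = ∑ y ∈ box I.K, I.wc t y * g y := by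
  have h1 := Inst.sum_step0 h ht (fun y y' => g y' - g y) fun y => sub_self _
  simp only [Rand.E_sub, Rand.E_const, mul_sub, sum_sub_distrib, sub_add_sub_cancel, sub_self,
    mul_zero, ite_self, sum_const_zero, zero_div] at h1
  linarith

theorem Inst.step0_dir {I : Inst} (h : I.OK) {t : ℕ} (ht : t ≤ I.T0) (g : I.St → ℝ) :
    I.Dc t g ≤ 2 * (I.W : ℝ) ^ 2 *
      ∑ y ∈ box I.K, I.wc t y * (I.step0 t y).E fun y' => (g y' - g y) ^ 2 := by
  have hW := Inst.W_real h
  rw [Inst.sum_step0 h ht (fun y y' => (g y' - g y) ^ 2) fun y => by simp,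
    mul_div_cancel₀ _ (by positivity)]
  unfold Inst.Dc
  refine Finset.sum_le_sum fun s _ => Finset.sum_le_sum fun y _ => ?_
  split_ifs
  · refine mul_le_mul_of_nonneg_left (le_add_of_nonneg_right (sq_nonneg _)) ?_
    exact le_min (Inst.wc_pos h _ _).le (Inst.wc_pos h _ _).le
  · exact le_rfl

theorem All_bind_any {α β : Type} {q : β → Prop} (t : Rand α) {g : α → Rand β}
    (hg : ∀ a, (g a).All q) : (t.bind g).All q :=
  Rand.All_bind (Rand.All_of_forall (p := fun _ => True) (fun _ => trivial) t) fun a _ => hg a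

theorem Inst.zero_mem (I : Inst) : (fun _ => 0) ∈ box I.K := mem_box.mpr fun s => Inst.K_pos s

theorem Inst.chain_All (I : Inst) (t : ℕ) : (I.chainR t).All fun y => y ∈ box I.K := by
  have htry : ∀ y ∈ box I.K, ∀ y' ∈ box I.K, (I.tryR t y y').All fun y => y ∈ box I.K := by
    intro y hy y' hy'
    refine All_bind_any _ fun a => ?_
    show (if a = 0 then y else y') ∈ box I.K
    split_ifs <;> assumption
  refine All_iter _ I.zero_mem fun y hy => All_bind_any _ fun z => ?_
  split_ifs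
  · exact hy
  refine All_bind_any _ fun s => All_bind_any _ fun dir => ?_
  split_ifs
  · unfold Inst.moveR
    split_ifs with h1 h2 h3
    · exact htry y hy _ (Inst.up_mem hy h2)
    · exact hy
    · exact hy
    · exact htry y hy _ (Inst.dn_mem hy _)
  · exact hy

theorem Inst.Zc_pos {I : Inst} (h : I.OK) (t : ℕ) : 0 < I.Zc t :=
  Finset.sum_pos (fun y _ => Inst.wc_pos h t y) ⟨_, I.zero_mem⟩

theorem Inst.Zc_le {I : Inst} (h : I.OK) (t : ℕ) : I.Zc t ≤ 2 ^ (2 * I.W ^ 3) := by
  have h1 : I.Zc t ≤ (box I.K).card := by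
    have := Finset.sum_le_card_nsmul (box I.K) (I.wc t) 1 fun y _ => Inst.wc_le_one h t y
    simpa [Inst.Zc] using this
  have h2 : (box I.K).card ≤ 2 ^ (2 * I.W ^ 3) := by
    unfold box
    rw [Fintype.card_piFinset]
    simp only [card_range]
    refine (Finset.prod_le_pow_card _ _ _ fun s _ => Inst.K_le s).trans ?_
    rw [card_univ, Fintype.card_fin, Inst.W, ← pow_mul, ← pow_mul, ← Inst.W]
    refine Nat.pow_le_pow_right (by norm_num) ?_
    have e1 := Nat.mul_le_mul (Inst.two_b_le h) (Inst.cells_le h)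
    have e2 : I.W * I.W ^ 2 = I.W ^ 3 := by ring
    have e3 : 2 * I.b * (4 * (I.m * I.n)) = 8 * (I.b * (I.m * I.n)) := by ring
    have e4 : I.b * (11 * (I.m * I.n)) = 11 * (I.b * (I.m * I.n)) := by ring
    omega
  exact h1.trans (by exact_mod_cast h2)

theorem Inst.chain_close {I : Inst} (h : I.OK) {t : ℕ} (ht : t ≤ I.T0) (g : I.St → ℝ)
    (hg : ∀ y, |g y| ≤ 1) :
    |(I.chainR t).E g - (∑ y ∈ box I.K, I.wc t y * g y) / I.Zc t| ≤ (1 / 2) ^ (I.W ^ 2) := by
  have hW := Inst.W_real h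
  have hW1 : (1 : ℝ) ≤ I.W := by linarith
  have hκ : 1 ≤ 4 * (I.W : ℝ) ^ 132 := by linarith [one_le_pow₀ (n := 132) hW1]
  have h1 := mix (box I.K) (I.wc t) (fun y _ => Inst.wc_pos h t y) (I.step0 t)
    (4 * (I.W : ℝ) ^ 132) hκ (Inst.step0_stat h ht) (fun F => by
      obtain ⟨c, hc⟩ := Inst.poincare_c h ht F
      refine ⟨c, hc.trans ((mul_le_mul_of_nonneg_left (Inst.step0_dir h ht F)
        (by positivity)).trans (le_of_eq ?_))⟩
      ring) g hg _ I.zero_mem (I.W ^ 148)
  have h2 : (1 - 1 / (4 * (4 * (I.W : ℝ) ^ 132))) ^ (I.W ^ 148) ≤ (1 / 2) ^ (I.W ^ 15) := by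
    have e0 : 0 ≤ 1 - 1 / (4 * (4 * (I.W : ℝ) ^ 132)) := by
      rw [sub_nonneg, div_le_one (by positivity)]
      linarith
    have e1 : 1 - 1 / (4 * (4 * (I.W : ℝ) ^ 132))
        ≤ Real.exp (-(1 / (4 * (4 * (I.W : ℝ) ^ 132)))) := by
      linarith [Real.add_one_le_exp (-(1 / (4 * (4 * (I.W : ℝ) ^ 132))))]
    have e2 : Real.exp (-1) ≤ 1 / 2 := by
      rw [Real.exp_neg, one_div]
      exact inv_anti₀ (by norm_num) (by linarith [Real.add_one_le_exp (1 : ℝ)])
    refine (pow_le_pow_left₀ e0 e1 _).trans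
      (le_trans ?_ (pow_le_pow_left₀ (Real.exp_pos _).le e2 _))
    rw [← Real.exp_nat_mul, ← Real.exp_nat_mul, Real.exp_le_exp]
    push_cast
    have e3 : (I.W : ℝ) ^ 148 * -(1 / (4 * (4 * (I.W : ℝ) ^ 132)))
        = -((I.W : ℝ) ^ 15 * (I.W / 16)) := by
      field_simp
      norm_num
    rw [e3]
    have e4 : (0 : ℝ) < (I.W : ℝ) ^ 15 := by positivity
    nlinarith
  have h3 : (1 / 2 : ℝ) ^ (4 * I.W ^ 10) ≤ I.wc t fun _ => 0 := by
    have e1 : I.phc t (fun _ => 0) ≤ I.W ^ 2 * (2 * I.W ^ 10) := by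
      calc _ ≤ I.W * t := Inst.phc_le h t I.zero_mem
        _ ≤ I.W * (2 * I.W ^ 11) := Nat.mul_le_mul_left _ (ht.trans (Inst.T0_le h))
        _ = _ := by ring
    refine le_trans ?_ (pow_le_pow_of_le_one (Inst.th_pos h).le (Inst.th_lt_one h).le e1)
    rw [pow_mul I.th]
    refine le_trans (le_of_eq ?_) (pow_le_pow_left₀ (by norm_num) (Inst.quarter_le_th_pow h) _)
    rw [show 4 * I.W ^ 10 = 2 * (2 * I.W ^ 10) by ring, pow_mul]
    norm_num
  have h4 : 4 * I.W ^ 10 + I.W ^ 2 * 2 + 2 * I.W ^ 3 ≤ I.W ^ 15 := by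
    have e0 := h.h32
    have e1 : I.W ^ 2 ≤ I.W ^ 10 := Nat.pow_le_pow_right (by omega) (by norm_num)
    have e2 : I.W ^ 3 ≤ I.W ^ 10 := Nat.pow_le_pow_right (by omega) (by norm_num)
    have e3 : I.W ^ 11 ≤ I.W ^ 15 := Nat.pow_le_pow_right (by omega) (by norm_num)
    have e4 : 32 * I.W ^ 10 ≤ I.W ^ 11 := by rw [pow_succ' I.W 10]; exact Nat.mul_le_mul_right _ e0
    omega
  have h5 := pow_le_pow_of_le_one (show (0 : ℝ) ≤ 1 / 2 by norm_num) (by norm_num) h4
  have h6 := mul_le_mul (h2.trans h5) (Inst.Zc_le h t) (Inst.Zc_pos h t).le (by positivity)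
  rw [pow_add, mul_assoc, ← mul_pow, pow_add, pow_mul (1 / 2 : ℝ) (I.W ^ 2)] at h6
  have h7 := (mul_le_mul_of_nonneg_right h3 (sq_nonneg _)).trans (h1.trans h6)
  norm_num only [one_pow, mul_one] at h7
  exact abs_le_of_sq_le_sq (le_of_mul_le_mul_left h7 (by positivity)) (by positivity)

end Vale.Agent.P328
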