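import Mathlib

/-!
Machine model for P328: a random-access machine with bounded loops and fair coins, under the
logarithmic cost criterion (every evaluated node is charged the bit length of its value plus one).
-/

namespace Vale.Agent.P328

/-- Finite trees of fair coin flips with outcomes at the leaves. -/
inductive Rand (α : Type) : Type
  | ret : α → Rand α
  | flip : Rand α → Rand α → Rand α

/-- Sequential composition: continue at every leaf. -/
def Rand.bind {α β : Type} : Rand α → (α → Rand β) → Rand β
  | .ret a, f => f a
  | .flip l r, f => .flip (l.bind f) (r.bind f)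

/-- Every possible outcome satisfies `p`. -/
def Rand.All {α : Type} (p : α → Prop) : Rand α → Prop
  | .ret a => p a
  | .flip l r => l.All p ∧ r.All p

open Classical in
/-- Probability that the outcome satisfies `p`. -/
noncomputable def Rand.prob {α : Type} (p : α → Prop) : Rand α → ℝ
  | .ret a => if p a then 1 else 0
  | .flip l r => (l.prob p + r.prob p) / 2

/-- Run `f` a given number of times in a row. -/
def iter {α : Type} (f : α → Rand α) : ℕ → α → Rand α
  | 0, a => .ret a
  | k + 1, a => (f a).bind (iter f k)

/-- Memory: arrays of natural numbers; `m a i` is cell `i` of array `a`. -/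
abbrev Mem : Type := ℕ → ℕ → ℕ

/-- Write `v` into cell `i` of array `a`. -/
def Mem.set (m : Mem) (a i v : ℕ) : Mem := Function.update m a (Function.update (m a) i v)

/-- Expressions: constants, memory reads, sum, truncated difference, quotient, remainder,
bit length. -/
inductive Expr : Type
  | const : ℕ → Expr
  | load : ℕ → Expr → Expr
  | add : Expr → Expr → Expr
  | sub : Expr → Expr → Expr
  | div : Expr → Expr → Expr
  | mod : Expr → Expr → Expr
  | len : Expr → Expr

def Expr.eval (m : Mem) : Expr → ℕ
  | .const c => c
  | .load a i => m a (i.eval m)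
  | .add e f => e.eval m + f.eval m
  | .sub e f => e.eval m - f.eval m
  | .div e f => e.eval m / f.eval m
  | .mod e f => e.eval m % f.eval m
  | .len e => Nat.size (e.eval m)

/-- Steps needed to evaluate an expression: every node costs one plus the bit length of its
value. -/
def Expr.cost (m : Mem) : Expr → ℕ
  | .const c => Nat.size c + 1
  | .load a i => i.cost m + Nat.size (m a (i.eval m)) + 1
  | .add e f => e.cost m + f.cost m + Nat.size (e.eval m + f.eval m) + 1
  | .sub e f => e.cost m + f.cost m + Nat.size (e.eval m - f.eval m) + 1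
  | .div e f => e.cost m + f.cost m + Nat.size (e.eval m / f.eval m) + 1
  | .mod e f => e.cost m + f.cost m + Nat.size (e.eval m % f.eval m) + 1
  | .len e => e.cost m + Nat.size (Nat.size (e.eval m)) + 1

/-- Programs. -/
inductive Cmd : Type
  | store : ℕ → Expr → Expr → Cmd
  | seq : Cmd → Cmd → Cmd
  | ifz : Expr → Cmd → Cmd → Cmd
  | loop : Expr → Cmd → Cmd
  | coin : ℕ → Cmd

/-- Execution on a pair (memory, steps used so far). -/
def exec : Cmd → Mem × ℕ → Rand (Mem × ℕ)
  | .store a i e, s =>
      .ret (s.1.set a (i.eval s.1) (e.eval s.1), s.2 + i.cost s.1 + e.cost s.1 + 1)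
  | .seq c d, s => (exec c s).bind (exec d)
  | .ifz e c d, s =>
      if e.eval s.1 = 0 then exec c (s.1, s.2 + e.cost s.1 + 1)
      else exec d (s.1, s.2 + e.cost s.1 + 1)
  | .loop e c, s =>
      iter (fun u => exec c (u.1, u.2 + 1)) (e.eval s.1) (s.1, s.2 + e.cost s.1 + 1)
  | .coin a, s => .flip (.ret (s.1.set a 0 0, s.2 + 1)) (.ret (s.1.set a 0 1, s.2 + 1))

/-- Initial memory: array 0 holds `m`, `n` and the accuracy parameters, array 1 the row sums,
array 2 the column sums; every other cell is 0. -/
def input {m n : ℕ} (r : Fin m → ℕ) (c : Fin n → ℕ) (ps : List ℕ) : Mem :=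
  fun a i =>
    if a = 0 then (m :: n :: ps).getD i 0
    else if a = 1 then (List.ofFn r).getD i 0
    else if a = 2 then (List.ofFn c).getD i 0
    else 0

/-- The contingency tables with row sums `r` and column sums `c`. -/
def tables {m n : ℕ} (r : Fin m → ℕ) (c : Fin n → ℕ) : Finset (Fin m → Fin n → ℕ) :=
  (Fintype.piFinset fun i => Fintype.piFinset fun _ => Finset.range (r i + 1)).filter
    fun X => (∀ i, ∑ j, X i j = r i) ∧ ∀ j, ∑ i, X i j = c j

/-- The table stored row by row in array 3. -/
def outTable (m n : ℕ) (M : Mem) : Fin m → Fin n → ℕ := fun i j => M 3 (i.val * n + j.val)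

/-- The input length of the margins written in binary. -/
noncomputable def inLen {m n : ℕ} (r : Fin m → ℕ) (c : Fin n → ℕ) : ℝ :=
  m + n + ∑ i, Real.logb 2 (r i + 2) + ∑ j, Real.logb 2 (c j + 2)

end Vale.Agent.P328
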