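import Vale.Agent.P328.Flow

/-! The Poincare inequality on the fine box for functions constant on blocks. -/

namespace Vale.Agent.P328

open Finset

theorem unimodal (p : ℕ → ℝ) (hp : ∀ a, 0 < p a) (hl : ∀ a, p a * p (a + 2) ≤ p (a + 1) ^ 2)
    (a : ℕ) : (∀ i, i ≤ a → p i ≤ p a) ∨ ∀ i, a ≤ i → p i ≤ p a := by
  have dec : ∀ i, p (i + 1) ≤ p i → ∀ k, i ≤ k → p (k + 1) ≤ p k := by
    intro i hi k hk
    induction k, hk using Nat.le_induction with
    | base => exact hi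
    | succ k _ ih =>
      have h1 := hl k
      have h2 := hp k
      have h3 := hp (k + 1)
      have : p k * p (k + 2) ≤ p k * p (k + 1) := by nlinarith
      exact le_of_mul_le_mul_left this h2
  by_cases h : p (a + 1) ≤ p a
  · refine Or.inr fun i hi => ?_
    induction i, hi using Nat.le_induction with
    | base => exact le_rfl
    | succ k hk ih => exact (dec a h k hk).trans ih
  · refine Or.inl fun i hi => ?_
    induction hi using Nat.decreasingInduction with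
    | self => exact le_rfl
    | of_succ k hk ih =>
      refine le_trans (le_of_not_ge fun h' => h (dec k h' a hk.le)) ih

theorem cs_weight (s : Finset ℕ) (h p : ℕ → ℝ) (hp : ∀ a, 0 < p a) :
    (∑ i ∈ s, h i * p i) ^ 2 ≤ (∑ i ∈ s, h i ^ 2 * p i) * ∑ i ∈ s, p i := by
  have := sum_mul_sq_le_sq_mul_sq s (fun i => h i * √(p i)) fun i => √(p i)
  simp only [mul_assoc, mul_pow, Real.mul_self_sqrt (hp _).le, Real.sq_sqrt (hp _).le] at this
  exact this

theorem psum_bound (M : ℕ) (h p : ℕ → ℝ) (hp : ∀ a, 0 < p a)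
    (hl : ∀ a, p a * p (a + 2) ≤ p (a + 1) ^ 2) (h0 : ∑ a ∈ range M, h a * p a = 0) (a : ℕ)
    (ha : a < M) :
    (∑ i ∈ range (a + 1), h i * p i) ^ 2 ≤ (∑ i ∈ range M, h i ^ 2 * p i) * (M * p a) := by
  have key : ∀ s : Finset ℕ, s ⊆ range M → (∀ i ∈ s, p i ≤ p a) →
      (∑ i ∈ s, h i * p i) ^ 2 ≤ (∑ i ∈ range M, h i ^ 2 * p i) * (M * p a) := by
    intro s hs hi
    refine (cs_weight s h p hp).trans (mul_le_mul ?_ ?_ (sum_nonneg fun i _ => (hp i).le)
      (sum_nonneg fun i _ => mul_nonneg (sq_nonneg _) (hp i).le))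
    · exact sum_le_sum_of_subset_of_nonneg hs fun i _ _ => mul_nonneg (sq_nonneg _) (hp i).le
    · refine (sum_le_card_nsmul _ _ _ hi).trans ?_
      rw [nsmul_eq_mul]
      have : (s.card : ℝ) ≤ M := by exact_mod_cast (card_le_card hs).trans (card_range M).le
      exact mul_le_mul_of_nonneg_right this (hp a).le
  rcases unimodal p hp hl a with h1 | h1
  · exact key _ (range_subset_range.2 ha) fun i hi => h1 i (Nat.lt_succ_iff.1 (mem_range.1 hi))
  · have e := sum_range_add_sum_Ico (fun i => h i * p i) (show a + 1 ≤ M from ha)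
    have e2 : ∑ i ∈ range (a + 1), h i * p i = -∑ i ∈ Ico (a + 1) M, h i * p i := by linarith
    rw [e2, neg_sq]
    exact key _ (fun i hi => mem_range.2 (mem_Ico.1 hi).2) fun i hi =>
      h1 i (by have := (mem_Ico.1 hi).1; omega)

theorem root_cross (M : ℕ) (hM : 0 < M) (h p z Y : ℕ → ℝ) (hp : ∀ a, 0 < p a)
    (hz : ∀ a, 0 < z a) (hl : ∀ a, p a * p (a + 2) ≤ p (a + 1) ^ 2)
    (h0 : ∑ a ∈ range M, h a * p a = 0) (c γ Λ : ℝ) (hγ : 1 ≤ γ) (hΛ : M * (γ ^ 2 - 1) ≤ Λ)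
    (hY0 : ∀ a, 0 ≤ Y a) (hY : ∀ a, Y a ≤ c * z a)
    (l1 : ∀ a, Y a ≤ γ * Y (a + 1)) (l2 : ∀ a, Y (a + 1) ≤ γ * Y a)
    (l3 : ∀ a, z a ≤ γ * z (a + 1)) (l4 : ∀ a, z (a + 1) ≤ γ * z a) :
    -∑ a ∈ range M, (2 * nuOf (fun i => h i * p i) z a * (h a * Y a)
        - 2 * nuOf (fun i => h i * p i) z (a + 1) * (h a * Y (a + 1)))
      ≤ c * (2 * Λ + 2) * ∑ a ∈ range M, h a ^ 2 * p a := by
  set H := ∑ a ∈ range M, h a ^ 2 * p a with hH
  have hM' : (0 : ℝ) < M := by exact_mod_cast hM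
  have hc : 0 ≤ c := by
    have := (hY0 0).trans (hY 0)
    exact nonneg_of_mul_nonneg_left this (hz 0)
  have hH0 : 0 ≤ H := sum_nonneg fun i _ => mul_nonneg (sq_nonneg _) (hp i).le
  have hg : 0 ≤ γ ^ 2 - 1 := by nlinarith
  have hy0 : ∀ a, 0 ≤ Y a / z a := fun a => div_nonneg (hY0 a) (hz a).le
  have hy1 : ∀ a, Y a / z a ≤ c := fun a => (div_le_iff₀ (hz a)).2 (hY a)
  have hy2 : ∀ a, Y a / z a ≤ γ ^ 2 * (Y (a + 1) / z (a + 1)) := fun a => by
    rw [← mul_div_assoc, div_le_div_iff₀ (hz a) (hz _)]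
    calc Y a * z (a + 1) ≤ (γ * Y (a + 1)) * (γ * z a) :=
          mul_le_mul (l1 a) (l4 a) (hz _).le (mul_nonneg (by linarith) (hY0 _))
      _ = _ := by ring
  have hy3 : ∀ a, Y (a + 1) / z (a + 1) ≤ γ ^ 2 * (Y a / z a) := fun a => by
    rw [← mul_div_assoc, div_le_div_iff₀ (hz _) (hz a)]
    calc Y (a + 1) * z a ≤ (γ * Y a) * (γ * z (a + 1)) :=
          mul_le_mul (l2 a) (l3 a) (hz _).le (mul_nonneg (by linarith) (hY0 _))
      _ = _ := by ring
  have term : ∀ a ∈ range M, -(2 * nuOf (fun i => h i * p i) z a * (h a * Y a)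
      - 2 * nuOf (fun i => h i * p i) z (a + 1) * (h a * Y (a + 1)))
      ≤ (γ ^ 2 - 1) * c * (M * (h a ^ 2 * p a) + H) + 2 * c * (h a ^ 2 * p a) := by
    intro a ha
    have hB := psum_bound M h p hp hl h0 a (mem_range.1 ha)
    rw [← hH] at hB
    have e : -(2 * nuOf (fun i => h i * p i) z a * (h a * Y a)
        - 2 * nuOf (fun i => h i * p i) z (a + 1) * (h a * Y (a + 1)))
        = 2 * h a * (∑ i ∈ range (a + 1), h i * p i) * (Y (a + 1) / z (a + 1) - Y a / z a)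
          + 2 * (Y a / z a) * (h a ^ 2 * p a) := by
      simp only [nuOf]
      rw [sum_range_succ]
      ring
    rw [e]
    generalize ∑ i ∈ range (a + 1), h i * p i = B at hB
    have d1 : |Y (a + 1) / z (a + 1) - Y a / z a| ≤ (γ ^ 2 - 1) * c := by
      have a1 := mul_le_mul_of_nonneg_left (hy1 a) hg
      have a2 := mul_le_mul_of_nonneg_left (hy1 (a + 1)) hg
      rw [abs_le]
      constructor <;> linarith [hy2 a, hy3 a]
    have d2 : |2 * h a * B| ≤ M * (h a ^ 2 * p a) + H := by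
      have hMp : 0 < M * p a := mul_pos hM' (hp a)
      rw [abs_le]
      constructor
      · refine le_of_mul_le_mul_left ?_ hMp
        nlinarith [sq_nonneg (M * p a * h a + B)]
      · refine le_of_mul_le_mul_left ?_ hMp
        nlinarith [sq_nonneg (M * p a * h a - B)]
    have d3 : 2 * h a * B * (Y (a + 1) / z (a + 1) - Y a / z a)
        ≤ (M * (h a ^ 2 * p a) + H) * ((γ ^ 2 - 1) * c) := by
      refine (le_abs_self _).trans ?_
      rw [abs_mul]
      exact mul_le_mul d2 d1 (abs_nonneg _) ((abs_nonneg _).trans d2)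
    have d4 := mul_le_mul_of_nonneg_right (hy1 a) (mul_nonneg (sq_nonneg (h a)) (hp a).le)
    linarith
  rw [← sum_neg_distrib]
  refine (sum_le_sum term).trans ?_
  simp only [sum_add_distrib, ← mul_sum, sum_const, card_range, nsmul_eq_mul, ← hH]
  have := mul_le_mul_of_nonneg_right hΛ (mul_nonneg hc hH0)
  linarith

variable {V : Type} [Fintype V] [DecidableEq V]

structure EdgeOK (Φ : (V → ℤ) → ℝ) (Λ q : ℝ) (e : Edge V) : Prop where
  hM : 0 < e.M
  hq : (e.Bd.card : ℝ) ≤ q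
  lip : ∃ γ : ℝ, 1 ≤ γ ∧ (∀ β, Φ (β + ev e.u) ≤ γ * Φ (β + ev e.v)) ∧
    (∀ β, Φ (β + ev e.v) ≤ γ * Φ (β + ev e.u)) ∧ e.M * (γ ^ 2 - 1) ≤ Λ

omit [Fintype V] in
theorem Psi_lip {p : ℕ} {Φ : (V → ℤ) → ℝ} (es : Fin p → Edge V) {u v : V} {γ : ℝ}
    (h : ∀ β, Φ (β + ev u) ≤ γ * Φ (β + ev v)) (β : V → ℤ) :
    Psi Φ es (β + ev u) ≤ γ * Psi Φ es (β + ev v) := by
  simp only [Psi, mul_sum, add_sub_right_comm]
  exact sum_le_sum fun k _ => tot_lip es (fun _ => (es k).gk_nonneg _) h _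

omit [Fintype V] in
theorem Psi_le {p : ℕ} {Φ : (V → ℤ) → ℝ} (hΦ : ∀ β, 0 < Φ β) (es : Fin p → Edge V) {Λ q Γ : ℝ}
    (hes : ∀ k, EdgeOK Φ Λ q (es k)) (hΓ : ∀ β u v, Φ (β + ev u) ≤ Γ * Φ (β + ev v)) (hq : 0 ≤ q)
    (o : V) (β : V → ℤ) : Psi Φ es (β + ev o) ≤ p * (q / 2 * Γ) * Zt Φ es β := by
  refine (sum_le_card_nsmul _ _ (q / 2 * Γ * Zt Φ es β) fun k _ => ?_).trans (le_of_eq ?_)
  · refine (tot_mono hΦ es (g := fun _ => q / 2) (fun x => ?_) _).trans ?_
    · exact ((es k).gk_le (hes k).hM _).trans (by linarith [(hes k).hq])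
    · rw [tot_const, mul_assoc, add_sub_right_comm]
      refine mul_le_mul_of_nonneg_left ?_ (by linarith)
      have := tot_lip es (f := fun _ => 1) (fun _ => zero_le_one) (fun β => hΓ β o (es k).u)
        (β - ev (es k).u)
      rwa [sub_add_cancel] at this
  · rw [card_univ, Fintype.card_fin, nsmul_eq_mul]; ring

theorem lin_single (Y : (V → ℤ) → ℝ) (β : V → ℤ) (o : V) (c : ℝ) :
    lin Y β (fun w => if w = o then c else 0) = c * Y (β + ev o) := by
  simp [lin]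

theorem root {p : ℕ} {Φ : (V → ℤ) → ℝ} (hΦ : ∀ β, 0 < Φ β) (hH : Hyp Φ) {Λ q Γ : ℝ}
    (hΓ : ∀ β u v, Φ (β + ev u) ≤ Γ * Φ (β + ev v)) (hq : 0 ≤ q) (es : Fin (p + 1) → Edge V)
    (hes : ∀ k, EdgeOK Φ Λ q (es k)) (o : V) (β : V → ℤ) (f : (Fin (p + 1) → ℕ) → ℝ)
    (hf : Blk es f) (h : ℕ → ℝ)
    (h0 : ∑ a ∈ range (es 0).M, h a * Zt Φ (Fin.tail es) (bs (es 0).u (es 0).v β a + ev o) = 0) :
    2 * ∑ a ∈ range (es 0).M,
        h a * tot Φ (Fin.tail es) (fun x => f (Fin.cons a x)) (bs (es 0).u (es 0).v β a + ev o)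
      ≤ (p * (q / 2 * Γ) * (2 * Λ + 2) + q * Γ) * ∑ a ∈ range (es 0).M,
          h a ^ 2 * Zt Φ (Fin.tail es) (bs (es 0).u (es 0).v β a + ev o) + Dir Φ es f β := by
  have hM : ∀ k, 0 < (es k).M := fun k => (hes k).hM
  have hM' : ∀ k, 0 < (Fin.tail es k).M := fun k => hM k.succ
  have hM0 : (0 : ℝ) < (es 0).M := by exact_mod_cast hM 0
  obtain ⟨γ, g1, g2, g3, g4⟩ := (hes 0).lip
  set pa : ℕ → ℝ := fun a => Zt Φ (Fin.tail es) (bs (es 0).u (es 0).v β a + ev o) with hpa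
  set z : ℕ → ℝ := fun a => Zt Φ (Fin.tail es) (bs (es 0).u (es 0).v β a + ev (es 0).u) with hz
  set Y : ℕ → ℝ := fun a => Psi Φ (Fin.tail es) (bs (es 0).u (es 0).v β a + ev (es 0).u + ev o)
    with hY
  have hp0 : ∀ a, 0 < pa a := fun a => Zt_pos hΦ _ hM' _
  have hz0 : ∀ a, 0 < z a := fun a => Zt_pos hΦ _ hM' _
  have hl : ∀ a, pa a * pa (a + 2) ≤ pa (a + 1) ^ 2 := by
    intro a
    have := (Zt_hyp hΦ hH (Fin.tail es) hM').logconc (Zt_pos hΦ _ hM')
      (bs (es 0).u (es 0).v β (a + 1) + ev o - ev (es 0).u - ev (es 0).v) (es 0).u (es 0).v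
    have e1 : bs (es 0).u (es 0).v β (a + 1) + ev o - ev (es 0).u - ev (es 0).v + ev (es 0).u
        + ev (es 0).u = bs (es 0).u (es 0).v β a + ev o := by unfold bs; push_cast; module
    have e2 : bs (es 0).u (es 0).v β (a + 1) + ev o - ev (es 0).u - ev (es 0).v + ev (es 0).v
        + ev (es 0).v = bs (es 0).u (es 0).v β (a + 2) + ev o := by unfold bs; push_cast; module
    have e3 : bs (es 0).u (es 0).v β (a + 1) + ev o - ev (es 0).u - ev (es 0).v + ev (es 0).u
        + ev (es 0).v = bs (es 0).u (es 0).v β (a + 1) + ev o := by abel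
    rw [e1, e2, e3] at this
    exact this
  have h1 := flow_step hΦ es hM (flow hΦ hH _ hM') β (fun a w => if w = o then h a else 0) f hf
    (fun a => h a * pa a) z (fun a => by rw [lin_single]) (fun _ => rfl) h0
  have hnM : nuOf (fun a => h a * pa a) z (es 0).M = 0 := by
    simp only [nuOf]; rw [show ∑ i ∈ range (es 0).M, h i * pa i = 0 from h0, zero_div]
  have h2 := sum_quad_ext (Psi Φ (Fin.tail es)) (Psi_nonneg hΦ _) (es 0).u (es 0).v β
    (nuOf (fun a => h a * pa a) z) (es 0).M (nuOf_zero _ z) hnM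
    fun a w => if w = o then h a else 0
  have h3 := root_cross (es 0).M (hM 0) h pa z Y hp0 hz0 hl h0 (p * (q / 2 * Γ)) γ Λ g1 g4
    (fun a => Psi_nonneg hΦ _ _)
    (fun a => Psi_le hΦ (Fin.tail es) (fun k => hes k.succ) hΓ hq o _)
    (fun a => by
      simp only [hY]
      rw [bs_succ, add_right_comm, add_right_comm _ (ev (es 0).v)]
      exact Psi_lip _ g2 _)
    (fun a => by
      simp only [hY]
      rw [bs_succ, add_right_comm, add_right_comm _ (ev (es 0).u)]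
      exact Psi_lip _ g3 _)
    (fun a => by
      simp only [hz]
      rw [bs_succ]
      exact tot_lip _ (fun _ => zero_le_one) g2 _)
    (fun a => by
      simp only [hz]
      rw [bs_succ]
      exact tot_lip _ (fun _ => zero_le_one) g3 _)
  have h4 : ∑ a ∈ range (es 0).M, (2 * nuOf (fun i => h i * pa i) z a * (h a * Y a)
        - 2 * nuOf (fun i => h i * pa i) z (a + 1) * (h a * Y (a + 1)))
      ≤ ∑ a ∈ range (es 0).M, quad (Psi Φ (Fin.tail es)) (bs (es 0).u (es 0).v β a)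
        (ext (fun w => if w = o then h a else 0) (es 0).u (es 0).v
          (nuOf (fun a => h a * pa a) z a) (nuOf (fun a => h a * pa a) z (a + 1))) := by
    refine le_trans (sum_le_sum fun a _ => ?_) h2
    have t : 0 ≤ quad (Psi Φ (Fin.tail es)) (bs (es 0).u (es 0).v β a)
        fun w => if w = o then h a else 0 := by
      refine sum_nonneg fun w _ => ?_
      rw [lin_single]
      beta_reduce
      split_ifs
      · rw [← mul_assoc]; exact mul_nonneg (mul_self_nonneg _) (Psi_nonneg hΦ _ _)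
      · rw [zero_mul]
    rw [lin_single, lin_single, ← bs_succ]
    simp only [hY]
    linarith
  have hH0 : 0 ≤ ∑ a ∈ range (es 0).M, h a ^ 2 * pa a :=
    sum_nonneg fun i _ => mul_nonneg (sq_nonneg _) (hp0 i).le
  have hΓ0 : 0 ≤ Γ := by
    have := (hΦ (β + ev o)).le.trans (hΓ β o o)
    exact nonneg_of_mul_nonneg_left this (hΦ _)
  have h5 : ∑ a ∈ (es 0).Bd, nuOf (fun a => h a * pa a) z (a + 1) ^ 2 * z (a + 1) / (es 0).M
      ≤ q * Γ * ∑ a ∈ range (es 0).M, h a ^ 2 * pa a := by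
    refine (sum_le_card_nsmul _ _ (Γ * ∑ a ∈ range (es 0).M, h a ^ 2 * pa a)
      fun a ha => ?_).trans ?_
    · have hB := psum_bound (es 0).M h pa hp0 hl h0 a (mem_range.1 (mem_filter.1 ha).1)
      have hpz : pa a ≤ Γ * z (a + 1) := by
        simp only [hz, hpa]
        rw [bs_succ]
        exact tot_lip _ (fun _ => zero_le_one) (fun β => hΓ β _ _) _
      have e : nuOf (fun a => h a * pa a) z (a + 1) ^ 2 * z (a + 1) / (es 0).M
          = (∑ i ∈ range (a + 1), h i * pa i) ^ 2 / (z (a + 1) * (es 0).M) := by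
        have := (hz0 (a + 1)).ne'
        simp only [nuOf]
        field_simp
      rw [e, div_le_iff₀ (mul_pos (hz0 _) hM0)]
      refine hB.trans ?_
      calc (∑ i ∈ range (es 0).M, h i ^ 2 * pa i) * ((es 0).M * pa a)
          ≤ (∑ i ∈ range (es 0).M, h i ^ 2 * pa i) * ((es 0).M * (Γ * z (a + 1))) :=
            mul_le_mul_of_nonneg_left (mul_le_mul_of_nonneg_left hpz hM0.le) hH0
        _ = _ := by ring
    · rw [nsmul_eq_mul, mul_assoc]
      exact mul_le_mul_of_nonneg_right (hes 0).hq (mul_nonneg hΓ0 hH0)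
  simp only [lin_single] at h1
  change 2 * ∑ a ∈ range (es 0).M, _ ≤ _ * ∑ a ∈ range (es 0).M, h a ^ 2 * pa a + _
  linarith

omit [Fintype V] in
theorem Dir_nonneg {p : ℕ} {Φ : (V → ℤ) → ℝ} (hΦ : ∀ β, 0 < Φ β) (es : Fin p → Edge V)
    (f : (Fin p → ℕ) → ℝ) (β : V → ℤ) : 0 ≤ Dir Φ es f β :=
  sum_nonneg fun k _ => mul_nonneg (Nat.cast_nonneg _)
    (tot_nonneg hΦ es (fun x => by split_ifs <;> positivity) _)

theorem poincare {Φ : (V → ℤ) → ℝ} (hΦ : ∀ β, 0 < Φ β) (hH : Hyp Φ) {Λ q Γ C : ℝ}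
    (hΓ : ∀ β u v, Φ (β + ev u) ≤ Γ * Φ (β + ev v)) (hq : 0 ≤ q) (hΛ : 0 ≤ Λ) (hΓ0 : 0 ≤ Γ)
    (hC0 : 0 < C) (o : V) {p : ℕ} (hC : p * (q / 2 * Γ) * (2 * Λ + 2) + q * Γ ≤ C)
    (es : Fin p → Edge V) (hes : ∀ k, EdgeOK Φ Λ q (es k)) (β : V → ℤ) (f : (Fin p → ℕ) → ℝ)
    (hf : Blk es f) :
    tot Φ es (fun x => f x ^ 2) (β + ev o) - tot Φ es f (β + ev o) ^ 2 / Zt Φ es (β + ev o)
      ≤ p * C * Dir Φ es f β := by
  induction p generalizing β with
  | zero =>
    have := (hΦ (β + ev o)).ne'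
    simp only [Zt, tot_zero, Nat.cast_zero, zero_mul]
    field_simp
    simp
  | succ p ih =>
    have hM' : ∀ k, 0 < (Fin.tail es k).M := fun k => (hes k.succ).hM
    have hC' : p * (q / 2 * Γ) * (2 * Λ + 2) + q * Γ ≤ C := by
      refine le_trans ?_ hC
      have : 0 ≤ q / 2 * Γ * (2 * Λ + 2) := by positivity
      push_cast
      linarith
    set pa : ℕ → ℝ := fun a => Zt Φ (Fin.tail es) (bs (es 0).u (es 0).v β a + ev o) with hpa
    set T : ℕ → ℝ := fun a =>
      tot Φ (Fin.tail es) (fun x => f (Fin.cons a x)) (bs (es 0).u (es 0).v β a + ev o) with hT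
    have hp0 : ∀ a, 0 < pa a := fun a => Zt_pos hΦ _ hM' _
    have eZ : Zt Φ es (β + ev o) = ∑ a ∈ range (es 0).M, pa a := by
      rw [Zt_succ]; simp only [bs_add, hpa]
    have eT : tot Φ es f (β + ev o) = ∑ a ∈ range (es 0).M, T a := by
      rw [tot_succ]; simp only [bs_add, hT]
    have hZ := Zt_pos hΦ es (fun k => (hes k).hM) (β + ev o)
    set c := tot Φ es f (β + ev o) / Zt Φ es (β + ev o) with hc
    have hcZ : c * Zt Φ es (β + ev o) = tot Φ es f (β + ev o) := div_mul_cancel₀ _ hZ.ne'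
    have s0 : ∑ a ∈ range (es 0).M, (T a / pa a - c) / C * pa a = 0 := by
      have : ∀ a, (T a / pa a - c) / C * pa a = (T a - c * pa a) / C := fun a => by
        have := (hp0 a).ne'
        field_simp
      simp only [this, ← sum_div, sum_sub_distrib, ← mul_sum, ← eZ, ← eT, hcZ, sub_self, zero_div]
    have r := root hΦ hH hΓ hq es hes o β f hf (fun a => (T a / pa a - c) / C) s0
    set H := ∑ a ∈ range (es 0).M, T a ^ 2 / pa a - c * tot Φ es f (β + ev o) with hHdef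
    have s1 : ∑ a ∈ range (es 0).M, (T a / pa a - c) / C * T a = H / C := by
      have : ∀ a, (T a / pa a - c) / C * T a = (T a ^ 2 / pa a - c * T a) / C := fun a => by ring
      simp only [this, ← sum_div, sum_sub_distrib, ← mul_sum, ← eT, hHdef]
    have s2 : ∑ a ∈ range (es 0).M, ((T a / pa a - c) / C) ^ 2 * pa a = H / C ^ 2 := by
      have : ∀ a, ((T a / pa a - c) / C) ^ 2 * pa a
          = (T a ^ 2 / pa a - 2 * c * T a + c ^ 2 * pa a) / C ^ 2 := fun a => by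
        have := (hp0 a).ne'
        field_simp; ring
      simp only [this, ← sum_div, sum_sub_distrib, sum_add_distrib, ← mul_sum, ← eT, ← eZ, hHdef]
      rw [← hcZ]; ring
    have s3 : 0 ≤ H / C ^ 2 := by
      rw [← s2]; exact sum_nonneg fun a _ => mul_nonneg (sq_nonneg _) (hp0 a).le
    change 2 * ∑ a ∈ range (es 0).M, (T a / pa a - c) / C * T a
      ≤ _ * ∑ a ∈ range (es 0).M, ((T a / pa a - c) / C) ^ 2 * pa a + _ at r
    rw [s1, s2] at r
    have s4 := mul_le_mul_of_nonneg_right hC' s3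
    have s5 : C * (H / C ^ 2) = H / C := by field_simp
    have s6 : H / C ≤ Dir Φ es f β := by linarith
    rw [div_le_iff₀ hC0] at s6
    have i1 := sum_le_sum fun a (_ : a ∈ range (es 0).M) => ih hC' (Fin.tail es)
      (fun k => hes k.succ) (bs (es 0).u (es 0).v β a) _ (hf.tail a)
    have i2 : ∑ a ∈ range (es 0).M,
        Dir Φ (Fin.tail es) (fun x => f (Fin.cons a x)) (bs (es 0).u (es 0).v β a)
        ≤ Dir Φ es f β := by
      rw [Dir_succ]
      refine sum_le_sum fun a _ => le_add_of_nonneg_left (mul_nonneg (Nat.cast_nonneg _) ?_)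
      exact tot_nonneg hΦ _ (fun x => by split_ifs <;> positivity) _
    rw [sum_sub_distrib, ← mul_sum] at i1
    have i3 := mul_le_mul_of_nonneg_left i2 (mul_nonneg (Nat.cast_nonneg p) hC0.le)
    have e1 : tot Φ es (fun x => f x ^ 2) (β + ev o) = ∑ a ∈ range (es 0).M,
        tot Φ (Fin.tail es) (fun x => f (Fin.cons a x) ^ 2) (bs (es 0).u (es 0).v β a + ev o) := by
      rw [tot_succ]; simp only [bs_add]
    have e2 : tot Φ es f (β + ev o) ^ 2 / Zt Φ es (β + ev o) = c * tot Φ es f (β + ev o) := by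
      rw [hc]; ring
    change _ - ∑ a ∈ range (es 0).M, T a ^ 2 / pa a ≤ _ at i1
    rw [e1, e2]
    push_cast
    linarith

end Vale.Agent.P328
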