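import Vale.Agent.P328.Lang
import Vale.Agent.P328.Spec

/-! The program text and the representation relations. -/

namespace Vale.Agent.P328

abbrev aOUT : ℕ := 3
abbrev aM : ℕ := 4
abbrev aN : ℕ := 5
abbrev aPP : ℕ := 6
abbrev aB : ℕ := 7
abbrev aW : ℕ := 8
abbrev aB2 : ℕ := 9
abbrev aCAP : ℕ := 10
abbrev aT0 : ℕ := 11
abbrev aTT : ℕ := 12
abbrev aREP : ℕ := 13
abbrev aQ : ℕ := 14
abbrev aQ0 : ℕ := 15
abbrev aS : ℕ := 16
abbrev aK1 : ℕ := 17
abbrev aI0 : ℕ := 18
abbrev aJ0 : ℕ := 19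
abbrev aNN : ℕ := 20
abbrev aG : ℕ := 21
abbrev aDL : ℕ := 22
abbrev aDD : ℕ := 23
abbrev aMM : ℕ := 24
abbrev aLG : ℕ := 25
abbrev aX : ℕ := 26
abbrev aT : ℕ := 27
abbrev aGV : ℕ := 28
abbrev aPH : ℕ := 29
abbrev aNG : ℕ := 30
abbrev aI : ℕ := 31
abbrev aJ : ℕ := 32
abbrev aSUM : ℕ := 33
abbrev aNEG : ℕ := 34
abbrev aELL : ℕ := 35
abbrev aACC : ℕ := 36
abbrev aR : ℕ := 37
abbrev aC : ℕ := 38
abbrev aA : ℕ := 39
abbrev aD : ℕ := 40
abbrev aOLD : ℕ := 41
abbrev aS0 : ℕ := 42
abbrev aDIR : ℕ := 43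
abbrev aPH0 : ℕ := 44
abbrev aNEW : ℕ := 45
abbrev aNUM : ℕ := 46
abbrev aDEN : ℕ := 47
abbrev aNA : ℕ := 48
abbrev aDA : ℕ := 49
abbrev aTMP : ℕ := 51
abbrev aTMP2 : ℕ := 52
abbrev aRS : ℕ := 53
abbrev aCS : ℕ := 54
abbrev aSIG : ℕ := 55
abbrev aP : ℕ := 56

/-- `for v in 0 .. bound-1 do body`. -/
def forV (v : ℕ) (bound : Expr) (body : Cmd) : Cmd :=
  .seq (asg v (.const 0)) (.loop bound (.seq body (asg v (.add (var v) (.const 1)))))

/-- `dst := ` sum of `e` over `J < bound`. -/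
def sumC (dst : ℕ) (bound e : Expr) : Cmd :=
  .seq (asg dst (.const 0)) (forV aJ bound (asg dst (.add (var dst) e)))

/-- 1 if the values are equal, else 0. -/
def eqInd (a b : Expr) : Expr := .sub (.const 1) (.add (.sub a b) (.sub b a))

/-- 1 if `a < b`, else 0. -/
def ltInd (a b : Expr) : Expr := .sub (.const 1) (.sub (.add a (.const 1)) b)

def minX (a b : Expr) : Expr := .sub a (.sub a b)

def maxX (a b : Expr) : Expr := .add a (.sub b a)

/-- Row and column of the cell stored in `v`. -/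
def rowE (v : ℕ) : Expr := .div (var v) (var aN)

def colE (v : ℕ) : Expr := .mod (var v) (var aN)

/-- `dst := 2 ^ e`. -/
def pow2C (dst : ℕ) (e : Expr) : Cmd :=
  .seq (asg dst (.const 1)) (.loop e (asg dst (.add (var dst) (var dst))))

/-- `dst := W ^ k`. -/
def powW (dst k : ℕ) : Cmd :=
  .seq (asg dst (.const 1))
    (.loop (.const k) (.loop (var aB) (asg dst (.add (var dst) (var dst)))))

/-- `R :=` uniform number with `e` bits. -/
def bitsC (e : Expr) : Cmd :=
  .seq (asg aR (.const 0))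
    (.loop e (.seq (.coin aC) (asg aR (.add (.add (var aR) (var aR)) (var aC)))))

def rowSumC (e : Expr) : Cmd :=
  sumC aSUM (var aPP) (.div (.load aX (var aJ)) (eqInd (rowE aJ) e))

def colSumC (e : Expr) : Cmd :=
  sumC aSUM (var aPP) (.div (.load aX (var aJ)) (eqInd (colE aJ) e))

def totC : Cmd := sumC aSUM (var aPP) (.load aX (var aJ))

/-- `NG += NEG; PH += T * NEG / ELL / S`. -/
def penC : Cmd :=
  .seq (asg aNG (.add (var aNG) (var aNEG)))
  (.seq (asg aACC (.const 0))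
  (.seq (.loop (minE aCAP (var aT)) (asg aACC (.add (var aACC) (var aNEG))))
    (asg aPH (.add (var aPH) (.div (.div (var aACC) (var aELL)) (var aS))))))

def ellE (a b : Expr) : Expr := .add (.div (minX a b) (var aQ0)) (.const 1)

/-- `PH := phi GV T X` and `NG := ng GV X`. -/
def phiC : Cmd :=
  .seq (asg aPH (.const 0))
  (.seq (asg aNG (.const 0))
  (.seq (forV aI (var aM)
      (.seq (rowSumC (var aI))
      (.seq (asg aNEG (.sub (var aSUM) (.load 1 (var aI))))
      (.seq (asg aELL (ellE (.load 1 (var aI)) (var aCS))) penC))))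
  (.seq (forV aI (var aN)
      (.seq (colSumC (var aI))
      (.seq (asg aNEG (.sub (var aSUM) (.load 2 (var aI))))
      (.seq (asg aELL (ellE (var aRS) (.load 2 (var aI)))) penC))))
  (.seq totC
  (.seq (asg aNEG (.sub (var aNN) (.add (.add (.add (var aRS) (var aCS)) (var aGV)) (var aSUM))))
  (.seq (asg aELL (ellE (var aRS) (var aCS))) penC))))))

/-- `A :=` 1 iff `min CAP D` trials all succeed. -/
def accC : Cmd :=
  .seq (asg aA (.const 1))
    (.loop (minE aCAP (var aD))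
      (.seq (bitsC (var aB2)) (.ifz (var aR) (asg aA (.const 0)) skip)))

def tryC : Cmd :=
  .seq phiC
  (.seq (asg aPH0 (var aPH))
  (.seq (asg aOLD (.load aX (var aS0)))
  (.seq (.store aX (var aS0) (var aNEW))
  (.seq phiC
  (.seq (asg aD (.sub (var aPH) (var aPH0)))
  (.seq accC
    (.ifz (var aA) (.store aX (var aS0) (var aOLD)) skip)))))))

def moveC : Cmd :=
  .ifz (var aDIR)
    (.seq (asg aNEW (.add (.load aX (var aS0)) (.load aDD (var aS0))))
      (.ifz (ltInd (var aNEW) (.load aMM (var aS0))) skip tryC))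
    (.ifz (.load aX (var aS0)) skip
      (.seq (asg aNEW (.sub (.load aX (var aS0)) (.load aDD (var aS0)))) tryC))

def stepC : Cmd :=
  .seq (.coin aC)
    (.ifz (var aC) skip
      (.seq (bitsC (var aB2))
      (.seq (asg aS0 (var aR))
      (.seq (.coin aDIR)
        (.ifz (ltInd (var aS0) (var aPP)) skip moveC)))))

def chainC : Cmd :=
  .seq (forV aI (var aPP) (.store aX (var aI) (.const 0)))
  (.seq (asg aGV (var aG))
    (.loop (var aTT) stepC))

def offsC : Cmd :=
  forV aI (var aPP)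
    (.seq (bitsC (minE aW (.load aDL (var aI))))
      (.store aX (var aI) (.add (.load aX (var aI)) (var aR))))

def trialC : Cmd :=
  .seq (asg aT (var aT0)) (.seq chainC (.seq offsC (.seq (asg aGV (.const 0)) phiC)))

def tabC : Cmd :=
  forV aI (var aPP)
    (.seq (rowSumC (rowE aI))
    (.seq (asg aTMP (var aSUM))
    (.seq (colSumC (colE aI))
    (.seq (asg aTMP2 (var aSUM))
    (.seq totC
      (.ifz (eqInd (rowE aI) (var aI0))
        (.ifz (eqInd (colE aI) (var aJ0))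
          (.store aOUT (var aI) (.load aX (var aI)))
          (.store aOUT (var aI) (.sub (.load 1 (rowE aI)) (var aTMP))))
        (.ifz (eqInd (colE aI) (var aJ0))
          (.store aOUT (var aI) (.sub (.load 2 (colE aI)) (var aTMP2)))
          (.store aOUT (var aI)
            (.sub (.add (.add (var aRS) (var aCS)) (var aSUM)) (var aNN))))))))))

def nwC : Cmd :=
  forV aI (var aPP)
    (.seq (sumC aTMP (var aM) (.div (.load 1 (var aJ)) (ltInd (var aJ) (rowE aI))))
    (.seq (sumC aTMP2 (var aN) (.div (.load 2 (var aJ)) (ltInd (var aJ) (colE aI))))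
      (.store aOUT (var aI)
        (.sub (minX (.add (var aTMP) (.load 1 (rowE aI))) (.add (var aTMP2) (.load 2 (colE aI))))
          (maxX (var aTMP) (var aTMP2))))))

def samplerMain : Cmd :=
  .seq nwC (.loop (var aREP) (.seq trialC (.ifz (var aNG) tabC skip)))

def bern0C : Cmd :=
  .seq chainC
  (.seq phiC
  (.seq (asg aPH0 (var aPH))
  (.seq (asg aT (.add (var aT) (.const 1)))
  (.seq phiC
  (.seq (asg aT (.sub (var aT) (.const 1)))
  (.seq (asg aD (.sub (var aPH) (var aPH0))) accC))))))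

def bern1C : Cmd := .seq trialC (asg aA (.sub (.const 1) (var aNG)))

def tallyC (body : Cmd) : Cmd :=
  .seq (asg aNA (.const 0))
  (.seq (asg aDA (.const 0))
  (.seq (.loop (var aQ)
      (.seq body
      (.seq (.ifz (var aA) skip (asg aNA (.add (var aNA) (var aNUM))))
        (asg aDA (.add (var aDA) (var aDEN))))))
  (.seq (asg aNUM (var aNA)) (asg aDEN (var aDA)))))

def counterMain : Cmd :=
  .seq (sumC aTMP (var aPP) (.load aLG (var aJ)))
  (.seq (pow2C aNUM (minE aTT (var aTMP)))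
  (.seq (asg aDEN (.const 1))
  (.seq (asg aT (.const 0))
  (.seq (.loop (var aT0) (.seq (tallyC bern0C) (asg aT (.add (var aT) (.const 1)))))
  (.seq (tallyC bern1C)
    (asg aOUT (.div (.add (.add (var aNUM) (var aNUM)) (var aDEN))
      (.add (var aDEN) (var aDEN)))))))))

/-- Read the dimensions. -/
def init0C : Cmd := .seq (asg aM (.load 0 (.const 0))) (asg aN (.load 0 (.const 1)))

/-- Number of cells, size parameter and its bit length; `x` is the accuracy contribution. -/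
def init1C (x : Expr) : Cmd :=
  .seq (sumC aPP (var aM) (var aN))
  (.seq (sumC aTMP (var aM) (.len (.load 1 (var aJ))))
  (.seq (sumC aTMP2 (var aN) (.len (.load 2 (var aJ))))
  (.seq (asg aP (.add (.add (.add (var aM) (var aN)) (.add (var aTMP) (var aTMP2)))
      (.add x (.const 32))))
    (asg aB (.len (var aP))))))

/-- Powers of `W`. -/
def init2C : Cmd :=
  .seq (powW aW 1)
  (.seq (powW aCAP 13)
  (.seq (powW aTT 148)
  (.seq (powW aQ 33)
  (.seq (powW aQ0 6)
  (.seq (powW aS 8)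
  (.seq (powW aTMP 10)
  (.seq (sumC aT0 (var aB) (.add (.add (var aTMP) (var aTMP)) (.add (var aTMP) (var aTMP))))
  (.seq (sumC aK1 (.const 11) (var aB))
  (.seq (asg aB2 (.add (var aB) (var aB)))
    (asg aREP (.add (.add (var aW) (var aW)) (.add (var aW) (var aW)))))))))))))

/-- Largest row and column, cell data. -/
def init3C : Cmd :=
  .seq (asg aI0 (.const 0))
  (.seq (forV aI (var aM)
      (.ifz (.sub (.load 1 (var aI)) (.load 1 (var aI0))) skip (asg aI0 (var aI))))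
  (.seq (asg aJ0 (.const 0))
  (.seq (forV aI (var aN)
      (.ifz (.sub (.load 2 (var aI)) (.load 2 (var aJ0))) skip (asg aJ0 (var aI))))
  (.seq (asg aRS (.load 1 (var aI0)))
  (.seq (asg aCS (.load 2 (var aJ0)))
  (.seq (sumC aNN (var aM) (.load 1 (var aJ)))
  (.seq (forV aI (var aPP)
      (.seq (.ifz (.add (eqInd (rowE aI) (var aI0)) (eqInd (colE aI) (var aJ0)))
          (asg aSIG (minX (.load 1 (rowE aI)) (.load 2 (colE aI))))
          (asg aSIG (.const 0)))
      (.seq (.store aLG (var aI) (.len (var aSIG)))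
      (.seq (.store aDL (var aI) (.sub (.len (var aSIG)) (var aK1)))
      (.seq (pow2C aTMP (minE aW (.load aDL (var aI))))
      (.seq (.store aDD (var aI) (var aTMP))
      (.seq (pow2C aTMP (minE aW (.load aLG (var aI))))
        (.store aMM (var aI) (var aTMP)))))))))
    (sumC aG (var aPP) (.sub (.load aDD (var aJ)) (.const 1))))))))))

def progC (x : Expr) (main : Cmd) : Cmd :=
  .seq init0C (.seq (init1C x) (.seq init2C (.seq init3C main)))

/-- Accuracy contributions: bit length of `k`; `k` plus the bit length of `l`. -/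
def xS : Expr := .len (.load 0 (.const 2))

def xC : Expr := .add (.load 0 (.const 2)) (.len (.load 0 (.const 3)))

def samplerC : Cmd := progC xS samplerMain

def counterC : Cmd := progC xC counterMain

/-- The size parameter. -/
def parP {m n : ℕ} (r : Fin m → ℕ) (c : Fin n → ℕ) (x : ℕ) : ℕ :=
  m + n + (∑ i, Nat.size (r i) + ∑ j, Nat.size (c j)) + (x + 32)

/-- The input arrays and the scalar parameters. -/
structure Par0 (I : Inst) (m : Mem) : Prop where
  r : ∀ i : Fin I.m, m 1 i = I.r i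
  c : ∀ j : Fin I.n, m 2 j = I.c j
  hM : m aM 0 = I.m
  hN : m aN 0 = I.n
  hPP : m aPP 0 = I.m * I.n
  hB : m aB 0 = I.b
  hW : m aW 0 = I.W
  hB2 : m aB2 0 = 2 * I.b
  hCAP : m aCAP 0 = I.W ^ 13
  hT0 : m aT0 0 = I.T0
  hTT : m aTT 0 = I.W ^ 148
  hREP : m aREP 0 = 4 * I.W
  hQ : m aQ 0 = I.W ^ 33
  hQ0 : m aQ0 0 = I.W ^ 6
  hS : m aS 0 = I.W ^ 8
  hK1 : m aK1 0 = 11 * I.b

/-- All parameter arrays hold the right values. -/
structure Par (I : Inst) (m : Mem) : Prop extends Par0 I m where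
  hI0 : m aI0 0 = I.i0
  hJ0 : m aJ0 0 = I.j0
  hRS : m aRS 0 = I.rs
  hCS : m aCS 0 = I.cs
  hNN : m aNN 0 = I.N
  hG : m aG 0 = I.G
  hLG : ∀ s : I.Cell, m aLG s = I.lg s
  hDL : ∀ s : I.Cell, m aDL s = I.dl s
  hDD : ∀ s : I.Cell, m aDD s = I.D s
  hMM : ∀ s : I.Cell, m aMM s = I.M s

/-- The arrays mentioned in `Par`. -/
def parArrs : List ℕ :=
  [1, 2, aM, aN, aPP, aB, aW, aB2, aCAP, aT0, aTT, aREP, aQ, aQ0, aS, aK1, aI0, aJ0, aRS, aCS,
    aNN, aG, aLG, aDL, aDD, aMM]

theorem Par.frame {I : Inst} {m m' : Mem} {W : List ℕ} (h : Par I m) (f : Fr W m m')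
    (hW : ∀ a ∈ parArrs, a ∉ W) : Par I m' := by
  have e : ∀ a ∈ parArrs, m' a = m a := fun a ha => f a (hW a ha)
  refine ⟨⟨?_, ?_, ?_, ?_, ?_, ?_, ?_, ?_, ?_, ?_, ?_, ?_, ?_, ?_, ?_, ?_⟩,
    ?_, ?_, ?_, ?_, ?_, ?_, ?_, ?_, ?_, ?_⟩ <;> rw [e _ (by decide)]
  exacts [h.r, h.c, h.hM, h.hN, h.hPP, h.hB, h.hW, h.hB2, h.hCAP, h.hT0, h.hTT, h.hREP, h.hQ,
    h.hQ0, h.hS, h.hK1, h.hI0, h.hJ0, h.hRS, h.hCS, h.hNN, h.hG, h.hLG, h.hDL, h.hDD, h.hMM]

def RepX (I : Inst) (m : Mem) (x : I.St) : Prop := ∀ s : I.Cell, m aX s = x s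

def RepOut (I : Inst) (m : Mem) (X : I.Tab) : Prop :=
  ∀ s : I.Cell, m aOUT s = X s.divNat s.modNat

/-- Arrays written by the routines. -/
def wPhi : List ℕ := [aPH, aNG, aI, aJ, aSUM, aNEG, aELL, aACC]
def wAcc : List ℕ := [aA, aR, aC, aJUNK]
def wChain : List ℕ := wPhi ++ wAcc ++ [aX, aPH0, aOLD, aD, aNEW, aS0, aDIR, aGV]
def wTrial : List ℕ := wChain ++ [aT]
def wTab : List ℕ := [aOUT, aI, aJ, aSUM, aTMP, aTMP2]

theorem phiC_writes : ∀ a ∈ phiC.writes, a ∈ wPhi := by decide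
theorem accC_writes : ∀ a ∈ accC.writes, a ∈ wAcc := by decide
set_option maxRecDepth 8000 in
theorem stepC_writes : ∀ a ∈ stepC.writes, a ∈ wChain := by decide
set_option maxRecDepth 8000 in
theorem chainC_writes : ∀ a ∈ chainC.writes, a ∈ wChain := by decide
set_option maxRecDepth 8000 in
theorem trialC_writes : ∀ a ∈ trialC.writes, a ∈ wTrial := by decide
set_option maxRecDepth 8000 in
theorem bern0C_writes : ∀ a ∈ bern0C.writes, a ∈ wTrial := by decide
theorem tabC_writes : ∀ a ∈ tabC.writes, a ∈ wTab := by decide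
theorem nwC_writes : ∀ a ∈ nwC.writes, a ∈ wTab := by decide

end Vale.Agent.P328
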