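import Vale.Agent.P328.Model

/-! Expectation calculus and structural simulation for coin trees. -/

namespace Vale.Agent.P328

open Finset

variable {α β γ : Type}

/-- Expectation of `f` over the outcomes. -/
noncomputable def Rand.E : Rand α → (α → ℝ) → ℝ
  | .ret a, f => f a
  | .flip l r, f => (l.E f + r.E f) / 2

@[simp] theorem Rand.E_ret (a : α) (f : α → ℝ) : (Rand.ret a).E f = f a := rfl

@[simp] theorem Rand.E_flip (l r : Rand α) (f : α → ℝ) :
    (Rand.flip l r).E f = (l.E f + r.E f) / 2 := rfl

@[simp] theorem Rand.ret_bind (a : α) (f : α → Rand β) : (Rand.ret a).bind f = f a := rfl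

@[simp] theorem Rand.flip_bind (l r : Rand α) (f : α → Rand β) :
    (Rand.flip l r).bind f = .flip (l.bind f) (r.bind f) := rfl

@[simp] theorem Rand.bind_ret (t : Rand α) : t.bind Rand.ret = t := by
  induction t with
  | ret a => rfl
  | flip l r ihl ihr => simp [ihl, ihr]

theorem Rand.bind_assoc (t : Rand α) (f : α → Rand β) (g : β → Rand γ) :
    (t.bind f).bind g = t.bind fun a => (f a).bind g := by
  induction t with
  | ret a => rfl
  | flip l r ihl ihr => simp [ihl, ihr]

theorem Rand.E_bind (t : Rand α) (g : α → Rand β) (f : β → ℝ) :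
    (t.bind g).E f = t.E fun a => (g a).E f := by
  induction t with
  | ret a => rfl
  | flip l r ihl ihr => simp [ihl, ihr]

theorem Rand.E_const (t : Rand α) (c : ℝ) : (t.E fun _ => c) = c := by
  induction t with
  | ret a => rfl
  | flip l r ihl ihr => simp [ihl, ihr]

theorem Rand.E_add (t : Rand α) (f g : α → ℝ) : (t.E fun a => f a + g a) = t.E f + t.E g := by
  induction t with
  | ret a => rfl
  | flip l r ihl ihr => simp only [Rand.E_flip, ihl, ihr]; ring

theorem Rand.E_sub (t : Rand α) (f g : α → ℝ) : (t.E fun a => f a - g a) = t.E f - t.E g := by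
  induction t with
  | ret a => rfl
  | flip l r ihl ihr => simp only [Rand.E_flip, ihl, ihr]; ring

theorem Rand.E_const_mul (t : Rand α) (c : ℝ) (f : α → ℝ) :
    (t.E fun a => c * f a) = c * t.E f := by
  induction t with
  | ret a => rfl
  | flip l r ihl ihr => simp only [Rand.E_flip, ihl, ihr]; ring

theorem Rand.E_sum {ι : Type} (t : Rand α) (s : Finset ι) (f : ι → α → ℝ) :
    (t.E fun a => ∑ i ∈ s, f i a) = ∑ i ∈ s, t.E (f i) := by
  induction t with
  | ret a => rfl
  | flip l r ihl ihr => simp only [Rand.E_flip, ihl, ihr, ← Finset.sum_add_distrib, Finset.sum_div]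

theorem Rand.All_mono {p q : α → Prop} (h : ∀ a, p a → q a) {t : Rand α} (ht : t.All p) :
    t.All q := by
  induction t with
  | ret a => exact h a ht
  | flip l r ihl ihr => exact ⟨ihl ht.1, ihr ht.2⟩

theorem Rand.All_of_forall {p : α → Prop} (h : ∀ a, p a) (t : Rand α) : t.All p := by
  induction t with
  | ret a => exact h a
  | flip l r ihl ihr => exact ⟨ihl, ihr⟩

theorem Rand.All_and {p q : α → Prop} {t : Rand α} (hp : t.All p) (hq : t.All q) :
    t.All fun a => p a ∧ q a := by
  induction t with
  | ret a => exact ⟨hp, hq⟩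
  | flip l r ihl ihr => exact ⟨ihl hp.1 hq.1, ihr hp.2 hq.2⟩

theorem Rand.All_bind {p : α → Prop} {q : β → Prop} {t : Rand α} {g : α → Rand β}
    (ht : t.All p) (hg : ∀ a, p a → (g a).All q) : (t.bind g).All q := by
  induction t with
  | ret a => exact hg a ht
  | flip l r ihl ihr => exact ⟨ihl ht.1, ihr ht.2⟩

theorem Rand.E_mono_All {p : α → Prop} {t : Rand α} (ht : t.All p) {f g : α → ℝ}
    (h : ∀ a, p a → f a ≤ g a) : t.E f ≤ t.E g := by
  induction t with
  | ret a => exact h a ht
  | flip l r ihl ihr =>
    have := ihl ht.1; have := ihr ht.2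
    simp only [Rand.E_flip]; linarith

theorem Rand.E_mono (t : Rand α) {f g : α → ℝ} (h : ∀ a, f a ≤ g a) : t.E f ≤ t.E g :=
  Rand.E_mono_All (Rand.All_of_forall (p := fun _ => True) (fun _ => trivial) t) fun a _ => h a

theorem Rand.E_nonneg (t : Rand α) {f : α → ℝ} (h : ∀ a, 0 ≤ f a) : 0 ≤ t.E f := by
  have := t.E_mono (f := fun _ => 0) (g := f) h
  rwa [Rand.E_const] at this

theorem Rand.E_le_const (t : Rand α) {f : α → ℝ} {c : ℝ} (h : ∀ a, f a ≤ c) : t.E f ≤ c := by
  have := t.E_mono (f := f) (g := fun _ => c) h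
  rwa [Rand.E_const] at this

open Classical in
theorem Rand.prob_eq_E (t : Rand α) (p : α → Prop) :
    t.prob p = t.E fun a => if p a then 1 else 0 := by
  induction t with
  | ret a => rfl
  | flip l r ihl ihr => simp only [Rand.prob, Rand.E_flip, ihl, ihr]

theorem iter_succ' (f : α → Rand α) (k : ℕ) (a : α) :
    iter f (k + 1) a = (iter f k a).bind f := by
  induction k generalizing a with
  | zero => simp [iter]
  | succ k ih =>
    rw [iter, iter, Rand.bind_assoc]
    congr 1
    funext b
    exact ih b

/-- Iteration with the round number passed to the body (rounds `0, …, k-1`). -/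
def iterIdx (g : ℕ → α → Rand α) : ℕ → α → Rand α
  | 0, a => .ret a
  | k + 1, a => (iterIdx g k a).bind (g k)

theorem iter_eq_iterIdx (f : α → Rand α) (k : ℕ) (a : α) :
    iter f k a = iterIdx (fun _ => f) k a := by
  induction k with
  | zero => rfl
  | succ k ih => rw [iter_succ', ih, iterIdx]

theorem All_iterIdx {p : ℕ → α → Prop} {g : ℕ → α → Rand α} (k : ℕ) {a : α} (h0 : p 0 a)
    (hg : ∀ i, i < k → ∀ b, p i b → (g i b).All (p (i + 1))) : (iterIdx g k a).All (p k) := by
  induction k with
  | zero => exact h0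
  | succ k ih =>
    exact Rand.All_bind (ih fun i hi => hg i (Nat.lt_succ_of_lt hi)) (hg k (Nat.lt_succ_self k))

theorem All_iter {p : α → Prop} {f : α → Rand α} (k : ℕ) {a : α} (h0 : p a)
    (hf : ∀ b, p b → (f b).All p) : (iter f k a).All p := by
  rw [iter_eq_iterIdx]
  exact All_iterIdx (p := fun _ => p) k h0 fun _ _ => hf

/-- Structural simulation: same tree shape, related leaves. -/
def Sim (R : α → β → Prop) : Rand α → Rand β → Prop
  | .ret a, .ret b => R a b
  | .flip l r, .flip l' r' => Sim R l l' ∧ Sim R r r'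
  | .ret _, .flip _ _ => False
  | .flip _ _, .ret _ => False

@[simp] theorem Sim_ret {R : α → β → Prop} {a : α} {b : β} :
    Sim R (.ret a) (.ret b) ↔ R a b := Iff.rfl

@[simp] theorem Sim_flip {R : α → β → Prop} {l r : Rand α} {l' r' : Rand β} :
    Sim R (.flip l r) (.flip l' r') ↔ Sim R l l' ∧ Sim R r r' := Iff.rfl

theorem Sim.mono {R R' : α → β → Prop} (h : ∀ a b, R a b → R' a b) {s : Rand α} {t : Rand β}
    (hs : Sim R s t) : Sim R' s t := by
  induction s generalizing t with
  | ret a => cases t with
    | ret b => exact h a b hs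
    | flip _ _ => exact hs
  | flip l r ihl ihr => cases t with
    | ret b => exact hs
    | flip l' r' => exact ⟨ihl hs.1, ihr hs.2⟩

theorem Sim.bind {δ : Type} {R : α → β → Prop} {R' : γ → δ → Prop} {s : Rand α} {t : Rand β}
    {f : α → Rand γ} {g : β → Rand δ} (hs : Sim R s t)
    (hf : ∀ a b, R a b → Sim R' (f a) (g b)) : Sim R' (s.bind f) (t.bind g) := by
  induction s generalizing t with
  | ret a => cases t with
    | ret b => exact hf a b hs
    | flip _ _ => exact hs.elim
  | flip l r ihl ihr => cases t with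
    | ret b => exact hs.elim
    | flip l' r' => exact ⟨ihl hs.1, ihr hs.2⟩

/-- Continue on the left only, by a deterministic-looking step matched with no coin. -/
theorem Sim.bind_left {R : α → β → Prop} {R' : γ → β → Prop} {s : Rand α} {t : Rand β}
    {f : α → Rand γ} (hs : Sim R s t) (hf : ∀ a b, R a b → Sim R' (f a) (.ret b)) :
    Sim R' (s.bind f) t := by
  have := hs.bind (g := Rand.ret) hf
  rwa [Rand.bind_ret] at this

/-- A deterministic first step on the left. -/
theorem Sim.det_bind {R : α → Unit → Prop} {R' : γ → β → Prop} {s : Rand α} {t : Rand β}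
    {f : α → Rand γ} (hs : Sim R s (.ret ())) (hf : ∀ a, R a () → Sim R' (f a) t) :
    Sim R' (s.bind f) t := by
  cases s with
  | ret a => exact hf a hs
  | flip _ _ => exact hs.elim

theorem Sim.and_All {R : α → β → Prop} {p : α → Prop} {s : Rand α} {t : Rand β}
    (hs : Sim R s t) (hp : s.All p) : Sim (fun a b => R a b ∧ p a) s t := by
  induction s generalizing t with
  | ret a => cases t with
    | ret b => exact ⟨hs, hp⟩
    | flip _ _ => exact hs
  | flip l r ihl ihr => cases t with
    | ret b => exact hs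
    | flip l' r' => exact ⟨ihl hs.1 hp.1, ihr hs.2 hp.2⟩

theorem Sim.trans {R : α → β → Prop} {R' : β → γ → Prop} {s : Rand α} {t : Rand β} {u : Rand γ}
    (h1 : Sim R s t) (h2 : Sim R' t u) : Sim (fun a c => ∃ b, R a b ∧ R' b c) s u := by
  induction s generalizing t u with
  | ret a => cases t with
    | ret b => cases u with
      | ret c => exact ⟨b, h1, h2⟩
      | flip _ _ => exact h2
    | flip _ _ => exact h1.elim
  | flip l r ihl ihr => cases t with
    | ret b => exact h1.elim
    | flip l' r' => cases u with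
      | ret c => exact h2
      | flip l'' r'' => exact ⟨ihl h1.1 h2.1, ihr h1.2 h2.2⟩

theorem Sim.E_le {R : α → β → Prop} {s : Rand α} {t : Rand β} (hs : Sim R s t)
    {f : α → ℝ} {g : β → ℝ} (h : ∀ a b, R a b → g b ≤ f a) : t.E g ≤ s.E f := by
  induction s generalizing t with
  | ret a => cases t with
    | ret b => exact h a b hs
    | flip _ _ => exact hs.elim
  | flip l r ihl ihr => cases t with
    | ret b => exact hs.elim
    | flip l' r' =>
      have := ihl hs.1; have := ihr hs.2
      simp only [Rand.E_flip]; linarith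

theorem Sim.prob_le {R : α → β → Prop} {s : Rand α} {t : Rand β} (hs : Sim R s t)
    {p : α → Prop} {q : β → Prop} (h : ∀ a b, R a b → q b → p a) : t.prob q ≤ s.prob p := by
  rw [Rand.prob_eq_E, Rand.prob_eq_E]
  refine hs.E_le fun a b hab => ?_
  by_cases hq : q b
  · simp [hq, h a b hab hq]
  · simp only [hq, if_false]; split_ifs <;> norm_num

theorem Sim.iterIdx {R : ℕ → α → β → Prop} {f : α → Rand α} {g : ℕ → β → Rand β} (k : ℕ)
    {a : α} {b : β} (h0 : R 0 a b)
    (hstep : ∀ i, i < k → ∀ a b, R i a b → Sim (R (i + 1)) (f a) (g i b)) :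
    Sim (R k) (iter f k a) (iterIdx g k b) := by
  induction k with
  | zero => exact h0
  | succ k ih =>
    rw [iter_succ', Vale.Agent.P328.iterIdx]
    exact (ih fun i hi => hstep i (Nat.lt_succ_of_lt hi)).bind (hstep k (Nat.lt_succ_self k))

theorem Sim.iter {R : α → β → Prop} {f : α → Rand α} {g : β → Rand β} (k : ℕ)
    {a : α} {b : β} (h0 : R a b) (hstep : ∀ a b, R a b → Sim R (f a) (g b)) :
    Sim R (iter f k a) (iter g k b) := by
  rw [iter_eq_iterIdx g]
  exact Sim.iterIdx (R := fun _ => R) k h0 fun _ _ => hstep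

/-- A loop of deterministic rounds, described by an indexed invariant. -/
theorem Sim.iter_det {p : ℕ → α → Prop} {f : α → Rand α} (k : ℕ) {a : α} (h0 : p 0 a)
    (hstep : ∀ i, i < k → ∀ a, p i a → Sim (fun a' (_ : Unit) => p (i + 1) a') (f a) (.ret ())) :
    Sim (fun a' (_ : Unit) => p k a') (Vale.Agent.P328.iter f k a) (.ret ()) := by
  induction k with
  | zero => exact h0
  | succ k ih =>
    rw [iter_succ']
    exact (ih fun i hi => hstep i (Nat.lt_succ_of_lt hi)).det_bind
      (hstep k (Nat.lt_succ_self k))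

end Vale.Agent.P328
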