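import Vale.Agent.P328.RefPhi

/-! Refinement of the randomized routines. -/

namespace Vale.Agent.P328

open Finset

theorem coin_sim (a : ℕ) (m : Mem) : Sim (fun m' z => m' = m.set a 0 z) (run (.coin a) m) coinR :=
  ⟨rfl, rfl⟩

theorem bitsC_sim (e : Expr) (m : Mem) (k : ℕ) (hk : e.eval (m.set aR 0 0) = k) :
    Sim (fun m' r => m' aR 0 = r) (run (bitsC e) m) (bits k) := by
  unfold bitsC bits
  refine sim_asg_seq ?_
  rw [run, eval_const, hk]
  refine Sim.iter k (by simp) fun m' r h => (coin_sim aC m').bind ?_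
  rintro _ z rfl
  exact Det.to_sim (Det.asg (by simp [h]))

theorem accC_sim {I : Inst} (m : Mem) (hp : Par I m) :
    Sim (fun m' a => m' aA 0 = a) (run accC m) (acc (2 * I.b) (min (I.W ^ 13) (m aD 0))) := by
  unfold accC acc
  refine sim_asg_seq ?_
  rw [run, eval_minE]
  simp only [eval_var, eval_const, ne_eq, OfNat.ofNat_eq_ofNat, Nat.reduceEqDiff,
    not_false_eq_true, Mem.set_of_ne, hp.hCAP]
  refine (Sim.iter (R := fun (m' : Mem) a => m' aA 0 = a ∧ m' aB2 0 = 2 * I.b) _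
    ⟨by simp, by simp [hp.hB2]⟩ ?_).mono fun _ _ h => h.1
  rintro m1 a ⟨h1, h2⟩
  refine ((bitsC_sim (var aB2) m1 _ (by simp [h2])).frame [aR, aC] (by decide)).bind ?_
  rintro m2 r ⟨h3, f⟩
  by_cases hr : r = 0
  · rw [if_pos hr]
    exact sim_ifz_zero (by simp [h3, hr])
      (Det.to_sim (Det.asg ⟨by simp, by simp [f aB2 (by decide), h2]⟩))
  · rw [if_neg hr]
    exact sim_ifz_ne (by simp [h3, hr]) (Det.to_sim (Det.skip
      ⟨by simp [f aA (by decide), h1], by simp [f aB2 (by decide), h2]⟩))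

theorem RepX.store {I : Inst} {m : Mem} {x : I.St} (h : RepX I m x) (s : I.Cell) (v : ℕ) :
    RepX I (m.set aX s v) (Function.update x s v) := by
  intro s'
  rw [Mem.set_same]
  by_cases hs : s' = s
  · simp [hs]
  · rw [if_neg fun h => hs (Fin.ext h), Function.update_of_ne hs, h s']

theorem Inst.low_update (I : Inst) (y : I.St) (s : I.Cell) (v : ℕ) :
    I.low (Function.update y s v) = Function.update (I.low y) s (I.D s * v) := by
  funext s'
  by_cases hs : s' = s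
  · simp [hs, Inst.low]
  · simp [Function.update_of_ne hs, Inst.low]

theorem skip_sim {I : Inst} {m : Mem} {y : I.St} (hy : RepX I m (I.low y)) (hg : m aGV 0 = I.G) :
    Sim (fun m' y' => RepX I m' (I.low y') ∧ m' aGV 0 = I.G) (run skip m) (.ret y) :=
  Det.to_sim (Det.skip ⟨hy.frame (Fr.set (W := [aJUNK]) m (by decide) _ _) (by decide),
    by simp [hg]⟩)

theorem tryC_sim {I : Inst} (m : Mem) (hp : Par I m) (t : ℕ) (ht : m aT 0 = t)
    (htc : t ≤ I.W ^ 13) (hg : m aGV 0 = I.G) (y : I.St) (hy : RepX I m (I.low y)) (s : I.Cell)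
    (hs : m aS0 0 = s) (v : ℕ) (hv : m aNEW 0 = I.D s * v) :
    Sim (fun m' y' => RepX I m' (I.low y') ∧ m' aGV 0 = I.G) (run tryC m)
      (I.tryR t y (Function.update y s v)) := by
  unfold tryC Inst.tryR
  refine ((phiC_det m hp _ hy _ t hg ht htc).frame wPhi phiC_writes).seq_sim ?_
  rintro m1 ⟨⟨h1, -⟩, f1⟩
  refine sim_asg_seq (sim_asg_seq (sim_store_seq ?_))
  generalize hm2 : Mem.set _ aX _ _ = m2
  have f2 : Fr [aPH0, aOLD, aX] m1 m2 := by
    rw [← hm2]
    exact ((Fr.set _ (by decide) _ _).set_right (by decide) _ _).set_right (by decide) _ _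
  have a1 : m2 aPH0 0 = I.phc t y := by rw [← hm2]; simp [h1, Inst.phc]
  have a2 : m2 aOLD 0 = I.low y s := by
    rw [← hm2]; simp [f1 aS0 (by decide), f1 aX (by decide), hs, hy s]
  have a3 : RepX I m2 (I.low (Function.update y s v)) := by
    rw [← hm2, I.low_update]
    simp only [eval_var, ne_eq, OfNat.ofNat_eq_ofNat, Nat.reduceEqDiff, not_false_eq_true,
      Mem.set_of_ne, f1 aS0 (by decide), f1 aNEW (by decide), hs, hv]
    refine RepX.store ?_ s _
    exact (hy.frame f1 (by decide)).frame (W := [aPH0, aOLD])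
      ((Fr.set _ (by decide) _ _).set_right (by decide) _ _) (by decide)
  clear hm2
  have p2 := (hp.frame f1 (by decide)).frame f2 (by decide)
  refine ((phiC_det m2 p2 _ a3 I.G t (by rw [f2 aGV (by decide), f1 aGV (by decide), hg])
    (by rw [f2 aT (by decide), f1 aT (by decide), ht]) htc).frame wPhi phiC_writes).seq_sim ?_
  rintro m3 ⟨⟨h3, -⟩, f3⟩
  refine sim_asg_seq ?_
  generalize hm4 : Mem.set _ aD _ _ = m4
  have f4 : Fr [aD] m3 m4 := by rw [← hm4]; exact Fr.set _ (by decide) _ _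
  have a4 : m4 aD 0 = I.phc t (Function.update y s v) - I.phc t y := by
    rw [← hm4]; simp [h3, f3 aPH0 (by decide), a1, Inst.phc]
  clear hm4
  have h5 := (accC_sim m4 ((p2.frame f3 (by decide)).frame f4 (by decide))).frame wAcc accC_writes
  rw [a4] at h5
  refine h5.bind ?_
  rintro m5 a ⟨h6, f5⟩
  have x5 : RepX I m5 (I.low (Function.update y s v)) :=
    ((a3.frame f3 (by decide)).frame f4 (by decide)).frame f5 (by decide)
  have g5 : m5 aGV 0 = I.G := by
    rw [f5 aGV (by decide), f4 aGV (by decide), f3 aGV (by decide), f2 aGV (by decide),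
      f1 aGV (by decide), hg]
  by_cases ha : a = 0
  · rw [if_pos ha]
    refine sim_ifz_zero (by simp [h6, ha]) (Det.to_sim (Det.store ⟨?_, by simp [g5]⟩))
    have s5 : m5 aS0 0 = s := by
      rw [f5 aS0 (by decide), f4 aS0 (by decide), f3 aS0 (by decide), f2 aS0 (by decide),
        f1 aS0 (by decide), hs]
    have o5 : m5 aOLD 0 = I.low y s := by
      rw [f5 aOLD (by decide), f4 aOLD (by decide), f3 aOLD (by decide), a2]
    have := x5.store s (I.low y s)
    rw [I.low_update, Function.update_idem, Function.update_eq_self] at this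
    rw [eval_var, eval_var, s5, o5]
    exact this
  · rw [if_neg ha]
    exact sim_ifz_ne (by simp [h6, ha]) (skip_sim x5 g5)

theorem moveC_sim {I : Inst} (m : Mem) (hp : Par I m) (t : ℕ) (ht : m aT 0 = t)
    (htc : t ≤ I.W ^ 13) (hg : m aGV 0 = I.G) (y : I.St) (hy : RepX I m (I.low y)) (s : I.Cell)
    (hs : m aS0 0 = s) (dir : ℕ) (hd : m aDIR 0 = dir) :
    Sim (fun m' y' => RepX I m' (I.low y') ∧ m' aGV 0 = I.G) (run moveC m) (I.moveR t y s dir) := by
  unfold moveC Inst.moveR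
  have hD := Inst.D_pos s
  have hx : m aX s = I.D s * y s := hy s
  have key : ∀ v u, u = I.D s * v → Sim (fun m' y' => RepX I m' (I.low y') ∧ m' aGV 0 = I.G)
      (run tryC (m.set aNEW 0 u)) (I.tryR t y (Function.update y s v)) := by
    intro v u hu
    have f : Fr [aNEW] m (m.set aNEW 0 u) := Fr.set _ (by decide) _ _
    exact tryC_sim _ (hp.frame f (by decide)) t (by simp [ht]) htc (by simp [hg]) y
      (hy.frame f (by decide)) s (by simp [hs]) v (by simp [hu])
  by_cases h0 : dir = 0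
  · rw [if_pos h0]
    refine sim_ifz_zero (by simp [hd, h0]) (sim_asg_seq ?_)
    have e : (Expr.add (.load aX (var aS0)) (.load aDD (var aS0))).eval m = I.D s * (y s + 1) := by
      simp [hs, hx, hp.hDD, mul_add]
    rw [e]
    have e2 : (ltInd (var aNEW) (.load aMM (var aS0))).eval (m.set aNEW 0 (I.D s * (y s + 1))) =
        if y s + 1 < I.K s then 1 else 0 := by
      simp [eval_ltInd, hs, hp.hMM, Inst.M_eq, mul_comm (I.K s), hD]
    by_cases h1 : y s + 1 < I.K s
    · rw [if_pos h1]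
      exact sim_ifz_ne (by simp [e2, h1]) (key _ _ rfl)
    · rw [if_neg h1]
      exact sim_ifz_zero (by simp [e2, h1]) (skip_sim
        (hy.frame (Fr.set (W := [aNEW]) _ (by decide) _ _) (by decide)) (by simp [hg]))
  · rw [if_neg h0]
    refine sim_ifz_ne (by simp [hd, h0]) ?_
    by_cases h1 : y s = 0
    · rw [if_pos h1]
      exact sim_ifz_zero (by simp [hs, hx, h1]) (skip_sim hy hg)
    · rw [if_neg h1]
      refine sim_ifz_ne (by simp [hs, hx, h1, hD.ne']) (sim_asg_seq (key _ _ ?_))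
      simp [hs, hx, hp.hDD, Nat.mul_sub]

theorem stepC_sim {I : Inst} (m : Mem) (hp : Par I m) (t : ℕ) (ht : m aT 0 = t)
    (htc : t ≤ I.W ^ 13) (hg : m aGV 0 = I.G) (y : I.St) (hy : RepX I m (I.low y)) :
    Sim (fun m' y' => RepX I m' (I.low y') ∧ m' aGV 0 = I.G) (run stepC m) (I.stepR t y) := by
  unfold stepC Inst.stepR
  refine (coin_sim aC m).bind ?_
  rintro _ z rfl
  have f0 : Fr [aC] m (m.set aC 0 z) := Fr.set _ (by decide) _ _
  by_cases hz : z = 0
  · rw [if_pos hz]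
    exact sim_ifz_zero (by simp [hz]) (skip_sim (hy.frame f0 (by decide)) (by simp [hg]))
  rw [if_neg hz]
  refine sim_ifz_ne (by simp [hz]) ?_
  unfold Inst.step0
  refine ((bitsC_sim (var aB2) _ (2 * I.b) (by simp [hp.hB2])).frame [aR, aC] (by decide)).bind ?_
  rintro m1 s ⟨h1, f1⟩
  refine sim_asg_seq ((coin_sim aDIR _).bind ?_)
  rintro m2 dir hm2
  have f2 : Fr [aR, aC, aS0, aDIR] m m2 := by
    rw [hm2]
    exact (((f0.mono (by decide)).trans (f1.mono (by decide))).set_right (by decide) _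
      _).set_right (by decide) _ _
  have s2 : m2 aS0 0 = s := by rw [hm2]; simp [h1]
  have d2 : m2 aDIR 0 = dir := by rw [hm2]; simp
  have p2 := hp.frame f2 (by decide)
  have g2 : m2 aGV 0 = I.G := by rw [f2 aGV (by decide), hg]
  by_cases hs : s < I.m * I.n
  · rw [dif_pos hs]
    exact sim_ifz_ne (by simp [eval_ltInd, s2, p2.hPP, hs]) (moveC_sim m2 p2 t
      (by rw [f2 aT (by decide), ht]) htc g2 y (hy.frame f2 (by decide)) ⟨s, hs⟩ s2 dir d2)
  · rw [dif_neg hs]
    exact sim_ifz_zero (by simp [eval_ltInd, s2, p2.hPP, hs])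
      (skip_sim (hy.frame f2 (by decide)) g2)

theorem chainC_sim {I : Inst} (m : Mem) (hp : Par I m) (t : ℕ) (ht : m aT 0 = t)
    (htc : t ≤ I.W ^ 13) :
    Sim (fun m' y => RepX I m' (I.low y) ∧ m' aGV 0 = I.G) (run chainC m) (I.chainR t) := by
  unfold chainC Inst.chainR
  refine ((det_forV aI _ _ m (I.m * I.n) (by simp [hp.hPP]) (by decide)
    (fun i m' => ∀ k, k < i → m' aX k = 0) (fun i m' v h => by simpa using h) (by simp)
    ?_).frame [aI, aX] (by decide)).seq_sim ?_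
  · intro i _ m' h0 h
    refine Det.store fun k hk => ?_
    rw [Mem.set_same, eval_var, h0]
    split_ifs with c
    · rfl
    · exact h k (by omega)
  rintro m1 ⟨h1, f1⟩
  refine sim_asg_seq ?_
  generalize hm2 : Mem.set _ aGV _ _ = m2
  have f2 : Fr wChain m m2 := by rw [← hm2]; exact (f1.mono (by decide)).set_right (by decide) _ _
  have g2 : m2 aGV 0 = I.G := by rw [← hm2]; simp [f1 aG (by decide), hp.hG]
  have x2 : RepX I m2 (I.low fun _ => 0) := fun s => by
    rw [← hm2]; simp [h1 s s.2, Inst.low]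
  clear hm2
  rw [run, eval_var, f2 aTT (by decide), hp.hTT]
  refine (Sim.iter (R := fun (m' : Mem) y => (RepX I m' (I.low y) ∧ m' aGV 0 = I.G) ∧ Fr wChain m m') _
    ⟨⟨x2, g2⟩, f2⟩ ?_).mono fun _ _ h => h.1
  rintro m3 y ⟨⟨x3, g3⟩, f3⟩
  exact ((stepC_sim m3 (hp.frame f3 (by decide)) t (by rw [f3 aT (by decide), ht]) htc g3 y
    x3).frame wChain stepC_writes).mono fun _ _ h => ⟨h.1, f3.trans h.2⟩

theorem offsC_sim {I : Inst} (h : I.OK) (m : Mem) (hp : Par I m) (y : I.St)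
    (hy : RepX I m (I.low y)) : Sim (fun m' x => RepX I m' x) (run offsC m) (I.offsR y) := by
  unfold offsC forV Inst.offsR
  refine sim_asg_seq ?_
  have f0 : Fr [aI, aR, aC, aX] m (m.set aI 0 0) := Fr.set _ (by decide) _ _
  rw [run, eval_var, eval_const, f0 aPP (by decide), hp.hPP]
  refine (Sim.iterIdx (R := fun i (m' : Mem) x => m' aI 0 = i ∧ RepX I m' x ∧ Fr [aI, aR, aC, aX] m m') _
    ⟨by simp, hy.frame (Fr.set (W := [aI]) _ (by decide) _ _) (by decide), f0⟩ ?_).mono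
    fun _ _ h => h.2.1
  rintro i hi m1 x ⟨h1, x1, f1⟩
  rw [dif_pos hi]
  have p1 := hp.frame f1 (by decide)
  have hb := (bitsC_sim (minE aW (.load aDL (var aI))) m1 (I.dl ⟨i, hi⟩) (by
    simp [eval_minE, h1, p1.hW, p1.hDL ⟨i, hi⟩, Inst.dl_le h])).frame [aR, aC] (by decide)
  refine Sim.bind_left (R := fun (m' : Mem) x => m' aI 0 = i ∧ RepX I m' x ∧ Fr [aI, aR, aC, aX] m m')
    (hb.bind ?_) ?_
  · rintro m2 v ⟨h2, f2⟩
    have i2 : m2 aI 0 = i := by rw [f2 aI (by decide), h1]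
    have x2 := x1.frame f2 (by decide)
    refine Det.to_sim (Det.store ⟨by simp [i2], ?_,
      (f1.trans (f2.mono (by decide))).set_right (by decide) _ _⟩)
    have := x2.store ⟨i, hi⟩ (x ⟨i, hi⟩ + v)
    simpa only [eval_var, eval_add, eval_load, i2, h2, x2 ⟨i, hi⟩] using this
  · rintro m2 x' ⟨h2, x2, f2⟩
    exact Det.to_sim (Det.asg ⟨by simp [h2],
      x2.frame (Fr.set (W := [aI]) _ (by decide) _ _) (by decide), f2.set_right (by decide) _ _⟩)

theorem Inst.T0_le' {I : Inst} (h : I.OK) : I.T0 ≤ I.W ^ 13 := by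
  have h1 := Inst.T0_le h
  have h2 := h.h32
  calc I.T0 ≤ 2 * I.W ^ 11 := h1
    _ ≤ I.W ^ 2 * I.W ^ 11 := Nat.mul_le_mul_right _ (by nlinarith)
    _ = I.W ^ 13 := by ring

theorem trialC_sim {I : Inst} (h : I.OK) (m : Mem) (hp : Par I m) :
    Sim (fun m' x => RepX I m' x ∧ m' aNG 0 = I.ng 0 x) (run trialC m) I.trialR := by
  unfold trialC Inst.trialR
  refine sim_asg_seq ?_
  generalize hm1 : Mem.set _ aT _ _ = m1
  have f1 : Fr [aT] m m1 := by rw [← hm1]; exact Fr.set _ (by decide) _ _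
  have t1 : m1 aT 0 = I.T0 := by rw [← hm1]; simp [hp.hT0]
  clear hm1
  have p1 := hp.frame f1 (by decide)
  refine ((chainC_sim m1 p1 _ t1 (Inst.T0_le' h)).frame wChain chainC_writes).bind ?_
  rintro m2 y ⟨⟨x2, -⟩, f2⟩
  have p2 := p1.frame f2 (by decide)
  refine ((offsC_sim h m2 p2 y x2).frame [aI, aR, aC, aX] (by decide)).bind_left ?_
  rintro m3 x ⟨x3, f3⟩
  refine Det.to_sim (Det.asg_seq ?_)
  have f4 : Fr [aGV] m3 (m3.set aGV 0 0) := Fr.set _ (by decide) _ _
  have x4 := x3.frame f4 (by decide)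
  refine ((phiC_det _ ((p2.frame f3 (by decide)).frame f4 (by decide)) x x4 0 I.T0 (by simp)
    (by rw [f4 aT (by decide), f3 aT (by decide), f2 aT (by decide), t1])
    (Inst.T0_le' h)).frame wPhi phiC_writes).mono ?_
  rintro m5 ⟨⟨-, h5⟩, f5⟩
  exact ⟨x4.frame f5 (by decide), h5⟩

theorem samplerMain_sim {I : Inst} (h : I.OK) (m : Mem) (hp : Par I m) :
    Sim (fun m' X => RepOut I m' X) (run samplerMain m) I.samplerR := by
  unfold samplerMain Inst.samplerR
  refine ((nwC_det m hp).frame wTab nwC_writes).seq_sim ?_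
  rintro m1 ⟨o1, f1⟩
  have p1 := hp.frame f1 (by decide)
  rw [run, eval_var, p1.hREP]
  refine (Sim.iter (R := fun (m' : Mem) X => RepOut I m' X ∧ Par I m') _ ⟨o1, p1⟩ ?_).mono fun _ _ h => h.1
  rintro m2 X ⟨o2, p2⟩
  refine ((trialC_sim h m2 p2).frame wTrial trialC_writes).bind ?_
  rintro m3 x ⟨⟨x3, n3⟩, f3⟩
  have p3 := p2.frame f3 (by decide)
  by_cases hv : I.valid x
  · rw [if_pos hv]
    refine sim_ifz_zero (n3.trans hv) (Det.to_sim
      (((tabC_det m3 p3 x x3).frame wTab tabC_writes).mono fun m4 h4 => ⟨h4.1, ?_⟩))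
    exact p3.frame h4.2 (by decide)
  · rw [if_neg hv]
    refine sim_ifz_ne (fun h0 => hv (n3.symm.trans h0)) (Det.to_sim (Det.skip ⟨fun s => ?_,
      p3.frame (Fr.set (W := [aJUNK]) _ (by decide) _ _) (by decide)⟩))
    rw [Mem.set_of_ne _ _ _ (by decide), f3 aOUT (by decide)]
    exact o2 s

theorem bern0C_sim {I : Inst} (m : Mem) (hp : Par I m) (t : ℕ) (ht : m aT 0 = t)
    (htc : t + 1 ≤ I.W ^ 13) :
    Sim (fun m' a => m' aA 0 = a ∧ m' aT 0 = t) (run bern0C m) (I.bern0 t) := by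
  unfold bern0C Inst.bern0
  refine ((chainC_sim m hp t ht (by omega)).frame wChain chainC_writes).bind ?_
  rintro m1 y ⟨⟨x1, g1⟩, f1⟩
  have p1 := hp.frame f1 (by decide)
  have t1 : m1 aT 0 = t := by rw [f1 aT (by decide), ht]
  refine ((phiC_det m1 p1 _ x1 _ t g1 t1 (by omega)).frame wPhi phiC_writes).seq_sim ?_
  rintro m2 ⟨⟨h2, -⟩, f2⟩
  refine sim_asg_seq (sim_asg_seq ?_)
  generalize hm3 : Mem.set _ aT _ _ = m3
  have f3 : Fr [aPH0, aT] m2 m3 := by
    rw [← hm3]; exact (Fr.set _ (by decide) _ _).set_right (by decide) _ _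
  have t3 : m3 aT 0 = t + 1 := by rw [← hm3]; simp [f2 aT (by decide), t1]
  have a3 : m3 aPH0 0 = I.phc t y := by rw [← hm3]; simp [h2, Inst.phc]
  clear hm3
  have p3 := (p1.frame f2 (by decide)).frame f3 (by decide)
  refine ((phiC_det m3 p3 _ ((x1.frame f2 (by decide)).frame f3 (by decide)) I.G (t + 1)
    (by rw [f3 aGV (by decide), f2 aGV (by decide), g1]) t3 htc).frame wPhi
    phiC_writes).seq_sim ?_
  rintro m4 ⟨⟨h4, -⟩, f4⟩
  refine sim_asg_seq (sim_asg_seq ?_)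
  generalize hm5 : Mem.set _ aD _ _ = m5
  have f5 : Fr [aT, aD] m4 m5 := by
    rw [← hm5]; exact (Fr.set _ (by decide) _ _).set_right (by decide) _ _
  have t5 : m5 aT 0 = t := by rw [← hm5]; simp [f4 aT (by decide), t3]
  have d5 : m5 aD 0 = I.phc (t + 1) y - I.phc t y := by
    rw [← hm5]; simp [h4, f4 aPH0 (by decide), a3, Inst.phc]
  clear hm5
  have h6 := (accC_sim m5 ((p3.frame f4 (by decide)).frame f5 (by decide))).frame wAcc accC_writes
  rw [d5] at h6
  exact h6.mono fun m6 a h => ⟨h.1, by rw [h.2 aT (by decide), t5]⟩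

theorem bern1C_sim {I : Inst} (h : I.OK) (m : Mem) (hp : Par I m) :
    Sim (fun m' a => m' aA 0 = a) (run bern1C m) I.bern1 := by
  unfold bern1C Inst.bern1
  refine (trialC_sim h m hp).bind ?_
  rintro m1 x ⟨-, h1⟩
  exact Det.to_sim (Det.asg (by simp [h1]))

def wTally : List ℕ := [aNA, aDA, aJUNK, aNUM, aDEN]

theorem tallyC_sim {I : Inst} (body : Cmd) (hw : ∀ a ∈ body.writes, a ∈ wTrial) (S : Rand ℕ)
    (q : Mem → Prop) (hq : ∀ m m', q m → Fr wTally m m' → q m')
    (hb : ∀ m, Par I m → q m → Sim (fun m' a => m' aA 0 = a ∧ q m') (run body m) S)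
    (m : Mem) (hp : Par I m) (h0 : q m) (A : ℕ × ℕ) (h1 : m aNUM 0 = A.1) (h2 : m aDEN 0 = A.2) :
    Sim (fun m' A' => m' aNUM 0 = A'.1 ∧ m' aDEN 0 = A'.2 ∧ Par I m' ∧ q m')
      (run (tallyC body) m) (I.tally S A) := by
  unfold tallyC Inst.tally
  refine sim_asg_seq (sim_asg_seq ?_)
  generalize hm1 : Mem.set _ aDA _ _ = m1
  have f1 : Fr wTally m m1 := by
    rw [← hm1]; exact (Fr.set _ (by decide) _ _).set_right (by decide) _ _
  have a1 : m1 aNA 0 = 0 ∧ m1 aDA 0 = 0 ∧ m1 aNUM 0 = A.1 ∧ m1 aDEN 0 = A.2 := by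
    rw [← hm1]; simp [h1, h2]
  clear hm1
  have p1 := hp.frame f1 (by decide)
  refine Sim.bind_left (R := fun (m' : Mem) (a : ℕ × ℕ) => (m' aNA 0 = a.1 ∧ m' aDA 0 = a.2 ∧
    m' aNUM 0 = A.1 ∧ m' aDEN 0 = A.2) ∧ Par I m' ∧ q m') ?_ ?_
  · rw [run, eval_var, p1.hQ]
    refine Sim.iter _ ⟨a1, p1, hq _ _ h0 f1⟩ ?_
    rintro m2 a ⟨⟨b1, b2, b3, b4⟩, p2, q2⟩
    refine ((hb m2 p2 q2).frame wTrial hw).bind ?_
    rintro m3 z ⟨⟨c1, q3⟩, f3⟩
    have p3 := p2.frame f3 (by decide)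
    have d : Det (.ifz (var aA) skip (asg aNA (.add (var aNA) (var aNUM)))) m3
        fun m' => m' aNA 0 = if z = 0 then a.1 else a.1 + A.1 := by
      by_cases hz : z = 0
      · exact Det.ifz_zero (by simp [c1, hz])
          (Det.skip (by simp [hz, f3 aNA (by decide), b1]))
      · exact Det.ifz_ne (by simp [c1, hz])
          (Det.asg (by simp [hz, f3 aNA (by decide), f3 aNUM (by decide), b1, b3]))
    refine Det.to_sim ((d.frame [aNA, aJUNK] (by decide)).seq ?_)
    rintro m4 ⟨e1, f4⟩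
    have f5 : ∀ v, Fr wTally m3 (m4.set aDA 0 v) := fun v =>
      (f4.mono (by decide)).set_right (by decide) _ _
    refine Det.asg ⟨⟨by simp [e1], ?_, ?_, ?_⟩, p3.frame (f5 _) (by decide), hq _ _ q3 (f5 _)⟩
    · simp [f4 aDA (by decide), f3 aDA (by decide), f4 aDEN (by decide), f3 aDEN (by decide), b2,
        b4]
    · simp [f4 aNUM (by decide), f3 aNUM (by decide), b3]
    · simp [f4 aDEN (by decide), f3 aDEN (by decide), b4]
  · rintro m2 a ⟨⟨b1, b2, -, -⟩, p2, q2⟩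
    have f5 : ∀ u v, Fr wTally m2 ((m2.set aNUM 0 u).set aDEN 0 v) := fun u v =>
      (Fr.set _ (by decide) _ _).set_right (by decide) _ _
    exact Det.to_sim (Det.asg_seq (Det.asg ⟨by simp [b1], by simp [b2],
      p2.frame (f5 _ _) (by decide), hq _ _ q2 (f5 _ _)⟩))

set_option maxRecDepth 8000 in
theorem bern1C_writes : ∀ a ∈ bern1C.writes, a ∈ wTrial := by decide

theorem Inst.sum_lg_le {I : Inst} (h : I.OK) : ∑ s, I.lg s ≤ I.W ^ 148 := by
  have h1 := Inst.cells_le h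
  have h2 := h.h32
  calc ∑ s, I.lg s ≤ ∑ _s : I.Cell, I.W := sum_le_sum fun s _ => Inst.lg_le h s
    _ = I.m * I.n * I.W := by simp
    _ ≤ I.W ^ 2 * I.W := Nat.mul_le_mul_right _ (by omega)
    _ = I.W ^ 3 := by ring
    _ ≤ I.W ^ 148 := Nat.pow_le_pow_right (by omega) (by norm_num)

theorem counterMain_sim {I : Inst} (h : I.OK) (m : Mem) (hp : Par I m) :
    Sim (fun m' out => m' aOUT 0 = out) (run counterMain m) I.counterR := by
  unfold counterMain Inst.counterR
  refine (sumC_fin aTMP (by decide) _ _ m (I.m * I.n) I.lg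
    (fun m' f => by rw [eval_var, f aPP (by decide), hp.hPP]) fun s m' f h => by
      simp only [eval_load, eval_var, h, f aLG (by decide), hp.hLG]).seq_sim ?_
  rintro m1 ⟨h1, f1⟩
  have p1 := hp.frame f1 (by decide)
  refine (pow2C_det aNUM _ m1 (∑ s, I.lg s) (by
    simp [eval_minE, h1, p1.hTT, Inst.sum_lg_le h])).seq_sim ?_
  rintro m2 ⟨h2, f2⟩
  refine sim_asg_seq (sim_asg_seq ?_)
  generalize hm3 : Mem.set _ aT _ _ = m3
  have f3 : Fr [aDEN, aT] m2 m3 := by
    rw [← hm3]; exact (Fr.set _ (by decide) _ _).set_right (by decide) _ _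
  have a3 : m3 aNUM 0 = 2 ^ ∑ s, I.lg s ∧ m3 aDEN 0 = 1 ∧ m3 aT 0 = 0 := by
    rw [← hm3]; simp [h2]
  clear hm3
  have p3 := (p1.frame f2 (by decide)).frame f3 (by decide)
  rw [Rand.bind_assoc]
  refine Sim.bind (R := fun (m' : Mem) (A : ℕ × ℕ) => m' aNUM 0 = A.1 ∧ m' aDEN 0 = A.2 ∧ Par I m' ∧
    m' aT 0 = I.T0) ?_ ?_
  · rw [run, eval_var, p3.hT0]
    refine Sim.iterIdx (R := fun i (m' : Mem) (A : ℕ × ℕ) => m' aNUM 0 = A.1 ∧ m' aDEN 0 = A.2 ∧
      Par I m' ∧ m' aT 0 = i) _ ⟨a3.1, a3.2.1, p3, a3.2.2⟩ ?_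
    rintro i hi m4 A ⟨b1, b2, p4, t4⟩
    refine (tallyC_sim bern0C bern0C_writes (I.bern0 i) (fun m => m aT 0 = i)
      (fun m m' h f => by rw [f aT (by decide), h])
      (fun m p t => bern0C_sim m p i t (le_trans hi (Inst.T0_le' h))) m4 p4 t4 A b1
      b2).bind_left ?_
    rintro m5 A' ⟨c1, c2, p5, t5⟩
    exact Det.to_sim (Det.asg ⟨by simp [c1], by simp [c2],
      p5.frame (Fr.set (W := [aT]) _ (by decide) _ _) (by decide), by simp [t5]⟩)
  · rintro m4 A ⟨b1, b2, p4, -⟩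
    refine (tallyC_sim bern1C bern1C_writes I.bern1 (fun _ => True) (fun _ _ _ _ => trivial)
      (fun m p _ => (bern1C_sim h m p).mono fun _ _ h => ⟨h, trivial⟩) m4 p4 trivial A b1
      b2).bind ?_
    rintro m5 A' ⟨c1, c2, -, -⟩
    exact Det.to_sim (Det.asg (by simp [c1, c2]))

end Vale.Agent.P328
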