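import Vale.Agent.P328.RefChain

/-! Refinement of the initialisation and of the whole programs. -/

namespace Vale.Agent.P328

open Finset

variable {m n : ℕ}

theorem input_one (r : Fin m → ℕ) (c : Fin n → ℕ) (ps : List ℕ) (i : Fin m) :
    input r c ps 1 i = r i := by simp [input]

theorem input_two (r : Fin m → ℕ) (c : Fin n → ℕ) (ps : List ℕ) (j : Fin n) :
    input r c ps 2 j = c j := by simp [input]

theorem init0C_det (r : Fin m → ℕ) (c : Fin n → ℕ) (ps : List ℕ) :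
    Det init0C (input r c ps) fun M => M aM 0 = m ∧ M aN 0 = n ∧ Fr [aM, aN] (input r c ps) M := by
  unfold init0C
  refine Det.asg_seq (Det.asg ⟨by simp [input], by simp [input], ?_⟩)
  exact (Fr.set _ (by decide) _ _).set_right (by decide) _ _

theorem init1C_det (r : Fin m → ℕ) (c : Fin n → ℕ) (ps : List ℕ) (x : Expr) (xv : ℕ)
    (hx : ∀ M : Mem, M 0 = input r c ps 0 → x.eval M = xv) (M : Mem) (h1 : M aM 0 = m)
    (h2 : M aN 0 = n) (h3 : Fr [aM, aN] (input r c ps) M) :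
    Det (init1C x) M fun M' => M' aPP 0 = m * n ∧ M' aB 0 = Nat.size (parP r c xv) ∧
      Fr [aPP, aTMP, aTMP2, aP, aB, aJ] M M' := by
  unfold init1C
  refine (sumC_det aPP (by decide) _ _ M m (fun _ => n)
    (fun m' f => by rw [eval_var, f aM (by decide), h1])
    fun j _ m' f _ => by rw [eval_var, f aN (by decide), h2]).seq ?_
  rintro m1 ⟨a1, f1⟩
  refine (sumC_fin aTMP (by decide) _ _ m1 m (fun i => Nat.size (r i))
    (fun m' f => by rw [eval_var, f aM (by decide), f1 aM (by decide), h1])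
    fun j m' f h => by rw [eval_len, eval_load, eval_var, h, f 1 (by decide), f1 1 (by decide),
      h3 1 (by decide), input_one]).seq ?_
  rintro m2 ⟨a2, f2⟩
  refine (sumC_fin aTMP2 (by decide) _ _ m2 n (fun i => Nat.size (c i))
    (fun m' f => by rw [eval_var, f aN (by decide), f2 aN (by decide), f1 aN (by decide), h2])
    fun j m' f h => by rw [eval_len, eval_load, eval_var, h, f 2 (by decide), f2 2 (by decide),
      f1 2 (by decide), h3 2 (by decide), input_two]).seq ?_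
  rintro m3 ⟨a3, f3⟩
  have f4 : Fr [aPP, aTMP, aTMP2, aP, aB, aJ] M m3 :=
    ((f1.mono (by decide)).trans (f2.mono (by decide))).trans (f3.mono (by decide))
  refine Det.asg_seq (Det.asg ⟨?_, ?_, (f4.set_right (by decide) _ _).set_right (by decide) _ _⟩)
  · simp [f3 aPP (by decide), f2 aPP (by decide), a1]
  · simp [parP, f4 aM (by decide), f4 aN (by decide), h1, h2, a3, f3 aTMP (by decide), a2,
      hx m3 (by rw [f4 0 (by decide), h3 0 (by decide)])]

theorem init2C_det (I : Inst) (M : Mem) (hr : ∀ i : Fin I.m, M 1 i = I.r i)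
    (hc : ∀ j : Fin I.n, M 2 j = I.c j) (h1 : M aM 0 = I.m) (h2 : M aN 0 = I.n)
    (h3 : M aPP 0 = I.m * I.n) (h4 : M aB 0 = I.b) : Det init2C M (Par0 I) := by
  unfold init2C
  refine (powW_det aW 1 (by decide) M _ h4).seq ?_
  rintro m1 ⟨a1, f1⟩
  have b1 : m1 aB 0 = I.b := by rw [f1 aB (by decide), h4]
  refine (powW_det aCAP 13 (by decide) m1 _ b1).seq ?_
  rintro m2 ⟨a2, f2⟩
  have b2 : m2 aB 0 = I.b := by rw [f2 aB (by decide), b1]
  refine (powW_det aTT 148 (by decide) m2 _ b2).seq ?_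
  rintro m3 ⟨a3, f3⟩
  have b3 : m3 aB 0 = I.b := by rw [f3 aB (by decide), b2]
  refine (powW_det aQ 33 (by decide) m3 _ b3).seq ?_
  rintro m4 ⟨a4, f4⟩
  have b4 : m4 aB 0 = I.b := by rw [f4 aB (by decide), b3]
  refine (powW_det aQ0 6 (by decide) m4 _ b4).seq ?_
  rintro m5 ⟨a5, f5⟩
  have b5 : m5 aB 0 = I.b := by rw [f5 aB (by decide), b4]
  refine (powW_det aS 8 (by decide) m5 _ b5).seq ?_
  rintro m6 ⟨a6, f6⟩
  have b6 : m6 aB 0 = I.b := by rw [f6 aB (by decide), b5]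
  refine (powW_det aTMP 10 (by decide) m6 _ b6).seq ?_
  rintro m7 ⟨a7, f7⟩
  have b7 : m7 aB 0 = I.b := by rw [f7 aB (by decide), b6]
  refine (sumC_det aT0 (by decide) _ _ m7 I.b (fun _ => 4 * I.W ^ 10)
    (fun m' f => by rw [eval_var, f aB (by decide), b7])
    fun j _ m' f _ => by
      simp only [eval_add, eval_var, f aTMP (by decide), a7, Inst.W]; ring).seq ?_
  rintro m8 ⟨a8, f8⟩
  have b8 : m8 aB 0 = I.b := by rw [f8 aB (by decide), b7]
  refine (sumC_det aK1 (by decide) _ _ m8 11 (fun _ => I.b) (fun m' f => rfl)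
    fun j _ m' f _ => by rw [eval_var, f aB (by decide), b8]).seq ?_
  rintro m9 ⟨a9, f9⟩
  have b9 : m9 aB 0 = I.b := by rw [f9 aB (by decide), b8]
  have g8 : Fr [aK1, aJ] m8 m9 := f9
  have g7 : Fr [aT0, aK1, aJ] m7 m9 := (f8.mono (by decide)).trans (g8.mono (by decide))
  have g6 : Fr [aTMP, aT0, aK1, aJ] m6 m9 := (f7.mono (by decide)).trans (g7.mono (by decide))
  have g5 : Fr [aS, aTMP, aT0, aK1, aJ] m5 m9 := (f6.mono (by decide)).trans (g6.mono (by decide))
  have g4 : Fr [aQ0, aS, aTMP, aT0, aK1, aJ] m4 m9 :=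
    (f5.mono (by decide)).trans (g5.mono (by decide))
  have g3 : Fr [aQ, aQ0, aS, aTMP, aT0, aK1, aJ] m3 m9 :=
    (f4.mono (by decide)).trans (g4.mono (by decide))
  have g2 : Fr [aTT, aQ, aQ0, aS, aTMP, aT0, aK1, aJ] m2 m9 :=
    (f3.mono (by decide)).trans (g3.mono (by decide))
  have g1 : Fr [aCAP, aTT, aQ, aQ0, aS, aTMP, aT0, aK1, aJ] m1 m9 :=
    (f2.mono (by decide)).trans (g2.mono (by decide))
  have g0 : Fr [aW, aCAP, aTT, aQ, aQ0, aS, aTMP, aT0, aK1, aJ] M m9 :=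
    (f1.mono (by decide)).trans (g1.mono (by decide))
  have w9 : m9 aW 0 = I.W := by rw [g1 aW (by decide), a1, pow_one, Inst.W]
  refine Det.asg_seq (Det.asg ⟨fun i => ?_, fun j => ?_, ?_, ?_, ?_, ?_, ?_, ?_, ?_, ?_, ?_, ?_, ?_,
    ?_, ?_, ?_⟩)
  · simp [g0 1 (by decide), hr]
  · simp [g0 2 (by decide), hc]
  · simp [g0 aM (by decide), h1]
  · simp [g0 aN (by decide), h2]
  · simp [g0 aPP (by decide), h3]
  · simp [b9]
  · simp [w9]
  · simp [b9, two_mul]
  · simp [g2 aCAP (by decide), a2, Inst.W]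
  · simp only [ne_eq, OfNat.ofNat_eq_ofNat, Nat.reduceEqDiff, not_false_eq_true, Mem.set_of_ne,
      g8 aT0 (by decide), a8, Inst.T0, sum_const, card_range, smul_eq_mul]
    ring
  · simp [g3 aTT (by decide), a3, Inst.W]
  · simp only [Mem.set_self, eval_add, eval_var, ne_eq, OfNat.ofNat_eq_ofNat, Nat.reduceEqDiff,
      not_false_eq_true, Mem.set_of_ne, w9]
    ring
  · simp [g4 aQ (by decide), a4, Inst.W]
  · simp [g5 aQ0 (by decide), a5, Inst.W]
  · simp [g6 aS (by decide), a6, Inst.W]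
  · simp [a9]

theorem argmax_det (a v bnd : ℕ) (hv : v ≠ aI) (hv' : v ≠ aJUNK) (hb : bnd ∉ [v, aI, aJUNK])
    (ha : a ∉ [v, aI, aJUNK]) (M : Mem) (k : ℕ) (hk : M bnd 0 = k) (f : Fin k → ℕ)
    (hf : ∀ i : Fin k, M a i = f i) (k0 : 0 < k) (h0 : M v 0 = 0) :
    Det (forV aI (var bnd) (.ifz (.sub (.load a (var aI)) (.load a (var v))) skip
      (asg v (var aI)))) M fun M' => ∃ i0 : Fin k, M' v 0 = i0 ∧ (∀ i, f i ≤ f i0) ∧
        Fr [v, aI, aJUNK] M M' := by
  refine (det_forV aI _ _ M k ?_ ?_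
    (fun i M' => ∃ i0 : Fin k, M' v 0 = i0 ∧ (∀ j : Fin k, j.val < i → f j ≤ f i0) ∧
      Fr [v, aI, aJUNK] M M') ?_ ⟨⟨0, k0⟩, h0, by simp, Fr.refl _ _⟩ ?_).mono ?_
  · rw [eval_var, Fr.set (W := [v, aI, aJUNK]) M (by simp) 0 0 bnd hb, hk]
  · simpa [skip, asg, Cmd.writes] using hv.symm
  · rintro i m' x ⟨i0, h1, h2, fr⟩
    exact ⟨i0, by rw [Mem.set_of_ne _ _ _ hv, h1], h2, fr.set_right (by simp) _ _⟩
  · rintro i hi m1 e0 ⟨i0, h1, h2, fr⟩
    have e : (Expr.sub (.load a (var aI)) (.load a (var v))).eval m1 = f ⟨i, hi⟩ - f i0 := by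
      simp only [eval_sub, eval_load, eval_var, e0, h1, fr a ha, hf i0, hf ⟨i, hi⟩]
    by_cases c : f ⟨i, hi⟩ ≤ f i0
    · refine Det.ifz_zero (by rw [e]; omega) (Det.skip ⟨i0, by rw [Mem.set_of_ne _ _ _ hv', h1],
        fun j hj => ?_, fr.set_right (by simp) _ _⟩)
      by_cases hji : j.val = i
      · rw [show j = ⟨i, hi⟩ from Fin.ext hji]; exact c
      · exact h2 j (by omega)
    · refine Det.ifz_ne (by rw [e]; omega) (Det.asg ⟨⟨i, hi⟩, by simp [e0],
        fun j hj => ?_, fr.set_right (by simp) _ _⟩)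
      by_cases hji : j.val = i
      · rw [show j = ⟨i, hi⟩ from Fin.ext hji]
      · have := h2 j (by omega)
        omega
  · rintro M' ⟨i0, h1, h2, fr⟩
    exact ⟨i0, h1, fun i => h2 i i.2, fr⟩

theorem Par0.frame {I : Inst} {m m' : Mem} {W : List ℕ} (h : Par0 I m) (f : Fr W m m')
    (hW : ∀ a ∈ [1, 2, aM, aN, aPP, aB, aW, aB2, aCAP, aT0, aTT, aREP, aQ, aQ0, aS, aK1], a ∉ W) :
    Par0 I m' := by
  have e : ∀ a ∈ [1, 2, aM, aN, aPP, aB, aW, aB2, aCAP, aT0, aTT, aREP, aQ, aQ0, aS, aK1],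
      m' a = m a := fun a ha => f a (hW a ha)
  refine ⟨?_, ?_, ?_, ?_, ?_, ?_, ?_, ?_, ?_, ?_, ?_, ?_, ?_, ?_, ?_, ?_⟩ <;>
    rw [e _ (by decide)]
  exacts [h.r, h.c, h.hM, h.hN, h.hPP, h.hB, h.hW, h.hB2, h.hCAP, h.hT0, h.hTT, h.hREP, h.hQ,
    h.hQ0, h.hS, h.hK1]

def wCell : List ℕ := [aI, aSIG, aLG, aDL, aTMP, aDD, aMM]

/-- The loop that fills the cell data. -/
theorem cells_det (I : Inst) (hsz : ∀ i, Nat.size (I.r i) ≤ I.W) (M : Mem) (hp : Par0 I M)
    (hI : M aI0 0 = I.i0) (hJ : M aJ0 0 = I.j0) :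
    Det (forV aI (var aPP)
      (.seq (.ifz (.add (eqInd (rowE aI) (var aI0)) (eqInd (colE aI) (var aJ0)))
          (asg aSIG (minX (.load 1 (rowE aI)) (.load 2 (colE aI))))
          (asg aSIG (.const 0)))
      (.seq (.store aLG (var aI) (.len (var aSIG)))
      (.seq (.store aDL (var aI) (.sub (.len (var aSIG)) (var aK1)))
      (.seq (pow2C aTMP (minE aW (.load aDL (var aI))))
      (.seq (.store aDD (var aI) (var aTMP))
      (.seq (pow2C aTMP (minE aW (.load aLG (var aI))))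
        (.store aMM (var aI) (var aTMP))))))))) M
      fun M' => (∀ s : I.Cell, M' aLG s = I.lg s ∧ M' aDL s = I.dl s ∧ M' aDD s = I.D s ∧
        M' aMM s = I.M s) ∧ Fr wCell M M' := by
  refine (det_forV aI _ _ M (I.m * I.n) (by simp [hp.hPP]) (by decide)
    (fun i M' => (∀ s : I.Cell, s.val < i → M' aLG s = I.lg s ∧ M' aDL s = I.dl s ∧
      M' aDD s = I.D s ∧ M' aMM s = I.M s) ∧ Fr wCell M M') ?_ ⟨by simp, Fr.refl _ _⟩ ?_).mono
    fun M' h => ⟨fun s => h.1 s s.2, h.2⟩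
  · rintro i m' x ⟨h1, f⟩
    exact ⟨by simpa using h1, f.set_right (by decide) _ _⟩
  rintro i hi m1 e0 ⟨h1, f1⟩
  set s : I.Cell := ⟨i, hi⟩ with hs
  have p1 := hp.frame f1 (by decide)
  have r1 : (rowE aI).eval m1 = s.divNat := by rw [eval_rowE, e0, p1.hN, Fin.coe_divNat]
  have c1 : (colE aI).eval m1 = s.modNat := by rw [eval_colE, e0, p1.hN, Fin.coe_modNat]
  have hlg : I.lg s ≤ I.W := by
    refine le_trans (Nat.size_le_size ?_) (hsz s.divNat)
    unfold Inst.sig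
    split_ifs
    · exact Nat.zero_le _
    · exact min_le_left _ _
  have hdl : I.dl s ≤ I.W := (Nat.sub_le _ _).trans hlg
  have d : Det (.ifz (.add (eqInd (rowE aI) (var aI0)) (eqInd (colE aI) (var aJ0)))
      (asg aSIG (minX (.load 1 (rowE aI)) (.load 2 (colE aI)))) (asg aSIG (.const 0))) m1
      fun m' => m' aSIG 0 = I.sig s := by
    have e : (Expr.add (eqInd (rowE aI) (var aI0)) (eqInd (colE aI) (var aJ0))).eval m1 =
        (if s.divNat = I.i0 then 1 else 0) + if s.modNat = I.j0 then 1 else 0 := by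
      simp only [eval_add, eval_eqInd, r1, c1, eval_var, f1 aI0 (by decide), f1 aJ0 (by decide),
        hI, hJ, Fin.ext_iff]
    by_cases c : s.divNat = I.i0 ∨ s.modNat = I.j0
    · refine Det.ifz_ne ?_ (Det.asg (by simp [Inst.sig, c]))
      rw [e]
      rcases c with c | c <;> simp [c]
    · refine Det.ifz_zero ?_ (Det.asg ?_)
      · rw [e, if_neg fun h => c (Or.inl h), if_neg fun h => c (Or.inr h)]
      · simp only [Mem.set_self, eval_minX, eval_load, r1, c1, p1.r, p1.c, Inst.sig, if_neg c]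
  refine (d.frame [aSIG] (by decide)).seq ?_
  rintro m2 ⟨a2, f2⟩
  have i2 : m2 aI 0 = i := by rw [f2 aI (by decide), e0]
  refine Det.store_seq (Det.store_seq ?_)
  generalize hm3 : Mem.set _ aDL _ _ = m3
  have f3 : Fr [aLG, aDL] m2 m3 := by
    rw [← hm3]; exact (Fr.set _ (by decide) _ _).set_right (by decide) _ _
  have l3 : ∀ k, m3 aLG k = if k = i then I.lg s else m1 aLG k := fun k => by
    rw [← hm3]; simp [Mem.set_same, i2, a2, Inst.lg, f2 aLG (by decide)]
  have d3 : ∀ k, m3 aDL k = if k = i then I.dl s else m1 aDL k := fun k => by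
    rw [← hm3]
    simp [Mem.set_same, i2, a2, Inst.dl, Inst.lg, f2 aDL (by decide), f2 aK1 (by decide), p1.hK1]
  clear hm3
  have i3 : m3 aI 0 = i := by rw [f3 aI (by decide), i2]
  have w3 : m3 aW 0 = I.W := by rw [f3 aW (by decide), f2 aW (by decide), p1.hW]
  refine (pow2C_det aTMP _ m3 (I.dl s) (by simp [eval_minE, i3, w3, d3, hdl])).seq ?_
  rintro m4 ⟨a4, f4⟩
  refine Det.store_seq ?_
  generalize hm5 : Mem.set _ aDD _ _ = m5
  have f5 : Fr [aTMP, aDD] m3 m5 := by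
    rw [← hm5]; exact (f4.mono (by decide)).set_right (by decide) _ _
  have d5 : ∀ k, m5 aDD k = if k = i then I.D s else m1 aDD k := fun k => by
    rw [← hm5]
    simp [Mem.set_same, f4 aI (by decide), i3, a4, Inst.D, f4 aDD (by decide), f3 aDD (by decide),
      f2 aDD (by decide)]
  clear hm5
  refine (pow2C_det aTMP _ m5 (I.lg s) (by
    simp [eval_minE, f5 aI (by decide), i3, f5 aW (by decide), w3, f5 aLG (by decide), l3,
      hlg])).seq ?_
  rintro m6 ⟨a6, f6⟩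
  refine Det.store ⟨fun s' hs' => ?_, ((((f1.trans (f2.mono (by decide))).trans
    (f3.mono (by decide))).trans (f5.mono (by decide))).trans
    (f6.mono (by decide))).set_right (by decide) _ _⟩
  simp only [ne_eq, OfNat.ofNat_eq_ofNat, Nat.reduceEqDiff, not_false_eq_true, Mem.set_of_ne,
    Mem.set_same, eval_var, f6 aLG (by decide), f5 aLG (by decide), l3, f6 aDL (by decide),
    f5 aDL (by decide), d3, f6 aDD (by decide), d5, f6 aI (by decide), f5 aI (by decide), i3, a6,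
    f6 aMM (by decide), f5 aMM (by decide), f3 aMM (by decide), f2 aMM (by decide)]
  by_cases c : s'.val = i
  · simp only [if_pos c]
    rw [show s' = s from Fin.ext c]
    exact ⟨rfl, rfl, rfl, rfl⟩
  · simp only [if_neg c]
    exact h1 s' (by omega)

/-- The choice of `i0`, `j0` in `I` is irrelevant for `Par0`; the routine finds maximal ones. -/
theorem init3C_det (I : Inst) (hsz : ∀ i, Nat.size (I.r i) ≤ I.W) (M : Mem) (hp : Par0 I M) :
    Det init3C M fun M' => ∃ (i0 : Fin I.m) (j0 : Fin I.n), (∀ i, I.r i ≤ I.r i0) ∧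
      (∀ j, I.c j ≤ I.c j0) ∧ Par ⟨I.m, I.n, I.r, I.c, i0, j0, I.b⟩ M' := by
  unfold init3C
  refine Det.asg_seq ((argmax_det 1 aI0 aM (by decide) (by decide) (by decide) (by decide) _ I.m
    (by simp [hp.hM]) I.r (by simp [hp.r]) I.i0.pos (by simp)).seq ?_)
  rintro m1 ⟨i0, a1, hi0, f1⟩
  have p1 := (hp.frame (Fr.set (W := [aI0]) _ (by decide) _ _) (by decide)).frame f1 (by decide)
  refine Det.asg_seq ((argmax_det 2 aJ0 aN (by decide) (by decide) (by decide) (by decide) _ I.n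
    (by simp [p1.hN]) I.c (by simp [p1.c]) I.j0.pos (by simp)).seq ?_)
  rintro m2 ⟨j0, a2, hj0, f2⟩
  have p2 := (p1.frame (Fr.set (W := [aJ0]) _ (by decide) _ _) (by decide)).frame f2 (by decide)
  have b2 : m2 aI0 0 = i0 := by rw [f2 aI0 (by decide)]; simp [a1]
  refine Det.asg_seq (Det.asg_seq ?_)
  generalize hm3 : Mem.set _ aCS _ _ = m3
  have f3 : Fr [aRS, aCS] m2 m3 := by
    rw [← hm3]; exact (Fr.set _ (by decide) _ _).set_right (by decide) _ _
  have a3 : m3 aRS 0 = I.r i0 ∧ m3 aCS 0 = I.c j0 := by rw [← hm3]; simp [b2, a2, p2.r, p2.c]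
  clear hm3
  have p3 := p2.frame f3 (by decide)
  refine (sumC_fin aNN (by decide) _ _ m3 I.m I.r
    (fun m' f => by rw [eval_var, f aM (by decide), p3.hM])
    fun j m' f h => by rw [eval_load, eval_var, h, f 1 (by decide), p3.r]).seq ?_
  rintro m4 ⟨a4, f4⟩
  have p4 := p3.frame f4 (by decide)
  have p4' : Par0 ⟨I.m, I.n, I.r, I.c, i0, j0, I.b⟩ m4 :=
    ⟨p4.r, p4.c, p4.hM, p4.hN, p4.hPP, p4.hB, p4.hW, p4.hB2, p4.hCAP, p4.hT0, p4.hTT, p4.hREP,
      p4.hQ, p4.hQ0, p4.hS, p4.hK1⟩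
  have i4 : m4 aI0 0 = i0 := by rw [f4 aI0 (by decide), f3 aI0 (by decide), b2]
  have j4 : m4 aJ0 0 = j0 := by rw [f4 aJ0 (by decide), f3 aJ0 (by decide), a2]
  refine (cells_det ⟨I.m, I.n, I.r, I.c, i0, j0, I.b⟩ hsz m4 p4' i4 j4).seq ?_
  rintro m5 ⟨a5, f5⟩
  have p5 := p4'.frame f5 (by decide)
  refine (sumC_fin aG (by decide) _ _ m5 (I.m * I.n)
    (fun s => (Inst.mk I.m I.n I.r I.c i0 j0 I.b).D s - 1)
    (fun m' f => by rw [eval_var, f aPP (by decide), p5.hPP])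
    fun j m' f h => by
      rw [eval_sub, eval_load, eval_var, h, f aDD (by decide), (a5 j).2.2.1, eval_const]).mono ?_
  rintro m6 ⟨a6, f6⟩
  refine ⟨i0, j0, hi0, hj0, p5.frame f6 (by decide), ?_, ?_, ?_, ?_, ?_, a6, fun s => ?_,
    fun s => ?_, fun s => ?_, fun s => ?_⟩
  · rw [f6 aI0 (by decide), f5 aI0 (by decide), i4]
  · rw [f6 aJ0 (by decide), f5 aJ0 (by decide), j4]
  · rw [f6 aRS (by decide), f5 aRS (by decide), f4 aRS (by decide), a3.1]; rfl
  · rw [f6 aCS (by decide), f5 aCS (by decide), f4 aCS (by decide), a3.2]; rfl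
  · rw [f6 aNN (by decide), f5 aNN (by decide), a4]; rfl
  · rw [f6 aLG (by decide), (a5 s).1]
  · rw [f6 aDL (by decide), (a5 s).2.1]
  · rw [f6 aDD (by decide), (a5 s).2.2.1]
  · rw [f6 aMM (by decide), (a5 s).2.2.2]

theorem parP_lt_W (r : Fin m → ℕ) (c : Fin n → ℕ) (xv : ℕ) :
    parP r c xv < 2 ^ Nat.size (parP r c xv) := Nat.lt_size_self _

theorem size_le_parP (r : Fin m → ℕ) (c : Fin n → ℕ) (xv : ℕ) (i : Fin m) :
    Nat.size (r i) ≤ parP r c xv := by
  have := single_le_sum (f := fun i => Nat.size (r i)) (fun _ _ => Nat.zero_le _) (mem_univ i)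
  unfold parP
  omega

/-- The instance described by the input. -/
theorem init23_det (r : Fin m → ℕ) (c : Fin n → ℕ) (hm : 0 < m) (hn : 0 < n) (ps : List ℕ)
    (xv : ℕ) (M M' : Mem) (h1 : M aM 0 = m) (h2 : M aN 0 = n) (h3 : Fr [aM, aN] (input r c ps) M)
    (g1 : M' aPP 0 = m * n) (g2 : M' aB 0 = Nat.size (parP r c xv))
    (g3 : Fr [aPP, aTMP, aTMP2, aP, aB, aJ] M M') :
    Det init2C M' (Par0 ⟨m, n, r, c, ⟨0, hm⟩, ⟨0, hn⟩, Nat.size (parP r c xv)⟩) :=
  init2C_det ⟨m, n, r, c, ⟨0, hm⟩, ⟨0, hn⟩, Nat.size (parP r c xv)⟩ M'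
    (fun i => by rw [g3 1 (by decide), h3 1 (by decide)]; exact input_one r c ps i)
    (fun j => by rw [g3 2 (by decide), h3 2 (by decide)]; exact input_two r c ps j)
    (by rw [g3 aM (by decide), h1]) (by rw [g3 aN (by decide), h2]) g1 g2

theorem progC_sim {β : Type} (r : Fin m → ℕ) (c : Fin n → ℕ) (hm : 0 < m) (hn : 0 < n)
    (hs : ∑ i, r i = ∑ j, c j) (ps : List ℕ) (x : Expr) (xv : ℕ)
    (hx : ∀ M : Mem, M 0 = input r c ps 0 → x.eval M = xv) (main : Cmd)
    (t : Fin m → Fin n → Rand β) (R : Mem → β → Prop)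
    (hmain : ∀ i0 j0, (Inst.mk m n r c i0 j0 (Nat.size (parP r c xv))).OK →
      ∀ M, Par (Inst.mk m n r c i0 j0 (Nat.size (parP r c xv))) M →
        Sim R (run main M) (t i0 j0)) :
    ∃ (i0 : Fin m) (j0 : Fin n), (Inst.mk m n r c i0 j0 (Nat.size (parP r c xv))).OK ∧
      Sim (fun s b => R s.1 b) (exec (progC x main) (input r c ps, 0)) (t i0 j0) := by
  have hW := parP_lt_W r c xv
  have hsz : ∀ i, Nat.size (r i) ≤ 2 ^ Nat.size (parP r c xv) := fun i =>
    (size_le_parP r c xv i).trans hW.le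
  have hd : Det (.seq init0C (.seq (init1C x) (.seq init2C init3C))) (input r c ps)
      fun M' => ∃ g : Fin m × Fin n, (∀ i, r i ≤ r g.1) ∧ (∀ j, c j ≤ c g.2) ∧
        Par ⟨m, n, r, c, g.1, g.2, Nat.size (parP r c xv)⟩ M' := by
    refine (init0C_det r c ps).seq ?_
    rintro m1 ⟨h1, h2, h3⟩
    refine (init1C_det r c ps x xv hx m1 h1 h2 h3).seq ?_
    rintro m2 ⟨g1, g2, g3⟩
    refine (init23_det r c hm hn ps xv m1 m2 h1 h2 h3 g1 g2 g3).seq fun m3 p3 => ?_
    refine (init3C_det _ hsz m3 p3).mono ?_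
    rintro m4 ⟨i0, j0, h⟩
    exact ⟨(i0, j0), h⟩
  have e : run (progC x main) (input r c ps) =
      (run (.seq init0C (.seq (init1C x) (.seq init2C init3C))) (input r c ps)).bind (run main) := by
    simp only [progC, run, Rand.bind_assoc]
  have key : ∃ (i0 : Fin m) (j0 : Fin n), (Inst.mk m n r c i0 j0 (Nat.size (parP r c xv))).OK ∧
      Sim R (run (progC x main) (input r c ps)) (t i0 j0) := by
    rw [e]
    unfold Det at hd
    revert hd
    cases run (.seq init0C (.seq (init1C x) (.seq init2C init3C))) (input r c ps) with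
    | ret a =>
      rintro ⟨g, h1, h2, h3⟩
      have ok : (Inst.mk m n r c g.1 g.2 (Nat.size (parP r c xv))).OK :=
        ⟨hs, h1, h2, lt_of_le_of_lt (show m + n ≤ parP r c xv by unfold parP; omega) hW,
          le_trans (by unfold parP; omega) hW.le, hsz⟩
      exact ⟨g.1, g.2, ok, hmain _ _ ok a h3⟩
    | flip _ _ => exact False.elim
  obtain ⟨i0, j0, ok, h⟩ := key
  refine ⟨i0, j0, ok, ((exec_sim_run _ _ 0).trans h).mono ?_⟩
  rintro s out ⟨b, rfl, hb⟩
  exact hb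

theorem samplerC_sim (r : Fin m → ℕ) (c : Fin n → ℕ) (hm : 0 < m) (hn : 0 < n)
    (hs : ∑ i, r i = ∑ j, c j) (k : ℕ) :
    ∃ (i0 : Fin m) (j0 : Fin n),
      (Inst.mk m n r c i0 j0 (Nat.size (parP r c (Nat.size k)))).OK ∧
      Sim (fun s X => outTable m n s.1 = X) (exec samplerC (input r c [k], 0))
        (Inst.mk m n r c i0 j0 (Nat.size (parP r c (Nat.size k)))).samplerR := by
  refine progC_sim r c hm hn hs [k] xS (Nat.size k) (fun M h => by simp [xS, h, input]) samplerMain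
    (fun i0 j0 => (Inst.mk m n r c i0 j0 (Nat.size (parP r c (Nat.size k)))).samplerR)
    (fun M X => outTable m n M = X) fun i0 j0 h M p => (samplerMain_sim h M p).mono
      fun M' X h => ?_
  funext i j
  have := h (finProdFinEquiv (i, j))
  have e := finProdFinEquiv.symm_apply_apply (i, j)
  rw [finProdFinEquiv_symm_apply, Prod.mk.injEq] at e
  rw [e.1, e.2, finProdFinEquiv_apply_val] at this
  rw [outTable, ← this, mul_comm, add_comm]

theorem counterC_sim (r : Fin m → ℕ) (c : Fin n → ℕ) (hm : 0 < m) (hn : 0 < n)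
    (hs : ∑ i, r i = ∑ j, c j) (k l : ℕ) :
    ∃ (i0 : Fin m) (j0 : Fin n),
      (Inst.mk m n r c i0 j0 (Nat.size (parP r c (k + Nat.size l)))).OK ∧
      Sim (fun s out => s.1 3 0 = out) (exec counterC (input r c [k, l], 0))
        (Inst.mk m n r c i0 j0 (Nat.size (parP r c (k + Nat.size l)))).counterR := by
  exact progC_sim r c hm hn hs [k, l] xC (k + Nat.size l)
    (fun M h => by simp [xC, h, input]) counterMain
    (fun i0 j0 => (Inst.mk m n r c i0 j0 (Nat.size (parP r c (k + Nat.size l)))).counterR)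
    (fun M out => M aOUT 0 = out) fun _ _ h M p => counterMain_sim h M p

end Vale.Agent.P328
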