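import Vale.Agent.P328.Prog
import Vale.Agent.P328.Params

/-! Refinement of the deterministic routines. -/

namespace Vale.Agent.P328

open Finset

/-- Rule for `forV` with a deterministic body that does not write the index. -/
theorem det_forV (v : ℕ) (bound : Expr) (body : Cmd) (m : Mem) (k : ℕ)
    (hk : bound.eval (m.set v 0 0) = k) (hI : v ∉ body.writes) (p : ℕ → Mem → Prop)
    (hp : ∀ i m' x, p i m' → p i (m'.set v 0 x)) (h0 : p 0 m)
    (hstep : ∀ i, i < k → ∀ m', m' v 0 = i → p i m' → Det body m' (p (i + 1))) :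
    Det (forV v bound body) m (p k) := by
  unfold forV
  refine Det.asg_seq ((Det.loop hk (fun i m' => m' v 0 = i ∧ p i m') ⟨by simp, hp _ _ _ h0⟩
    ?_).mono fun _ h => h.2)
  rintro i hi m' ⟨h1, h2⟩
  refine ((hstep i hi m' h1 h2).frame body.writes fun _ h => h).seq ?_
  rintro m'' ⟨h3, f⟩
  exact Det.asg ⟨by simp [f v hI, h1], hp _ _ _ h3⟩

/-- Rule for `sumC`: the summand is read in any memory that agrees with `m` outside `dst`, `J`. -/
theorem sumC_det (dst : ℕ) (hd : dst ≠ aJ) (bound e : Expr) (m : Mem) (k : ℕ) (g : ℕ → ℕ)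
    (hk : ∀ m', Fr [dst, aJ] m m' → bound.eval m' = k)
    (he : ∀ j, j < k → ∀ m', Fr [dst, aJ] m m' → m' aJ 0 = j → e.eval m' = g j) :
    Det (sumC dst bound e) m fun m' => m' dst 0 = ∑ j ∈ range k, g j ∧ Fr [dst, aJ] m m' := by
  unfold sumC
  have f0 : Fr [dst, aJ] m (m.set dst 0 0) := Fr.set m (by simp) _ _
  refine Det.asg_seq (det_forV aJ bound _ _ k (hk _ (f0.set_right (by simp) _ _))
    (by simpa [asg, Cmd.writes] using hd.symm)
    (fun i m' => m' dst 0 = ∑ j ∈ range i, g j ∧ Fr [dst, aJ] m m') ?_ ⟨by simp, f0⟩ ?_)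
  · rintro i m' x ⟨h1, h2⟩
    exact ⟨by rw [Mem.set_of_ne _ _ _ hd, h1], h2.set_right (by simp) _ _⟩
  · rintro i hi m' h0 ⟨h1, h2⟩
    exact Det.asg ⟨by simp [h1, he i hi m' h2 h0, sum_range_succ], h2.set_right (by simp) _ _⟩

theorem pow2C_det (dst : ℕ) (e : Expr) (m : Mem) (k : ℕ) (hk : e.eval (m.set dst 0 1) = k) :
    Det (pow2C dst e) m fun m' => m' dst 0 = 2 ^ k ∧ Fr [dst] m m' := by
  unfold pow2C
  refine Det.asg_seq (Det.loop hk (fun i m' => m' dst 0 = 2 ^ i ∧ Fr [dst] m m')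
    ⟨by simp, Fr.set m (by simp) _ _⟩ ?_)
  rintro i _ m' ⟨h1, h2⟩
  exact Det.asg ⟨by simp [h1, pow_succ, mul_two], h2.set_right (by simp) _ _⟩

theorem powW_det (dst k : ℕ) (hd : dst ≠ aB) (m : Mem) (b : ℕ) (hb : m aB 0 = b) :
    Det (powW dst k) m fun m' => m' dst 0 = (2 ^ b) ^ k ∧ Fr [dst] m m' := by
  unfold powW
  refine Det.asg_seq (Det.loop (k := k) rfl (fun i m' => m' dst 0 = (2 ^ b) ^ i ∧ Fr [dst] m m')
    ⟨by simp, Fr.set m (by simp) _ _⟩ ?_)
  rintro i _ m' ⟨h1, h2⟩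
  refine (Det.loop (k := b) (by rw [eval_var, h2 aB (by simpa using hd.symm), hb])
    (fun j m'' => m'' dst 0 = (2 ^ b) ^ i * 2 ^ j ∧ Fr [dst] m m'') ⟨by simp [h1], h2⟩ ?_).mono
    fun _ h => ⟨by rw [h.1, pow_succ], h.2⟩
  rintro j _ m'' ⟨h3, h4⟩
  refine Det.asg ⟨?_, h4.set_right (by simp) _ _⟩
  simp only [Mem.set_self, eval_add, eval_var, h3]
  ring

theorem eval_eqInd (m : Mem) (a b : Expr) :
    (eqInd a b).eval m = if a.eval m = b.eval m then 1 else 0 := by
  simp only [eqInd, eval_sub, eval_add, eval_const]; split_ifs <;> omega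

theorem eval_ltInd (m : Mem) (a b : Expr) :
    (ltInd a b).eval m = if a.eval m < b.eval m then 1 else 0 := by
  simp only [ltInd, eval_sub, eval_add, eval_const]; split_ifs <;> omega

theorem eval_minX (m : Mem) (a b : Expr) : (minX a b).eval m = min (a.eval m) (b.eval m) := by
  simp only [minX, eval_sub]; omega

theorem eval_maxX (m : Mem) (a b : Expr) : (maxX a b).eval m = max (a.eval m) (b.eval m) := by
  simp only [maxX, eval_sub, eval_add]; omega

theorem eval_rowE (m : Mem) (v : ℕ) : (rowE v).eval m = m v 0 / m aN 0 := rfl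

theorem eval_colE (m : Mem) (v : ℕ) : (colE v).eval m = m v 0 % m aN 0 := rfl

theorem eval_ellE (m : Mem) (a b : Expr) :
    (ellE a b).eval m = min (a.eval m) (b.eval m) / m aQ0 0 + 1 := by
  simp only [ellE, eval_add, eval_div, eval_minX, eval_var, eval_const]

theorem div_ite (x : ℕ) (p : Prop) [Decidable p] :
    x / (if p then 1 else 0) = if p then x else 0 := by
  split_ifs <;> simp

/-- Extension by zero of a function on `Fin k`. -/
def extz {k : ℕ} (F : Fin k → ℕ) (i : ℕ) : ℕ := if h : i < k then F ⟨i, h⟩ else 0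

theorem extz_of_lt {k : ℕ} (F : Fin k → ℕ) {i : ℕ} (h : i < k) : extz F i = F ⟨i, h⟩ := dif_pos h

theorem sum_extz {k : ℕ} (F : Fin k → ℕ) : ∑ i ∈ range k, extz F i = ∑ i, F i := by
  rw [sum_range]
  exact sum_congr rfl fun i _ => extz_of_lt F i.2

/-- `sumC` over a `Fin` type. -/
theorem sumC_fin (dst : ℕ) (hd : dst ≠ aJ) (bound e : Expr) (m : Mem) (k : ℕ) (g : Fin k → ℕ)
    (hk : ∀ m', Fr [dst, aJ] m m' → bound.eval m' = k)
    (he : ∀ j : Fin k, ∀ m', Fr [dst, aJ] m m' → m' aJ 0 = j → e.eval m' = g j) :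
    Det (sumC dst bound e) m fun m' => m' dst 0 = ∑ j, g j ∧ Fr [dst, aJ] m m' := by
  rw [← sum_extz]
  exact sumC_det dst hd bound e m k _ hk fun j hj m' f h => by
    rw [extz_of_lt g hj]; exact he ⟨j, hj⟩ m' f h

theorem rowSumC_det {I : Inst} (m : Mem) (hp : Par I m) (x : I.St) (hx : RepX I m x) (e : Expr)
    (i : Fin I.m) (he : ∀ m', Fr [aSUM, aJ] m m' → e.eval m' = i) :
    Det (rowSumC e) m fun m' => m' aSUM 0 = I.rowS x i ∧ Fr [aSUM, aJ] m m' := by
  refine sumC_fin aSUM (by decide) _ _ m (I.m * I.n) _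
    (fun m' f => by rw [eval_var, f aPP (by decide), hp.hPP]) fun s m' f h => ?_
  simp only [eval_div, eval_load, eval_var, eval_eqInd, eval_rowE, div_ite, h, he m' f,
    f aX (by decide), f aN (by decide), hp.hN, hx s, Fin.ext_iff, Fin.coe_divNat]

theorem colSumC_det {I : Inst} (m : Mem) (hp : Par I m) (x : I.St) (hx : RepX I m x) (e : Expr)
    (j : Fin I.n) (he : ∀ m', Fr [aSUM, aJ] m m' → e.eval m' = j) :
    Det (colSumC e) m fun m' => m' aSUM 0 = I.colS x j ∧ Fr [aSUM, aJ] m m' := by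
  refine sumC_fin aSUM (by decide) _ _ m (I.m * I.n) _
    (fun m' f => by rw [eval_var, f aPP (by decide), hp.hPP]) fun s m' f h => ?_
  simp only [eval_div, eval_load, eval_var, eval_eqInd, eval_colE, div_ite, h, he m' f,
    f aX (by decide), f aN (by decide), hp.hN, hx s, Fin.ext_iff, Fin.coe_modNat]

theorem totC_det {I : Inst} (m : Mem) (hp : Par I m) (x : I.St) (hx : RepX I m x) :
    Det totC m fun m' => m' aSUM 0 = I.totS x ∧ Fr [aSUM, aJ] m m' := by
  refine sumC_fin aSUM (by decide) _ _ m (I.m * I.n) _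
    (fun m' f => by rw [eval_var, f aPP (by decide), hp.hPP]) fun s m' f h => ?_
  simp only [eval_load, eval_var, h, f aX (by decide), hx s]

theorem penC_det (m : Mem) (t : ℕ) (ht : m aT 0 = t) (htc : t ≤ m aCAP 0) :
    Det penC m fun m' => m' aNG 0 = m aNG 0 + m aNEG 0 ∧
      m' aPH 0 = m aPH 0 + t * m aNEG 0 / m aELL 0 / m aS 0 := by
  unfold penC
  refine Det.asg_seq (Det.asg_seq ((Det.loop (k := t) (by simp [eval_minE, ht, htc])
    (fun i m' => m' aACC 0 = i * m aNEG 0 ∧ m' aNG 0 = m aNG 0 + m aNEG 0 ∧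
      Fr [aNG, aACC] m m')
    ⟨by simp, by simp, (Fr.set m (by decide) _ _).set_right (by decide) _ _⟩ ?_).seq ?_))
  · rintro i _ m' ⟨h1, h2, f⟩
    exact Det.asg ⟨by simp [h1, f aNEG (by decide), add_mul], by simp [h2],
      f.set_right (by decide) _ _⟩
  · rintro m' ⟨h1, h2, f⟩
    exact Det.asg ⟨by simp [h2],
      by simp [h1, f aPH (by decide), f aELL (by decide), f aS (by decide)]⟩

theorem pen3_det (m : Mem) (t : ℕ) (ht : m aT 0 = t) (htc : t ≤ m aCAP 0) (e1 e2 : Expr)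
    (u l : ℕ) (h1 : e1.eval m = u) (h2 : e2.eval (m.set aNEG 0 u) = l) :
    Det (.seq (asg aNEG e1) (.seq (asg aELL e2) penC)) m fun m' => m' aNG 0 = m aNG 0 + u ∧
      m' aPH 0 = m aPH 0 + t * u / l / m aS 0 := by
  refine Det.asg_seq (Det.asg_seq ?_)
  rw [h1, h2]
  exact (penC_det _ t (by simp [ht]) (by simpa using htc)).mono fun m' h => by simpa using h

theorem RepX.frame {I : Inst} {W : List ℕ} {m m' : Mem} {x : I.St} (h : RepX I m x)
    (f : Fr W m m') (hW : aX ∉ W) : RepX I m' x := fun s => by rw [f aX hW]; exact h s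

theorem phiC_det {I : Inst} (m : Mem) (hp : Par I m) (x : I.St) (hx : RepX I m x) (g t : ℕ)
    (hg : m aGV 0 = g) (ht : m aT 0 = t) (htc : t ≤ I.W ^ 13) :
    Det phiC m fun m' => m' aPH 0 = I.phi g t x ∧ m' aNG 0 = I.ng g x := by
  unfold phiC
  refine Det.asg_seq (Det.asg_seq ?_)
  have f0 : Fr wPhi m ((m.set aPH 0 0).set aNG 0 0) :=
    (Fr.set m (by decide) _ _).set_right (by decide) _ _
  refine (det_forV aI _ _ _ I.m (by simp [hp.hM]) (by decide)
    (fun i m' => m' aPH 0 = ∑ k ∈ range i, extz (fun i => t * I.negR x i / I.ellR i / I.W ^ 8) k ∧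
      m' aNG 0 = ∑ k ∈ range i, extz (fun i => I.negR x i) k ∧ Fr wPhi m m') ?_
    ⟨by simp, by simp, f0⟩ ?_).seq ?_
  · rintro i m' v ⟨h1, h2, f⟩
    exact ⟨by simp [h1], by simp [h2], f.set_right (by decide) _ _⟩
  · rintro i hi m1 h0 ⟨h1, h2, f1⟩
    refine (rowSumC_det m1 (hp.frame f1 (by decide)) x (hx.frame f1 (by decide)) _ ⟨i, hi⟩
      fun m' f => by rw [eval_var, f aI (by decide), h0]).seq ?_
    rintro m2 ⟨h3, f2⟩
    have f3 : Fr wPhi m m2 := f1.trans (f2.mono (by decide))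
    have p2 := hp.frame f3 (by decide)
    have i2 : m2 aI 0 = i := by rw [f2 aI (by decide), h0]
    refine ((pen3_det m2 t (by rw [f3 aT (by decide), ht]) (by rw [p2.hCAP]; exact htc) _ _
      (I.negR x ⟨i, hi⟩) (I.ellR ⟨i, hi⟩) ?_ ?_).frame wPhi (by decide)).mono ?_
    · simp only [eval_sub, eval_var, eval_load, h3, i2, p2.r ⟨i, hi⟩, Inst.negR]
    · simp [eval_ellE, i2, p2.r ⟨i, hi⟩, p2.hCS, p2.hQ0, Inst.ellR]
    · rintro m3 ⟨⟨g1, g2⟩, f4⟩
      refine ⟨?_, ?_, f3.trans f4⟩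
      · rw [g2, f2 aPH (by decide), h1, sum_range_succ, extz_of_lt _ hi, p2.hS]
      · rw [g1, f2 aNG (by decide), h2, sum_range_succ, extz_of_lt _ hi]
  rintro m0 ⟨a1, a2, f0⟩
  rw [sum_extz] at a1 a2
  refine (det_forV aI _ _ _ I.n (by simp [f0 aN (by decide), hp.hN]) (by decide)
    (fun i m' => m' aPH 0 = m0 aPH 0 +
      ∑ k ∈ range i, extz (fun i => t * I.negC x i / I.ellC i / I.W ^ 8) k ∧
      m' aNG 0 = m0 aNG 0 + ∑ k ∈ range i, extz (fun i => I.negC x i) k ∧ Fr wPhi m m') ?_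
    ⟨by simp, by simp, f0⟩ ?_).seq ?_
  · rintro i m' v ⟨h1, h2, f⟩
    exact ⟨by simp [h1], by simp [h2], f.set_right (by decide) _ _⟩
  · rintro i hi m1 h0 ⟨h1, h2, f1⟩
    refine (colSumC_det m1 (hp.frame f1 (by decide)) x (hx.frame f1 (by decide)) _ ⟨i, hi⟩
      fun m' f => by rw [eval_var, f aI (by decide), h0]).seq ?_
    rintro m2 ⟨h3, f2⟩
    have f3 : Fr wPhi m m2 := f1.trans (f2.mono (by decide))
    have p2 := hp.frame f3 (by decide)
    have i2 : m2 aI 0 = i := by rw [f2 aI (by decide), h0]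
    refine ((pen3_det m2 t (by rw [f3 aT (by decide), ht]) (by rw [p2.hCAP]; exact htc) _ _
      (I.negC x ⟨i, hi⟩) (I.ellC ⟨i, hi⟩) ?_ ?_).frame wPhi (by decide)).mono ?_
    · simp only [eval_sub, eval_var, eval_load, h3, i2, p2.c ⟨i, hi⟩, Inst.negC]
    · simp [eval_ellE, i2, p2.c ⟨i, hi⟩, p2.hRS, p2.hQ0, Inst.ellC]
    · rintro m3 ⟨⟨g1, g2⟩, f4⟩
      refine ⟨?_, ?_, f3.trans f4⟩
      · rw [g2, f2 aPH (by decide), h1, sum_range_succ, extz_of_lt _ hi, p2.hS, add_assoc]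
      · rw [g1, f2 aNG (by decide), h2, sum_range_succ, extz_of_lt _ hi, add_assoc]
  rintro m1 ⟨h1, h2, f1⟩
  rw [sum_extz] at h1 h2
  refine (totC_det m1 (hp.frame f1 (by decide)) x (hx.frame f1 (by decide))).seq ?_
  rintro m2 ⟨h3, f2⟩
  have f3 : Fr wPhi m m2 := f1.trans (f2.mono (by decide))
  have p2 := hp.frame f3 (by decide)
  refine (pen3_det m2 t (by rw [f3 aT (by decide), ht]) (by rw [p2.hCAP]; exact htc) _ _
    (I.neg0 g x) I.ell0 ?_ ?_).mono ?_
  · simp only [eval_sub, eval_var, eval_add, h3, p2.hNN, p2.hRS, p2.hCS, f3 aGV (by decide), hg,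
      Inst.neg0]
  · simp [eval_ellE, p2.hCS, p2.hRS, p2.hQ0, Inst.ell0]
  · rintro m3 ⟨g1, g2⟩
    refine ⟨?_, ?_⟩
    · rw [g2, f2 aPH (by decide), h1, a1, p2.hS, Inst.phi]
    · rw [g1, f2 aNG (by decide), h2, a2, Inst.ng]

theorem Inst.cell_div_mod_r (I : Inst) (s : I.Cell) : I.cell s.divNat s.modNat = s :=
  finProdFinEquiv.apply_symm_apply s

/-- Rule for a loop over the cells that writes one output cell per round. -/
theorem det_out {I : Inst} (m : Mem) (hp : Par I m) (body : Cmd) (hI : aI ∉ body.writes)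
    (hw : ∀ a ∈ body.writes, a ∈ wTab) (X : I.Tab)
    (hstep : ∀ (s : I.Cell) (m' : Mem), m' aI 0 = s.val → Fr wTab m m' → Det body m'
      fun m'' => ∀ k, m'' aOUT k = if k = s.val then X s.divNat s.modNat else m' aOUT k) :
    Det (forV aI (var aPP) body) m fun m' => RepOut I m' X := by
  refine (det_forV aI _ _ _ (I.m * I.n) (by simp [hp.hPP]) hI
    (fun i m' => (∀ s : I.Cell, s.val < i → m' aOUT s = X s.divNat s.modNat) ∧ Fr wTab m m') ?_
    ⟨by simp, Fr.refl _ _⟩ ?_).mono fun m' h s => h.1 s s.2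
  · rintro i m' v ⟨h1, f⟩
    exact ⟨by simpa using h1, f.set_right (by decide) _ _⟩
  · rintro i hi m1 h0 ⟨h1, f1⟩
    refine ((hstep ⟨i, hi⟩ m1 h0 f1).frame wTab hw).mono ?_
    rintro m2 ⟨h2, f2⟩
    refine ⟨fun s hs => ?_, f1.trans f2⟩
    rw [h2]
    by_cases h : s.val = i
    · rw [if_pos h, show s = ⟨i, hi⟩ from Fin.ext h]
    · rw [if_neg h, h1 s (by omega)]

theorem tabC_det {I : Inst} (m : Mem) (hp : Par I m) (x : I.St) (hx : RepX I m x) :
    Det tabC m fun m' => RepOut I m' (I.tab x) := by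
  refine det_out m hp _ (by decide) (by decide) _ fun s m1 h0 f1 => ?_
  have p1 := hp.frame f1 (by decide)
  have x1 := hx.frame f1 (by decide)
  refine (rowSumC_det m1 p1 x x1 _ s.divNat fun m' f => by
    rw [eval_rowE, f aI (by decide), f aN (by decide), h0, p1.hN, Fin.coe_divNat]).seq ?_
  rintro m2 ⟨h2, f2⟩
  refine Det.asg_seq ?_
  generalize hm3 : m2.set aTMP 0 _ = m3
  have f3 : Fr [aSUM, aJ, aTMP, aTMP2] m1 m3 := by
    rw [← hm3]; exact (f2.mono (by decide)).set_right (by decide) _ _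
  have h3 : m3 aTMP 0 = I.rowS x s.divNat := by rw [← hm3]; simp [h2]
  clear hm3
  refine (colSumC_det m3 (p1.frame f3 (by decide)) x (x1.frame f3 (by decide)) _ s.modNat
    fun m' f => by rw [eval_colE, f aI (by decide), f aN (by decide), f3 aI (by decide),
      f3 aN (by decide), h0, p1.hN, Fin.coe_modNat]).seq ?_
  rintro m4 ⟨h4, f4⟩
  refine Det.asg_seq ?_
  generalize hm5 : m4.set aTMP2 0 _ = m5
  have f5 : Fr [aSUM, aJ, aTMP, aTMP2] m1 m5 := by
    rw [← hm5]; exact (f3.trans (f4.mono (by decide))).set_right (by decide) _ _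
  have h5 : m5 aTMP2 0 = I.colS x s.modNat := by rw [← hm5]; simp [h4]
  have h5' : m5 aTMP 0 = I.rowS x s.divNat := by rw [← hm5]; simp [f4 aTMP (by decide), h3]
  clear hm5
  refine (totC_det m5 (p1.frame f5 (by decide)) x (x1.frame f5 (by decide))).seq ?_
  rintro m6 ⟨h6, f6⟩
  have f7 : Fr [aSUM, aJ, aTMP, aTMP2] m1 m6 := f5.trans (f6.mono (by decide))
  have p6 := p1.frame f7 (by decide)
  have x6 := x1.frame f7 (by decide)
  have i6 : m6 aI 0 = s := by rw [f7 aI (by decide), h0]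
  have r6 : (rowE aI).eval m6 = s.divNat := by rw [eval_rowE, i6, p6.hN, Fin.coe_divNat]
  have c6 : (colE aI).eval m6 = s.modNat := by rw [eval_colE, i6, p6.hN, Fin.coe_modNat]
  have o6 : m6 aOUT = m1 aOUT := f7 aOUT (by decide)
  have e1 : (eqInd (rowE aI) (var aI0)).eval m6 = if s.divNat = I.i0 then 1 else 0 := by
    simp only [eval_eqInd, r6, eval_var, p6.hI0, Fin.ext_iff]
  have e2 : (eqInd (colE aI) (var aJ0)).eval m6 = if s.modNat = I.j0 then 1 else 0 := by
    simp only [eval_eqInd, c6, eval_var, p6.hJ0, Fin.ext_iff]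
  by_cases c1 : s.divNat = I.i0 <;> by_cases c2 : s.modNat = I.j0
  · refine Det.ifz_ne (by simp [e1, c1]) (Det.ifz_ne (by simp [e2, c2]) (Det.store fun k => ?_))
    simp only [Mem.set_same, eval_var, eval_sub, eval_add, i6, o6, h6, p6.hRS, p6.hCS, p6.hNN,
      Inst.tab, if_pos c1, if_pos c2]
  · refine Det.ifz_ne (by simp [e1, c1]) (Det.ifz_zero (by simp [e2, c2]) (Det.store fun k => ?_))
    simp only [Mem.set_same, eval_var, eval_sub, eval_load, i6, o6, c6, p6.c, h5,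
      f6 aTMP2 (by decide), Inst.tab, if_pos c1, if_neg c2]
  · refine Det.ifz_zero (by simp [e1, c1]) (Det.ifz_ne (by simp [e2, c2]) (Det.store fun k => ?_))
    simp only [Mem.set_same, eval_var, eval_sub, eval_load, i6, o6, r6, p6.r, h5',
      f6 aTMP (by decide), Inst.tab, if_neg c1, if_pos c2]
  · refine Det.ifz_zero (by simp [e1, c1]) (Det.ifz_zero (by simp [e2, c2]) (Det.store fun k => ?_))
    simp only [Mem.set_same, eval_var, eval_load, i6, o6, x6 s, Inst.tab, if_neg c1, if_neg c2,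
      Inst.cell_div_mod_r]

theorem nwC_det {I : Inst} (m : Mem) (hp : Par I m) :
    Det nwC m fun m' => RepOut I m' I.nw := by
  refine det_out m hp _ (by decide) (by decide) _ fun s m1 h0 f1 => ?_
  have p1 := hp.frame f1 (by decide)
  refine (sumC_fin aTMP (by decide) _ _ m1 I.m (fun i' => if i' < s.divNat then I.r i' else 0)
    (fun m' f => by rw [eval_var, f aM (by decide), p1.hM]) fun j m' f h => ?_).seq ?_
  · simp only [eval_div, eval_load, eval_var, eval_ltInd, eval_rowE, div_ite, h, f 1 (by decide),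
      f aI (by decide), f aN (by decide), h0, p1.hN, p1.r, Fin.lt_def, Fin.coe_divNat]
  rintro m2 ⟨h2, f2⟩
  have p2 := p1.frame f2 (by decide)
  have i2 : m2 aI 0 = s := by rw [f2 aI (by decide), h0]
  refine (sumC_fin aTMP2 (by decide) _ _ m2 I.n (fun j' => if j' < s.modNat then I.c j' else 0)
    (fun m' f => by rw [eval_var, f aN (by decide), p2.hN]) fun j m' f h => ?_).seq ?_
  · simp only [eval_div, eval_load, eval_var, eval_ltInd, eval_colE, div_ite, h, f 2 (by decide),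
      f aI (by decide), f aN (by decide), i2, p2.hN, p2.c, Fin.lt_def, Fin.coe_modNat]
  rintro m3 ⟨h3, f3⟩
  have p3 := p2.frame f3 (by decide)
  have i3 : m3 aI 0 = s := by rw [f3 aI (by decide), i2]
  have r3 : (rowE aI).eval m3 = s.divNat := by rw [eval_rowE, i3, p3.hN, Fin.coe_divNat]
  have c3 : (colE aI).eval m3 = s.modNat := by rw [eval_colE, i3, p3.hN, Fin.coe_modNat]
  refine Det.store fun k => ?_
  simp only [Mem.set_same, eval_var, eval_sub, eval_add, eval_load, eval_minX, eval_maxX, i3, r3,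
    c3, p3.r, p3.c, h3, f3 aTMP (by decide), h2, f3 aOUT (by decide), f2 aOUT (by decide),
    Inst.nw, Inst.preR, Inst.preC]

end Vale.Agent.P328
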