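import Vale.Agent.P328.Tables

/-! At the final level the tables carry most of the fine weight. -/

namespace Vale.Agent.P328

open Finset

section Core

variable {m n : ℕ}

/-- Integer tables with given margins and entries bounded below. -/
noncomputable def repU (r : Fin m → ℕ) (c : Fin n → ℕ) (B : ℕ) : Finset (Fin m → Fin n → ℤ) :=
  (Fintype.piFinset fun i => Fintype.piFinset fun _ => Icc (-(B : ℤ)) (r i + n * B)).filter
    fun X => (∀ i, ∑ j, X i j = r i) ∧ ∀ j, ∑ i, X i j = c j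

theorem mem_repU {r : Fin m → ℕ} {c : Fin n → ℕ} {B : ℕ} {X : Fin m → Fin n → ℤ} :
    X ∈ repU r c B ↔
      (∀ i j, -(B : ℤ) ≤ X i j) ∧ (∀ i, ∑ j, X i j = r i) ∧ ∀ j, ∑ i, X i j = c j := by
  unfold repU
  simp only [mem_filter, Fintype.mem_piFinset, mem_Icc]
  constructor
  · rintro ⟨h1, h2⟩
    exact ⟨fun i j => (h1 i j).1, h2⟩
  · rintro ⟨h1, h2, h3⟩
    refine ⟨fun i j => ⟨h1 i j, ?_⟩, h2, h3⟩
    have h4 := Finset.single_le_sum (f := fun j => X i j + B)
      (fun j _ => by linarith [h1 i j]) (mem_univ j)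
    simp only [sum_add_distrib, h2, sum_const, card_univ, Fintype.card_fin, nsmul_eq_mul] at h4
    have : (0 : ℤ) ≤ B := Int.natCast_nonneg B
    linarith

/-- The two by two move. -/
def repMv (i i' : Fin m) (j j' : Fin n) (τ : ℤ) (X : Fin m → Fin n → ℤ) : Fin m → Fin n → ℤ :=
  fun a b => X a b + τ * (((if a = i then 1 else 0) - if a = i' then 1 else 0)
    * ((if b = j then 1 else 0) - if b = j' then 1 else 0))

theorem repMv_inj (i i' : Fin m) (j j' : Fin n) (τ : ℤ) :
    Function.Injective (repMv i i' j j' τ) := by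
  intro X Y h
  funext a b
  exact add_right_cancel (congrFun (congrFun h a) b)

theorem repMv_row (i i' : Fin m) (j j' : Fin n) (τ : ℤ) (X : Fin m → Fin n → ℤ) (a : Fin m) :
    ∑ b, repMv i i' j j' τ X a b = ∑ b, X a b := by
  simp only [repMv, sum_add_distrib, ← Finset.mul_sum, sum_sub_distrib, sum_ite_eq', mem_univ,
    if_true, sub_self, mul_zero, add_zero]

theorem repMv_col (i i' : Fin m) (j j' : Fin n) (τ : ℤ) (X : Fin m → Fin n → ℤ) (b : Fin n) :
    ∑ a, repMv i i' j j' τ X a b = ∑ a, X a b := by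
  simp only [repMv, sum_add_distrib, ← Finset.mul_sum, ← Finset.sum_mul, sum_sub_distrib,
    sum_ite_eq', mem_univ, if_true, sub_self, mul_zero, zero_mul, add_zero]

theorem rep_exists {k : ℕ} (v : Fin k → ℤ) (j : Fin k) (τ s : ℤ) (hs : ∑ b, v b = s)
    (hj : v j < 0) (hτ : 1 ≤ τ) (h : k * (τ - 1) ≤ s) : ∃ j', τ ≤ v j' := by
  by_contra hn
  push Not at hn
  have h1 := Finset.sum_lt_sum (s := univ) (f := v) (g := fun _ => τ - 1)
    (fun b _ => by linarith [hn b]) ⟨j, mem_univ _, by linarith⟩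
  simp only [sum_const, card_univ, Fintype.card_fin, nsmul_eq_mul] at h1
  linarith

theorem rep_move {r : Fin m → ℕ} {c : Fin n → ℕ} {B : ℕ} (w : (Fin m → Fin n → ℤ) → ℝ)
    (hw : ∀ X, 0 ≤ w X) (i : Fin m) (j : Fin n) (τ : ℤ) (hτ : 1 ≤ τ)
    (hr : n * (τ - 1) ≤ r i) (hc : m * (τ - 1) ≤ c j) (P P' : ℤ → Prop) [DecidablePred P]
    [DecidablePred P'] (hP : ∀ a, P a → a < 0) (hP' : ∀ a, P a → P' (a + τ)) (ρ : ℝ) (hρ : 0 ≤ ρ)
    (hcmp : ∀ X Y : Fin m → Fin n → ℤ, P (X i j) → Y i j = X i j + τ →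
      (∀ a b, (-Y a b).toNat ≤ (-X a b).toNat) → w X ≤ ρ * w Y) :
    ∑ X ∈ (repU r c B).filter (fun X => P (X i j)), w X
      ≤ m * n * (ρ * ∑ Y ∈ (repU r c B).filter (fun Y => P' (Y i j)), w Y) := by
  have h1 : ∀ X ∈ (repU r c B).filter (fun X => P (X i j)),
      w X ≤ ∑ p : Fin m × Fin n, if τ ≤ X i p.2 ∧ τ ≤ X p.1 j then w X else 0 := by
    intro X hX
    obtain ⟨hU, hX⟩ := mem_filter.mp hX
    obtain ⟨-, a1, a2⟩ := mem_repU.mp hU
    obtain ⟨j', hj'⟩ := rep_exists (fun b => X i b) j τ _ (a1 i) (hP _ hX) hτ hr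
    obtain ⟨i', hi'⟩ := rep_exists (fun a => X a j) i τ _ (a2 j) (hP _ hX) hτ hc
    have := Finset.single_le_sum
      (f := fun p : Fin m × Fin n => if τ ≤ X i p.2 ∧ τ ≤ X p.1 j then w X else 0)
      (fun p _ => by split_ifs; exacts [hw X, le_rfl]) (mem_univ (i', j'))
    simpa [hi', hj'] using this
  refine (Finset.sum_le_sum h1).trans ?_
  rw [Finset.sum_comm]
  have h2 : ∀ p : Fin m × Fin n, (∑ X ∈ (repU r c B).filter (fun X => P (X i j)),
      if τ ≤ X i p.2 ∧ τ ≤ X p.1 j then w X else 0)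
      ≤ ρ * ∑ Y ∈ (repU r c B).filter (fun Y => P' (Y i j)), w Y := by
    rintro ⟨i', j'⟩
    rw [← Finset.sum_filter]
    have key : ∀ X ∈ ((repU r c B).filter (fun X => P (X i j))).filter
        (fun X => τ ≤ X i j' ∧ τ ≤ X i' j), repMv i i' j j' τ X i j = X i j + τ ∧
          ∀ a b, X a b ≤ repMv i i' j j' τ X a b ∨ 0 ≤ repMv i i' j j' τ X a b := by
      intro X hX
      obtain ⟨hX, b1, b2⟩ := mem_filter.mp hX
      have b3 := hP _ (mem_filter.mp hX).2
      have hi : i ≠ i' := by rintro rfl; omega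
      have hj : j ≠ j' := by rintro rfl; omega
      refine ⟨by simp [repMv, hi, hj], fun a b => ?_⟩
      unfold repMv
      by_cases e1 : a = i
      · subst e1
        by_cases e2 : b = j
        · subst e2; left; simp [hi, hj]; omega
        · by_cases e3 : b = j'
          · subst e3; right; simp [hi, e2]; omega
          · left; simp [e2, e3]
      · by_cases e4 : a = i'
        · subst e4
          by_cases e2 : b = j
          · subst e2; right; simp [e1, hj]; omega
          · by_cases e3 : b = j'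
            · subst e3; left; simp [e1, e2]; omega
            · left; simp [e2, e3]
        · left; simp [e1, e4]
    calc _ ≤ ∑ X ∈ ((repU r c B).filter (fun X => P (X i j))).filter
          (fun X => τ ≤ X i j' ∧ τ ≤ X i' j), ρ * w (repMv i i' j j' τ X) := by
          refine Finset.sum_le_sum fun X hX => ?_
          obtain ⟨k1, k2⟩ := key X hX
          refine hcmp X _ (mem_filter.mp (mem_filter.mp hX).1).2 k1 fun a b => ?_
          rcases k2 a b with h | h <;> omega
      _ = ρ * ∑ Y ∈ (((repU r c B).filter (fun X => P (X i j))).filter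
          (fun X => τ ≤ X i j' ∧ τ ≤ X i' j)).image (repMv i i' j j' τ), w Y := by
          rw [Finset.sum_image fun X _ Y _ h => repMv_inj _ _ _ _ _ h, Finset.mul_sum]
      _ ≤ _ := by
          refine mul_le_mul_of_nonneg_left
            (Finset.sum_le_sum_of_subset_of_nonneg ?_ fun Y _ _ => hw Y) hρ
          intro Y hY
          obtain ⟨X, hX, rfl⟩ := mem_image.mp hY
          obtain ⟨k1, k2⟩ := key X hX
          obtain ⟨hU, hPX⟩ := mem_filter.mp (mem_filter.mp hX).1
          obtain ⟨a0, a1, a2⟩ := mem_repU.mp hU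
          refine mem_filter.mpr ⟨mem_repU.mpr ⟨fun a b => ?_, fun a => ?_, fun b => ?_⟩, ?_⟩
          · have := a0 a b
            rcases k2 a b with h | h <;> omega
          · rw [repMv_row, a1]
          · rw [repMv_col, a2]
          · rw [k1]; exact hP' _ hPX
  refine (Finset.sum_le_sum fun p _ => h2 p).trans (le_of_eq ?_)
  simp

/-- The penalty weight of an integer table. -/
noncomputable def repW (κ : ℝ) (ell : Fin m → Fin n → ℕ) (X : Fin m → Fin n → ℤ) : ℝ :=
  Real.exp (-(κ * ∑ a, ∑ b, ((-X a b).toNat : ℝ) / ell a b))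

theorem repW_mono {κ : ℝ} (hκ : 0 ≤ κ) (ell : Fin m → Fin n → ℕ) {X Y : Fin m → Fin n → ℤ}
    (h : ∀ a b, (-Y a b).toNat ≤ (-X a b).toNat) : repW κ ell X ≤ 1 * repW κ ell Y := by
  rw [one_mul]
  unfold repW
  gcongr with a _ b _
  exact h a b

theorem repW_deep {κ : ℝ} (hκ : 0 ≤ κ) (ell : Fin m → Fin n → ℕ) {X Y : Fin m → Fin n → ℤ}
    (h : ∀ a b, (-Y a b).toNat ≤ (-X a b).toNat) {i : Fin m} {j : Fin n} (hl : 0 < ell i j)
    (h1 : X i j ≤ -(ell i j : ℤ)) (h2 : Y i j = X i j + ell i j) :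
    repW κ ell X ≤ Real.exp (-κ) * repW κ ell Y := by
  unfold repW
  rw [← Real.exp_add, Real.exp_le_exp]
  have e1 : (1 : ℝ) = ∑ a, ∑ b, if a = i ∧ b = j then (1 : ℝ) else 0 := by
    simp [ite_and]
  have e2 : (∑ a, ∑ b, ((-Y a b).toNat : ℝ) / ell a b) + 1
      ≤ ∑ a, ∑ b, ((-X a b).toNat : ℝ) / ell a b := by
    rw [e1, ← sum_add_distrib]
    refine Finset.sum_le_sum fun a _ => ?_
    rw [← sum_add_distrib]
    refine Finset.sum_le_sum fun b _ => ?_
    split_ifs with hab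
    · obtain ⟨rfl, rfl⟩ := hab
      have e3 : (-X a b).toNat = (-Y a b).toNat + ell a b := by omega
      have e4 : (0 : ℝ) < ell a b := by exact_mod_cast hl
      rw [e3]
      push_cast
      rw [add_div, div_self e4.ne']
    · rw [add_zero]
      gcongr
      exact h a b
  nlinarith

theorem rep_cell {r : Fin m → ℕ} {c : Fin n → ℕ} {B W : ℕ} (hW : m + n < W) (h2 : 2 ≤ W) {κ : ℝ}
    (hκ : 0 ≤ κ) (hl : Real.exp (-κ) ≤ 1 / (W : ℝ) ^ 4) (i : Fin m) (j : Fin n) :
    ∑ X ∈ (repU r c B).filter (fun X => X i j < 0),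
        repW κ (fun a b => min (r a) (c b) / W ^ 6 + 1) X
      ≤ 2 * (m * n) / (W : ℝ) ^ 4 *
        ∑ X ∈ repU r c B, repW κ (fun a b => min (r a) (c b) / W ^ 6 + 1) X := by
  set ell : Fin m → Fin n → ℕ := fun a b => min (r a) (c b) / W ^ 6 + 1 with hell
  set w := repW κ ell with hw
  have hw0 : ∀ X, 0 ≤ w X := fun X => (Real.exp_pos _).le
  set Z := ∑ X ∈ repU r c B, w X with hZ
  have hZ0 : 0 ≤ Z := Finset.sum_nonneg fun X _ => hw0 X
  obtain ⟨q, hq1, hL⟩ : ∃ q : ℕ, W ^ 6 * q ≤ min (r i) (c j) ∧ ell i j = q + 1 :=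
    ⟨min (r i) (c j) / W ^ 6, Nat.mul_div_le _ _, rfl⟩
  have hW0 : (0 : ℝ) < W := by exact_mod_cast (by omega : 0 < W)
  have adm : ∀ τ : ℕ, W * τ ≤ W ^ 6 * q →
      (n : ℤ) * ((τ + 1 : ℕ) - 1) ≤ r i ∧ (m : ℤ) * ((τ + 1 : ℕ) - 1) ≤ c j := by
    intro τ hτ
    have e1 : n * τ ≤ r i :=
      ((Nat.mul_le_mul_right τ (by omega)).trans (hτ.trans hq1)).trans (min_le_left _ _)
    have e2 : m * τ ≤ c j :=
      ((Nat.mul_le_mul_right τ (by omega)).trans (hτ.trans hq1)).trans (min_le_right _ _)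
    push_cast
    rw [add_sub_cancel_right]
    exact ⟨by exact_mod_cast e1, by exact_mod_cast e2⟩
  have deep : ∑ X ∈ (repU r c B).filter (fun X => X i j ≤ -((q + 1 : ℕ) : ℤ)), w X
      ≤ m * n * (1 / (W : ℝ) ^ 4 * Z) := by
    obtain ⟨a1, a2⟩ := adm q (Nat.mul_le_mul_right q (Nat.le_self_pow (by norm_num) W))
    have := rep_move (r := r) (c := c) (B := B) w hw0 i j ((q + 1 : ℕ) : ℤ) (by omega) a1 a2
      (fun a => a ≤ -((q + 1 : ℕ) : ℤ)) (fun _ => True) (fun a ha => by omega) (fun _ _ => trivial)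
      (Real.exp (-κ)) (Real.exp_pos _).le
      (fun X Y h1 h2 h3 => repW_deep hκ ell h3 (Nat.succ_pos _) (hL ▸ h1) (hL ▸ h2))
    rw [Finset.filter_true] at this
    refine this.trans ?_
    gcongr
  have shallow : ∑ X ∈ (repU r c B).filter (fun X => -((q + 1 : ℕ) : ℤ) < X i j ∧ X i j < 0), w X
      ≤ m * n * (1 / (W : ℝ) ^ 4 * Z) := by
    rcases Nat.eq_zero_or_pos q with h0 | h0
    · rw [Finset.sum_eq_zero]
      · positivity
      · intro X hX
        have := (mem_filter.mp hX).2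
        omega
    have step : ∀ u ∈ range (W ^ 4),
        ∑ X ∈ (repU r c B).filter (fun X => -((q + 1 : ℕ) : ℤ) < X i j ∧ X i j < 0), w X
        ≤ m * n * (1 * ∑ Y ∈ (repU r c B).filter (fun Y => Y i j / ((q + 1 : ℕ) : ℤ) = u), w Y) := by
      intro u hu
      rw [mem_range] at hu
      obtain ⟨a1, a2⟩ := adm (u * (q + 1) + q) (by
        have e1 : u * (q + 1) + q ≤ W ^ 4 * (W * q) := by
          calc u * (q + 1) + q ≤ (u + 1) * (q + 1) := by nlinarith
            _ ≤ W ^ 4 * (W * q) := Nat.mul_le_mul hu (by nlinarith)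
        calc W * (u * (q + 1) + q) ≤ W * (W ^ 4 * (W * q)) := Nat.mul_le_mul_left _ e1
          _ = W ^ 6 * q := by ring)
      refine rep_move (r := r) (c := c) (B := B) w hw0 i j ((u * (q + 1) + q + 1 : ℕ) : ℤ)
        (by omega) a1 a2 (fun a => -((q + 1 : ℕ) : ℤ) < a ∧ a < 0)
        (fun a => a / ((q + 1 : ℕ) : ℤ) = u) (fun a ha => ha.2) (fun a ha => ?_) 1 zero_le_one
        (fun X Y _ _ h3 => repW_mono hκ ell h3)
      have e1 : a + ((u * (q + 1) + q + 1 : ℕ) : ℤ)
          = (a + ((q + 1 : ℕ) : ℤ)) + u * ((q + 1 : ℕ) : ℤ) := by push_cast; ring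
      rw [e1, Int.add_mul_ediv_right _ _ (by omega), Int.ediv_eq_zero_of_lt (by omega) (by omega),
        zero_add]
    have h3 := Finset.sum_le_sum step
    rw [sum_const, card_range, nsmul_eq_mul, ← Finset.mul_sum] at h3
    have h4 : ∑ u ∈ range (W ^ 4),
        1 * ∑ Y ∈ (repU r c B).filter (fun Y => Y i j / ((q + 1 : ℕ) : ℤ) = u), w Y ≤ Z := by
      simp only [one_mul, Finset.sum_filter]
      rw [Finset.sum_comm]
      refine Finset.sum_le_sum fun Y _ => ?_
      rw [← Finset.sum_filter, sum_const, nsmul_eq_mul]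
      refine mul_le_of_le_one_left (hw0 Y) ?_
      have : ((range (W ^ 4)).filter fun u : ℕ => Y i j / ((q + 1 : ℕ) : ℤ) = u).card ≤ 1 :=
        Finset.card_le_one.mpr fun a ha b hb => by
          have e1 := (mem_filter.mp ha).2
          have e2 := (mem_filter.mp hb).2
          omega
      exact_mod_cast this
    have h5 := h3.trans (mul_le_mul_of_nonneg_left h4 (by positivity))
    rw [Nat.cast_pow] at h5
    rw [one_div, mul_left_comm, ← div_eq_inv_mul, le_div_iff₀ (by positivity)]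
    linarith
  have split : ∑ X ∈ (repU r c B).filter (fun X => X i j < 0), w X
      = ∑ X ∈ (repU r c B).filter (fun X => X i j ≤ -((q + 1 : ℕ) : ℤ)), w X
        + ∑ X ∈ (repU r c B).filter (fun X => -((q + 1 : ℕ) : ℤ) < X i j ∧ X i j < 0), w X := by
    simp only [Finset.sum_filter, ← sum_add_distrib]
    refine Finset.sum_congr rfl fun X _ => ?_
    split_ifs <;> first | omega | simp
  rw [split]
  refine (add_le_add deep shallow).trans (le_of_eq ?_)
  ring

theorem rep_core {r : Fin m → ℕ} {c : Fin n → ℕ} {B W : ℕ} (hW : m + n < W) (h2 : 2 ≤ W)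
    (hc : 4 * (m * n) ≤ W ^ 2) {κ : ℝ} (hκ : 0 ≤ κ) (hl : Real.exp (-κ) ≤ 1 / (W : ℝ) ^ 4) :
    ∑ X ∈ repU r c B, repW κ (fun a b => min (r a) (c b) / W ^ 6 + 1) X
      ≤ 8 / 7 * ((tables r c).card : ℝ) := by
  have hcell := rep_cell (r := r) (c := c) (B := B) hW h2 hκ hl
  set w := repW κ (fun a b => min (r a) (c b) / W ^ 6 + 1) with hw
  have hw0 : ∀ X, 0 ≤ w X := fun X => (Real.exp_pos _).le
  have hw1 : ∀ X, w X ≤ 1 := fun X => Real.exp_le_one_iff.mpr (neg_nonpos.mpr (by positivity))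
  set Z := ∑ X ∈ repU r c B, w X with hZ
  have hZ0 : 0 ≤ Z := Finset.sum_nonneg fun X _ => hw0 X
  have hW0 : (0 : ℝ) < W := by exact_mod_cast (by omega : 0 < W)
  have h3 : Z ≤ ∑ X ∈ repU r c B, ((if ∀ a b, 0 ≤ X a b then (1 : ℝ) else 0)
      + ∑ p : Fin m × Fin n, if X p.1 p.2 < 0 then w X else 0) := by
    refine Finset.sum_le_sum fun X _ => ?_
    have hnn : ∀ p ∈ (univ : Finset (Fin m × Fin n)),
        (0 : ℝ) ≤ if X p.1 p.2 < 0 then w X else 0 := fun p _ => by
      split_ifs; exacts [hw0 X, le_rfl]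
    split_ifs with h
    · linarith [hw1 X, Finset.sum_nonneg hnn]
    · push Not at h
      obtain ⟨a, b, hab⟩ := h
      have := Finset.single_le_sum hnn (mem_univ (a, b))
      rw [if_pos hab] at this
      linarith
  rw [sum_add_distrib, Finset.sum_comm, Finset.sum_boole] at h3
  have h4 : #{X ∈ repU r c B | ∀ a b, 0 ≤ X a b} ≤ (tables r c).card := by
    refine Finset.card_le_card_of_injOn (fun X a b => (X a b).toNat) ?_ ?_
    · intro X hX
      obtain ⟨hU, hX⟩ := mem_filter.mp (mem_coe.mp hX)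
      obtain ⟨-, a1, a2⟩ := mem_repU.mp hU
      refine mem_coe.mpr (mem_tables.mpr ⟨fun a => ?_, fun b => ?_⟩)
      · have := a1 a
        zify
        simpa only [Int.toNat_of_nonneg (hX _ _)] using this
      · have := a2 b
        zify
        simpa only [Int.toNat_of_nonneg (hX _ _)] using this
    · intro X hX Y hY h
      have e1 := (mem_filter.mp (mem_coe.mp hX)).2
      have e2 := (mem_filter.mp (mem_coe.mp hY)).2
      funext a b
      have := congrFun (congrFun h a) b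
      have := e1 a b
      have := e2 a b
      simp only at *
      omega
  have h5 : ∑ p : Fin m × Fin n, ∑ X ∈ repU r c B, (if X p.1 p.2 < 0 then w X else 0)
      ≤ m * n * (2 * (m * n) / (W : ℝ) ^ 4 * Z) := by
    refine (Finset.sum_le_sum fun p _ => (Finset.sum_filter _ _).symm.trans_le
      (hcell p.1 p.2)).trans (le_of_eq ?_)
    simp
  have h6 : (m : ℝ) * n * (2 * (m * n) / (W : ℝ) ^ 4) ≤ 1 / 8 := by
    have e1 : 4 * ((m : ℝ) * n) ≤ (W : ℝ) ^ 2 := by exact_mod_cast hc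
    have e2 := pow_le_pow_left₀ (by positivity) e1 2
    rw [← mul_div_assoc, div_le_iff₀ (by positivity)]
    nlinarith
  have h7 := mul_le_mul_of_nonneg_right h6 hZ0
  have h8 : (#{X ∈ repU r c B | ∀ a b, 0 ≤ X a b} : ℝ) ≤ (tables r c).card := by exact_mod_cast h4
  nlinarith

end Core

theorem Inst.repair {I : Inst} (h : I.OK) :
    ∑ x ∈ box I.M, I.wf I.T0 x ≤ 8 / 7 * ((tables I.r I.c).card : ℝ) := by
  obtain ⟨B, hB⟩ : ∃ B : ℕ, ∀ x ∈ box I.M, ∀ i j, -(B : ℤ) ≤ I.tabZ x i j := by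
    refine ⟨∑ x ∈ box I.M, ∑ i, ∑ j, (I.tabZ x i j).natAbs, fun x hx i j => ?_⟩
    have e1 := Finset.single_le_sum (f := fun x => ∑ i, ∑ j, (I.tabZ x i j).natAbs)
      (fun _ _ => Nat.zero_le _) hx
    have e2 := Finset.single_le_sum (f := fun i => ∑ j, (I.tabZ x i j).natAbs)
      (fun _ _ => Nat.zero_le _) (mem_univ i)
    have e3 := Finset.single_le_sum (f := fun j => (I.tabZ x i j).natAbs)
      (fun _ _ => Nat.zero_le _) (mem_univ j)
    have e4 := e3.trans (e2.trans e1)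
    exact (show ∀ S : ℕ, (I.tabZ x i j).natAbs ≤ S → -(S : ℤ) ≤ I.tabZ x i j from
      fun S hS => by omega) _ e4
  have hWr := Inst.W_real h
  set κ : ℝ := I.T0 * (-Real.log I.th) / (I.W : ℝ) ^ 8 with hκ
  have hκ0 : 0 ≤ κ := by
    have := neg_nonneg.mpr (Inst.log_th_nonpos h)
    positivity
  have hl : Real.exp (-κ) ≤ 1 / (I.W : ℝ) ^ 4 := by
    have e1 : -κ = Real.log I.th * ((I.W ^ 2 * (4 * I.b) : ℕ) : ℝ) := by
      rw [hκ, Inst.T0]
      push_cast
      field_simp
    rw [e1, ← Inst.th_pow_eq h, pow_mul]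
    refine (pow_le_pow_left₀ (pow_pos (Inst.th_pos h) _).le (Inst.th_pow_le_half h) _).trans
      (le_of_eq ?_)
    rw [Inst.W, one_div_pow]
    push_cast
    rw [← pow_mul, mul_comm]
  refine le_trans ?_ (rep_core (r := I.r) (c := I.c) (B := B) h.hW (by linarith [h.h32])
    (Inst.cells_le h) hκ0 hl)
  have hw : ∀ x ∈ box I.M, I.wf I.T0 x
      = repW κ (fun a b => min (I.r a) (I.c b) / I.W ^ 6 + 1) (I.tabZ x) := by
    intro x hx
    unfold Inst.wf repW
    congr 3
    have e1 : ∀ a b, ((-I.tabZ x a b).toNat : ℝ) / ((min (I.r a) (I.c b) / I.W ^ 6 + 1 : ℕ) : ℝ)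
        = (if b = I.j0 then (I.negR x a : ℝ) / I.ellR a else 0)
          + (if a = I.i0 then (I.negC x b : ℝ) / I.ellC b else 0)
          + (if a = I.i0 then (if b = I.j0 then (I.neg0 0 x : ℝ) / I.ell0 else 0) else 0) := by
      intro a b
      unfold Inst.tabZ
      by_cases ha : a = I.i0 <;> by_cases hb : b = I.j0
      · have k1 : I.negR x a = 0 := by simp [Inst.negR, ha, Inst.rowS_i0 hx]
        have k2 : I.negC x b = 0 := by simp [Inst.negC, hb, Inst.colS_j0 hx]
        have k3 : (-(((I.rs + I.cs + I.totS x : ℕ) : ℤ) - I.N)).toNat = I.neg0 0 x := by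
          unfold Inst.neg0; omega
        simp only [if_pos ha, if_pos hb, k1, k2, k3]
        rw [ha, hb]
        simp [Inst.ell0, Inst.rs, Inst.cs]
      · have k3 : (-((I.c b : ℤ) - I.colS x b)).toNat = I.negC x b := by
          unfold Inst.negC; omega
        simp only [if_pos ha, if_neg hb, k3]
        rw [ha]
        simp [Inst.ellC, Inst.rs]
      · have k3 : (-((I.r a : ℤ) - I.rowS x a)).toNat = I.negR x a := by
          unfold Inst.negR; omega
        simp only [if_neg ha, if_pos hb, k3]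
        rw [hb]
        simp [Inst.ellR, Inst.cs]
      · simp [ha, hb]
    simp only [e1, sum_add_distrib]
    rw [Finset.sum_comm (f := fun a b => if a = I.i0 then (I.negC x b : ℝ) / I.ellC b else 0)]
    simp
  rw [Finset.sum_congr rfl hw,
    ← Finset.sum_image (f := repW κ (fun a b => min (I.r a) (I.c b) / I.W ^ 6 + 1))
      fun x hx y hy e => Inst.tabZ_inj hx hy e]
  refine Finset.sum_le_sum_of_subset_of_nonneg ?_ fun _ _ _ => (Real.exp_pos _).le
  intro X hX
  obtain ⟨x, hx, rfl⟩ := mem_image.mp hX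
  exact mem_repU.mpr ⟨hB x hx, Inst.tabZ_row h hx, Inst.tabZ_col h hx⟩

end Vale.Agent.P328
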