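import Vale.Agent.P328.Metro
import Vale.Agent.P328.Repair

/-! Correctness of the functional sampler. -/

namespace Vale.Agent.P328

open Finset

theorem sum_box_update {ι : Type} [Fintype ι] [DecidableEq ι] (M : ι → ℕ) (k : ι) (hk : M k = 1)
    (d : ℕ) (G : (ι → ℕ) → ℝ) :
    ∑ v ∈ box (Function.update M k d), G v
      = ∑ v ∈ box M, ∑ a ∈ range d, G (Function.update v k a) := by
  rw [← sum_product']
  refine sum_nbij' (fun v => (Function.update v k 0, v k))
    (fun z => Function.update z.1 k z.2) ?_ ?_ ?_ ?_ ?_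
  · intro v hv
    rw [mem_box] at hv
    refine mem_product.2 ⟨mem_box.2 fun s => ?_, mem_range.2 (by simpa using hv k)⟩
    by_cases hs : s = k
    · subst hs; simp [hk]
    · simpa [hs] using hv s
  · intro z hz
    obtain ⟨h1, h2⟩ := mem_product.1 hz
    refine mem_box.2 fun s => ?_
    by_cases hs : s = k
    · subst hs; simpa using h2
    · simpa [hs] using mem_box.1 h1 s
  · intro v _; simp
  · intro z hz
    have := mem_box.1 (mem_product.1 hz).1 k
    have e : z.1 k = 0 := by omega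
    ext1
    · simp only [Function.update_idem]; rw [← e, Function.update_eq_self]
    · simp
  · intro v _; simp

theorem bits_All (k : ℕ) : (bits k).All fun r => r < 2 ^ k := by
  unfold bits
  rw [iter_eq_iterIdx]
  refine All_iterIdx (p := fun i r => r < 2 ^ i) k (by simp) fun i _ r hr => ?_
  exact ⟨by simp only [Rand.ret_bind, Rand.All, pow_succ]; omega,
    by simp only [Rand.ret_bind, Rand.All, pow_succ]; omega⟩

theorem Rand.abs_E_le {α : Type} (t : Rand α) {f : α → ℝ} {c : ℝ} (h : ∀ a, |f a| ≤ c) :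
    |t.E f| ≤ c := by
  refine abs_le.2 ⟨?_, t.E_le_const fun a => (abs_le.1 (h a)).2⟩
  have := t.E_mono (f := fun _ => -c) (g := f) fun a => (abs_le.1 (h a)).1
  rwa [Rand.E_const] at this

theorem Rand.E_eq_sum {α : Type} (t : Rand α) (S : Finset α) (h : t.All fun a => a ∈ S)
    (f : α → ℝ) : t.E f = ∑ X ∈ S, f X * t.prob fun Y => Y = X := by
  classical
  induction t with
  | ret a =>
    rw [Rand.E_ret, sum_eq_single a]
    · simp [Rand.prob]
    · intro b _ hb; simp [Rand.prob, Ne.symm hb]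
    · intro h'; exact absurd h h'
  | flip l r ihl ihr =>
    rw [Rand.E_flip, ihl h.1, ihr h.2, ← sum_add_distrib, sum_div]
    exact sum_congr rfl fun X _ => by simp only [Rand.prob]; ring

theorem Inst.E_offs_aux (I : Inst) (x0 : I.St) (k : ℕ) (hk : k ≤ I.m * I.n) (g : I.St → ℝ) :
    (iterIdx (fun s x => if h : s < I.m * I.n then
        (bits (I.dl ⟨s, h⟩)).bind fun v => .ret (Function.update x ⟨s, h⟩ (x ⟨s, h⟩ + v))
      else .ret x) k x0).E g
      = (∑ v ∈ box fun s : I.Cell => if s.val < k then I.D s else 1, g fun s => x0 s + v s)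
        / ∏ s : I.Cell, ((if s.val < k then I.D s else 1 : ℕ) : ℝ) := by
  induction k generalizing g with
  | zero =>
    simp only [iterIdx, Rand.E_ret, Nat.not_lt_zero, if_false, Nat.cast_one, prod_const_one,
      div_one]
    rw [sum_eq_single fun _ => 0]
    · simp
    · intro v hv hne
      exact absurd (funext fun s => by have := mem_box.1 hv s; omega) hne
    · intro h; exact absurd (mem_box.2 fun _ => one_pos) h
  | succ k ih =>
    have hk' : k < I.m * I.n := hk
    have e : (fun s : I.Cell => if s.val < k + 1 then I.D s else 1)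
        = Function.update (fun s : I.Cell => if s.val < k then I.D s else 1) ⟨k, hk'⟩
          (I.D ⟨k, hk'⟩) := by
      funext s
      by_cases hs : s = ⟨k, hk'⟩
      · subst hs; simp
      · have : s.val ≠ k := fun h => hs (Fin.ext h)
        rw [Function.update_of_ne hs]
        exact if_congr (by omega) rfl rfl
    have e2 : ∏ s : I.Cell, ((if s.val < k + 1 then I.D s else 1 : ℕ) : ℝ)
        = (∏ s : I.Cell, ((if s.val < k then I.D s else 1 : ℕ) : ℝ)) * 2 ^ I.dl ⟨k, hk'⟩ := by
      rw [← mul_prod_erase _ _ (mem_univ (⟨k, hk'⟩ : I.Cell)),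
        ← mul_prod_erase _ (fun s : I.Cell => ((if s.val < k then I.D s else 1 : ℕ) : ℝ))
          (mem_univ (⟨k, hk'⟩ : I.Cell))]
      have : ∏ s ∈ univ.erase (⟨k, hk'⟩ : I.Cell), ((if s.val < k + 1 then I.D s else 1 : ℕ) : ℝ)
          = ∏ s ∈ univ.erase (⟨k, hk'⟩ : I.Cell), ((if s.val < k then I.D s else 1 : ℕ) : ℝ) := by
        refine prod_congr rfl fun s hs => ?_
        have : s.val ≠ k := fun h => ne_of_mem_erase hs (Fin.ext h)
        rw [if_congr (show s.val < k + 1 ↔ s.val < k by omega) rfl rfl]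
      rw [this]
      simp only [Nat.lt_succ_self, lt_irrefl, if_true, if_false, Inst.D]
      push_cast
      ring
    rw [iterIdx, Rand.E_bind, ih hk'.le, e, e2, sum_box_update _ _ (by simp),
      mul_comm _ ((2 : ℝ) ^ _), ← div_div]
    congr 1
    rw [sum_div]
    refine sum_congr rfl fun v hv => ?_
    have hv0 : v ⟨k, hk'⟩ = 0 := by have := mem_box.1 hv ⟨k, hk'⟩; simpa using this
    rw [dif_pos hk', Rand.E_bind, E_bits]
    congr 1
    refine sum_congr rfl fun a _ => ?_
    rw [Rand.E_ret]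
    congr 1
    funext s
    by_cases hs : s = ⟨k, hk'⟩
    · subst hs; simp [hv0]
    · simp [hs]

theorem Inst.E_offs (I : Inst) (y : I.St) (g : I.St → ℝ) :
    (I.offsR y).E g
      = (∑ v ∈ box I.D, g fun s => I.D s * y s + v s) / ∏ s, (I.D s : ℝ) := by
  unfold Inst.offsR
  rw [I.E_offs_aux _ _ le_rfl]
  simp only [Fin.is_lt, if_true]
  rfl

theorem Inst.trial_All (I : Inst) : I.trialR.All fun x => x ∈ box I.M := by
  refine Rand.All_bind (I.chain_All I.T0) fun y hy => ?_
  refine Rand.All_mono ?_ (All_iterIdx (p := fun k (x : I.St) => ∀ s : I.Cell,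
    x s < I.D s * y s + I.D s ∧ (k ≤ s.val → x s = I.D s * y s)) (I.m * I.n) ?_ ?_)
  · intro x hx
    refine mem_box.2 fun s => (hx s).1.trans_le ?_
    rw [Inst.M_eq, mul_comm (I.K s), ← Nat.mul_succ]
    exact Nat.mul_le_mul_left _ (mem_box.1 hy s)
  · intro s
    exact ⟨Nat.lt_add_of_pos_right (Inst.D_pos s), fun _ => rfl⟩
  · intro k hk x hx
    rw [dif_pos hk]
    refine Rand.All_bind (bits_All _) fun v hv s => ?_
    by_cases hs : s = ⟨k, hk⟩
    · subst hs
      rw [Function.update_self, (hx _).2 le_rfl]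
      exact ⟨Nat.add_lt_add_left hv _, fun h => absurd h (Nat.not_succ_le_self k)⟩
    · rw [Function.update_of_ne hs]
      exact ⟨(hx s).1, fun h => (hx s).2 (by omega)⟩

/-- The success probability under the exact coarse distribution. -/
noncomputable def Inst.rho (I : Inst) : ℝ :=
  ((tables I.r I.c).card : ℝ) / ((∏ s, (I.D s : ℝ)) * I.Zc I.T0)

theorem Inst.blk_low (I : Inst) (y : I.St) {v : I.St} (hv : v ∈ box I.D) :
    I.blk (fun s => I.D s * y s + v s) = y := by
  funext s
  simp only [Inst.blk]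
  rw [Nat.mul_add_div (Inst.D_pos s), Nat.div_eq_of_lt (mem_box.1 hv s), add_zero]

theorem Inst.sum_fine (I : Inst) (g : I.St → ℝ) :
    ∑ x ∈ box I.M, g x = ∑ y ∈ box I.K, ∑ v ∈ box I.D, g fun s => I.D s * y s + v s := by
  rw [show I.M = fun s => I.K s * I.D s from funext Inst.M_eq]
  exact sum_box_blk _ _ Inst.D_pos g

theorem Inst.prodD_pos (I : Inst) : (0 : ℝ) < ∏ s, (I.D s : ℝ) :=
  prod_pos fun s _ => by exact_mod_cast Inst.D_pos s

theorem Inst.Zc_pos1 {I : Inst} (h : I.OK) (t : ℕ) : 0 < I.Zc t :=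
  sum_pos (fun _ _ => pow_pos (Inst.th_pos h) _) ⟨fun _ => 0, mem_box.2 Inst.K_pos⟩

theorem Inst.card_pos {I : Inst} (h : I.OK) : (0 : ℝ) < (tables I.r I.c).card := by
  exact_mod_cast Finset.card_pos.2 ⟨_, Inst.nw_mem h⟩

theorem Inst.rho_ge {I : Inst} (h : I.OK) : 7 / 16 ≤ I.rho := by
  have e : (∏ s, (I.D s : ℝ)) * I.Zc I.T0 = ∑ x ∈ box I.M, I.wc I.T0 (I.blk x) := by
    rw [I.sum_fine, Inst.Zc, mul_sum]
    refine sum_congr rfl fun y _ => ?_
    rw [sum_congr rfl (g := fun _ => I.wc I.T0 y) fun v hv => by rw [I.blk_low y hv],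
      sum_const, nsmul_eq_mul, box, Fintype.card_piFinset]
    simp only [card_range]
    push_cast
    rfl
  have h1 := sum_le_sum fun x (_ : x ∈ box I.M) => Inst.wc_le_wf h le_rfl x
  rw [← mul_sum, ← e] at h1
  have h2 := Inst.repair h
  rw [Inst.rho, le_div_iff₀ (mul_pos I.prodD_pos (Inst.Zc_pos1 h _))]
  linarith

/-- One trial is close to: a uniform table with probability `rho`, failure otherwise. -/
theorem Inst.trial_close {I : Inst} (h : I.OK) (σ : I.Tab → ℝ) (hσ : ∀ X, |σ X| ≤ 1) :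
    |(I.trialR.E fun x => if I.valid x then σ (I.tab x) else 0)
        - I.rho * ((∑ X ∈ tables I.r I.c, σ X) / (tables I.r I.c).card)|
      ≤ (1 / 2) ^ (I.W ^ 2) := by
  have h1 := Inst.chain_close h le_rfl
    (fun y => (I.offsR y).E fun x => if I.valid x then σ (I.tab x) else 0)
    fun y => Rand.abs_E_le _ fun x => by split_ifs; exacts [hσ _, by simp]
  rw [Inst.trialR, Rand.E_bind]
  refine le_of_eq_of_le ?_ h1
  congr 2
  have e : ∑ y ∈ box I.K, I.wc I.T0 y * ((I.offsR y).E
      fun x => if I.valid x then σ (I.tab x) else 0)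
      = (∑ X ∈ tables I.r I.c, σ X) / ∏ s, (I.D s : ℝ) := by
    rw [← Inst.sum_valid h, I.sum_fine, sum_div]
    refine sum_congr rfl fun y _ => ?_
    rw [I.E_offs, ← mul_div_assoc, mul_sum]
    congr 1
    refine sum_congr rfl fun v hv => ?_
    split_ifs with hval
    · have := Inst.phc_valid I.T0 hval
      rw [I.blk_low y hv] at this
      rw [Inst.wc, this, pow_zero, one_mul]
    · rw [mul_zero]
  have := (Inst.card_pos h).ne'
  have := I.prodD_pos.ne'
  have := (Inst.Zc_pos1 h I.T0).ne'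
  rw [e, Inst.rho]
  field_simp

theorem Inst.sampler_All {I : Inst} (h : I.OK) :
    I.samplerR.All fun X => X ∈ tables I.r I.c := by
  refine All_iter _ (Inst.nw_mem h) fun out hout => Rand.All_bind I.trial_All fun x hx => ?_
  change (if I.valid x then I.tab x else out) ∈ _
  split_ifs with hv
  · exact Inst.tab_mem h hx hv
  · exact hout

theorem Inst.eta_le {I : Inst} (h : I.OK) :
    (1 / 2 : ℝ) ^ (I.W ^ 2) ≤ (1 / 2) ^ I.W ∧ (1 / 2 : ℝ) ^ I.W ≤ 1 / 16 := by
  have := h.h32
  refine ⟨pow_le_pow_of_le_one (by norm_num) (by norm_num) ?_, ?_⟩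
  · rw [pow_two]; exact Nat.le_mul_of_pos_left _ (by omega)
  · refine (pow_le_pow_of_le_one (by norm_num) (by norm_num) (show 4 ≤ I.W by omega)).trans ?_
    norm_num

theorem Inst.sampler_test {I : Inst} (h : I.OK) (σ : I.Tab → ℝ) (hσ : ∀ X, |σ X| ≤ 1)
    (h0 : ∑ X ∈ tables I.r I.c, σ X = 0) : |I.samplerR.E σ| ≤ 5 * (1 / 2) ^ I.W := by
  obtain ⟨η1, η2⟩ := Inst.eta_le h
  have hA := Inst.trial_close h σ hσ
  rw [h0, zero_div, mul_zero, sub_zero] at hA
  have hq := Inst.trial_close h (fun _ => 1) (by simp)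
  rw [sum_const, nsmul_eq_mul, mul_one, div_self (Inst.card_pos h).ne', mul_one] at hq
  have hρ := Inst.rho_ge h
  set A := I.trialR.E fun x => if I.valid x then σ (I.tab x) else 0 with hAdef
  set u := I.trialR.E fun x => if I.valid x then (1 : ℝ) else 0 with hu
  have hu1 : u ≤ 1 := Rand.E_le_const _ fun x => by split_ifs <;> norm_num
  have hu2 : 1 / 4 ≤ u := by linarith [(abs_le.1 hq).1]
  have step : ∀ o : I.Tab, (I.trialR.bind fun x => .ret (if I.valid x then I.tab x else o)).E σ
      = A + (1 - u) * σ o := by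
    intro o
    have e : (fun x => (Rand.ret (if I.valid x then I.tab x else o)).E σ)
        = fun x => (if I.valid x then σ (I.tab x) else 0)
          + (σ o - σ o * if I.valid x then (1 : ℝ) else 0) := by
      funext x
      rw [Rand.E_ret]
      split_ifs <;> ring
    rw [Rand.E_bind, e, Rand.E_add, Rand.E_sub, Rand.E_const, Rand.E_const_mul]
    ring
  have key : ∀ k, |(iter (fun out => I.trialR.bind fun x =>
      .ret (if I.valid x then I.tab x else out)) k I.nw).E σ|
      ≤ (3 / 4) ^ k + 4 * (1 / 2) ^ (I.W ^ 2) := by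
    intro k
    have hη : (0 : ℝ) ≤ (1 / 2) ^ (I.W ^ 2) := by positivity
    induction k with
    | zero => simp only [iter, Rand.E_ret, pow_zero]; linarith [hσ I.nw]
    | succ k ih =>
      rw [iter_succ', Rand.E_bind]
      simp only [step]
      rw [Rand.E_add, Rand.E_const, Rand.E_const_mul]
      refine (abs_add_le _ _).trans ?_
      rw [abs_mul, abs_of_nonneg (by linarith : 0 ≤ 1 - u), pow_succ]
      have := mul_le_mul (show 1 - u ≤ 3 / 4 by linarith) ih (abs_nonneg _) (by norm_num)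
      linarith
  refine (key (4 * I.W)).trans ?_
  have : (3 / 4 : ℝ) ^ (4 * I.W) ≤ (1 / 2) ^ I.W := by
    rw [pow_mul]; exact pow_le_pow_left₀ (by norm_num) (by norm_num) _
  linarith

theorem Inst.sampler_tv {I : Inst} (h : I.OK) :
    1 / 2 * ∑ X ∈ tables I.r I.c,
        |I.samplerR.prob (fun Y => Y = X) - 1 / ((tables I.r I.c).card : ℝ)|
      ≤ 5 * (1 / 2) ^ I.W := by
  have hc := Inst.card_pos h
  set u := 1 / ((tables I.r I.c).card : ℝ) with hu
  set s : I.Tab → ℝ := fun X => if u ≤ I.samplerR.prob (fun Y => Y = X) then 1 else 0 with hs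
  set μ := (∑ X ∈ tables I.r I.c, s X) * u with hμ
  have hs0 : ∀ X, 0 ≤ s X := fun X => by simp only [hs]; split_ifs <;> norm_num
  have hs1 : ∀ X, s X ≤ 1 := fun X => by simp only [hs]; split_ifs <;> norm_num
  have hcu : (tables I.r I.c).card * u = 1 := by rw [hu]; field_simp
  have hu0 : 0 ≤ u := by positivity
  have hμ0 : 0 ≤ μ := mul_nonneg (sum_nonneg fun X _ => hs0 X) hu0
  have hμ1 : μ ≤ 1 := by
    have := sum_le_card_nsmul _ _ _ fun X (_ : X ∈ tables I.r I.c) => hs1 X
    rw [nsmul_eq_mul, mul_one] at this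
    exact (mul_le_mul_of_nonneg_right this hu0).trans hcu.le
  have h1 := Inst.sampler_test h (fun X => s X - μ)
    (fun X => abs_le.2 ⟨by linarith [hs0 X], by linarith [hs1 X]⟩)
    (by rw [sum_sub_distrib, sum_const, nsmul_eq_mul, hμ, mul_left_comm, hcu, mul_one, sub_self])
  have h2 := Rand.E_eq_sum _ _ (Inst.sampler_All h) fun _ => 1
  rw [Rand.E_const] at h2
  rw [Rand.E_sub, Rand.E_const, Rand.E_eq_sum _ _ (Inst.sampler_All h)] at h1
  have e : ∑ X ∈ tables I.r I.c, |I.samplerR.prob (fun Y => Y = X) - u|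
      = ∑ X ∈ tables I.r I.c, (2 * (s X * I.samplerR.prob fun Y => Y = X) - 2 * (s X * u)
        - 1 * I.samplerR.prob (fun Y => Y = X) + u) := by
    refine sum_congr rfl fun X _ => ?_
    simp only [hs]
    split_ifs with hX
    · rw [abs_of_nonneg (by linarith)]; ring
    · rw [abs_of_nonpos (by linarith)]; ring
  rw [e, sum_add_distrib, sum_sub_distrib, sum_sub_distrib, ← h2, ← mul_sum, ← mul_sum, ← sum_mul,
    sum_const, nsmul_eq_mul, hcu]
  linarith [(abs_le.1 h1).2]

end Vale.Agent.P328
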