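import Vale.Agent.P328.Params

/-! Valid vectors of free cells correspond to tables. -/

namespace Vale.Agent.P328

open Finset

theorem mem_tables {m n : ℕ} {r : Fin m → ℕ} {c : Fin n → ℕ} {X : Fin m → Fin n → ℕ} :
    X ∈ tables r c ↔ (∀ i, ∑ j, X i j = r i) ∧ ∀ j, ∑ i, X i j = c j := by
  unfold tables
  rw [mem_filter, and_iff_right_iff_imp]
  rintro ⟨h1, -⟩
  simp only [Fintype.mem_piFinset, mem_range]
  intro i j
  have := Finset.single_le_sum (f := fun j => X i j) (fun _ _ => Nat.zero_le _) (mem_univ j)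
  rw [h1 i] at this
  omega

theorem tab_telescope (f : ℕ → ℕ) (hf : Monotone f) {n : ℕ} (c : Fin n → ℕ) :
    ∑ j, (f ((∑ j', if j' < j then c j' else 0) + c j) - f (∑ j', if j' < j then c j' else 0))
      + f 0 = f (∑ j, c j) := by
  induction n with
  | zero => simp
  | succ n ih =>
    have h1 : ∀ j : Fin n, (∑ j', if j' < j.castSucc then c j' else 0)
        = ∑ j', if j' < j then c j'.castSucc else 0 := by
      intro j
      rw [Fin.sum_univ_castSucc]
      simp [(Fin.castSucc_lt_last j).not_gt]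
    have h2 : (∑ j', if j' < Fin.last n then c j' else 0) = ∑ j : Fin n, c j.castSucc := by
      rw [Fin.sum_univ_castSucc]
      simp
    have h3 := ih fun j => c j.castSucc
    have h4 := hf (Nat.le_add_right (∑ j : Fin n, c j.castSucc) (c (Fin.last n)))
    rw [Fin.sum_univ_castSucc, Fin.sum_univ_castSucc (f := c)]
    simp only [h1, h2]
    omega

theorem tab_pre_le {n : ℕ} (c : Fin n → ℕ) (j : Fin n) :
    (∑ j', if j' < j then c j' else 0) + c j ≤ ∑ j', c j' := by
  have h1 : c j = ∑ j', if j' = j then c j' else 0 := by simp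
  rw [h1, ← sum_add_distrib]
  refine Finset.sum_le_sum fun j' _ => ?_
  split_ifs with a b
  · exact absurd b a.ne
  all_goals omega

theorem tab_clamp {n : ℕ} (c : Fin n → ℕ) (a r : ℕ) (h : a + r ≤ ∑ j, c j) :
    ∑ j, (min (a + r) ((∑ j', if j' < j then c j' else 0) + c j)
      - max a (∑ j', if j' < j then c j' else 0)) = r := by
  have h1 := tab_telescope (fun x => min (a + r) (max a x))
    (fun x y hxy => min_le_min_left _ (max_le_max_left _ hxy)) c
  have h2 : ∀ b d : ℕ, min (a + r) (max a (b + d)) - min (a + r) (max a b)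
      = min (a + r) (b + d) - max a b := fun b d => by omega
  simp only [h2] at h1
  omega

theorem Inst.nw_mem {I : Inst} (h : I.OK) : I.nw ∈ tables I.r I.c := by
  rw [mem_tables]
  constructor
  · intro i
    exact tab_clamp I.c (I.preR i) (I.r i) (h.sum_eq ▸ tab_pre_le I.r i)
  · intro j
    have := tab_clamp I.r (I.preC j) (I.c j) (h.sum_eq ▸ tab_pre_le I.c j)
    rw [← this]
    refine Finset.sum_congr rfl fun i _ => ?_
    unfold Inst.nw
    rw [min_comm, max_comm]
    rfl

namespace Inst

variable {I : Inst}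

/-- The integer table with free cells `x`. -/
def tabZ (I : Inst) (x : I.St) (i : Fin I.m) (j : Fin I.n) : ℤ :=
  if i = I.i0 then
    (if j = I.j0 then (I.rs + I.cs + I.totS x : ℕ) - (I.N : ℤ) else I.c j - (I.colS x j : ℤ))
  else if j = I.j0 then I.r i - (I.rowS x i : ℤ) else x (I.cell i j)

theorem x_i0 {x : I.St} (hx : x ∈ box I.M) (j : Fin I.n) : x (I.cell I.i0 j) = 0 := by
  have := le_two_sig hx (I.cell I.i0 j)
  simpa [sig] using this

theorem x_j0 {x : I.St} (hx : x ∈ box I.M) (i : Fin I.m) : x (I.cell i I.j0) = 0 := by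
  have := le_two_sig hx (I.cell i I.j0)
  simpa [sig] using this

theorem rowS_i0 {x : I.St} (hx : x ∈ box I.M) : I.rowS x I.i0 = 0 := by
  simp [rowS_eq, x_i0 hx]

theorem colS_j0 {x : I.St} (hx : x ∈ box I.M) : I.colS x I.j0 = 0 := by
  simp [colS_eq, x_j0 hx]

theorem tabZ_row (h : I.OK) {x : I.St} (hx : x ∈ box I.M) (i : Fin I.m) :
    ∑ j, I.tabZ x i j = I.r i := by
  by_cases hi : i = I.i0
  · have h1 : ∀ j, I.tabZ x i j = (I.c j - (I.colS x j : ℤ))
        + if j = I.j0 then (I.rs + I.totS x : ℕ) - (I.N : ℤ) else 0 := by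
      intro j
      unfold tabZ
      rw [if_pos hi]
      split_ifs with hj
      · rw [hj, colS_j0 hx, cs]; push_cast; ring
      · ring
    have h2 : ∑ j, (I.colS x j : ℤ) = I.totS x := by
      simp only [colS_eq, totS_eq]
      push_cast
      exact Finset.sum_comm
    have h3 : ∑ j, (I.c j : ℤ) = I.N := by
      unfold N
      rw [h.sum_eq]
      push_cast
      rfl
    simp only [h1, sum_add_distrib, sum_sub_distrib, h2, h3, sum_ite_eq', mem_univ, if_true]
    rw [hi, rs]
    push_cast
    ring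
  · have h1 : ∀ j, I.tabZ x i j = (x (I.cell i j) : ℤ)
        + if j = I.j0 then I.r i - (I.rowS x i : ℤ) else 0 := by
      intro j
      unfold tabZ
      rw [if_neg hi]
      split_ifs with hj
      · rw [hj, x_j0 hx]; simp
      · ring
    simp only [h1, sum_add_distrib, sum_ite_eq', mem_univ, if_true, rowS_eq]
    push_cast
    ring

theorem tabZ_col (_h : I.OK) {x : I.St} (hx : x ∈ box I.M) (j : Fin I.n) :
    ∑ i, I.tabZ x i j = I.c j := by
  by_cases hj : j = I.j0
  · have h1 : ∀ i, I.tabZ x i j = (I.r i - (I.rowS x i : ℤ))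
        + if i = I.i0 then (I.cs + I.totS x : ℕ) - (I.N : ℤ) else 0 := by
      intro i
      unfold tabZ
      rw [if_pos hj, if_pos hj]
      split_ifs with hi
      · rw [hi, rowS_i0 hx, rs]; push_cast; ring
      · ring
    have h2 : ∑ i, (I.rowS x i : ℤ) = I.totS x := by
      simp only [rowS_eq, totS_eq]
      push_cast
      rfl
    have h3 : ∑ i, (I.r i : ℤ) = I.N := by
      unfold N
      push_cast
      rfl
    simp only [h1, sum_add_distrib, sum_sub_distrib, h2, h3, sum_ite_eq', mem_univ, if_true]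
    rw [hj, cs]
    push_cast
    ring
  · have h1 : ∀ i, I.tabZ x i j = (x (I.cell i j) : ℤ)
        + if i = I.i0 then I.c j - (I.colS x j : ℤ) else 0 := by
      intro i
      unfold tabZ
      rw [if_neg hj, if_neg hj]
      split_ifs with hi
      · rw [hi, x_i0 hx]; simp
      · ring
    simp only [h1, sum_add_distrib, sum_ite_eq', mem_univ, if_true, colS_eq]
    push_cast
    ring

theorem tab_cast {x : I.St} (hv : I.valid x) (i : Fin I.m) (j : Fin I.n) :
    (I.tab x i j : ℤ) = I.tabZ x i j := by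
  obtain ⟨h1, h2, h3⟩ := valid_iff.mp hv
  have e1 := h1 i
  have e2 := h2 j
  unfold negR at e1
  unfold negC at e2
  unfold neg0 at h3
  unfold tab tabZ
  split_ifs <;> omega

theorem tabZ_inj {x x' : I.St} (hx : x ∈ box I.M) (hx' : x' ∈ box I.M)
    (h : I.tabZ x = I.tabZ x') : x = x' := by
  funext s
  rw [← cell_div_mod s]
  by_cases hi : s.divNat = I.i0
  · rw [hi, x_i0 hx, x_i0 hx']
  by_cases hj : s.modNat = I.j0
  · rw [hj, x_j0 hx, x_j0 hx']
  have := congrFun (congrFun h s.divNat) s.modNat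
  unfold tabZ at this
  rw [if_neg hi, if_neg hj, if_neg hi, if_neg hj] at this
  exact_mod_cast this

theorem table_ext {X Y : I.Tab} (hX : X ∈ tables I.r I.c) (hY : Y ∈ tables I.r I.c)
    (h : ∀ i j, i ≠ I.i0 → j ≠ I.j0 → X i j = Y i j) : X = Y := by
  obtain ⟨a1, a2⟩ := mem_tables.mp hX
  obtain ⟨b1, b2⟩ := mem_tables.mp hY
  have h1 : ∀ i j, j ≠ I.j0 → X i j = Y i j := by
    intro i j hj
    by_cases hi : i = I.i0
    · have e1 := a2 j
      have e2 := b2 j
      rw [← Finset.add_sum_erase _ _ (mem_univ I.i0)] at e1 e2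
      rw [Finset.sum_congr rfl fun i' hi' => h i' j (ne_of_mem_erase hi') hj] at e1
      rw [hi]
      omega
    · exact h i j hi hj
  funext i j
  by_cases hj : j = I.j0
  · have e1 := a1 i
    have e2 := b1 i
    rw [← Finset.add_sum_erase _ _ (mem_univ I.j0)] at e1 e2
    rw [Finset.sum_congr rfl fun j' hj' => h1 i j' (ne_of_mem_erase hj')] at e1
    rw [hj]
    exact Nat.add_right_cancel (e1.trans e2.symm)
  · exact h1 i j hj

/-- The free cells of a table. -/
def free (I : Inst) (X : I.Tab) : I.St := fun s =>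
  if s.divNat = I.i0 ∨ s.modNat = I.j0 then 0 else X s.divNat s.modNat

theorem free_cell (X : I.Tab) (i : Fin I.m) (j : Fin I.n) :
    I.free X (I.cell i j) = if i = I.i0 ∨ j = I.j0 then 0 else X i j := by
  simp only [free, cell_divNat, cell_modNat]

theorem free_mem {X : I.Tab} (hX : X ∈ tables I.r I.c) : I.free X ∈ box I.M := by
  obtain ⟨a1, a2⟩ := mem_tables.mp hX
  rw [mem_box]
  intro s
  refine lt_of_le_of_lt ?_ (sig_lt_M s)
  unfold free sig
  split_ifs
  · exact le_rfl
  · refine le_min ?_ ?_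
    · rw [← a1]
      exact Finset.single_le_sum (f := fun j => X s.divNat j) (fun _ _ => Nat.zero_le _)
        (mem_univ _)
    · rw [← a2]
      exact Finset.single_le_sum (f := fun i => X i s.modNat) (fun _ _ => Nat.zero_le _)
        (mem_univ _)

theorem free_valid {X : I.Tab} (hX : X ∈ tables I.r I.c) : I.valid (I.free X) := by
  obtain ⟨a1, a2⟩ := mem_tables.mp hX
  have h1 : ∀ i j, I.free X (I.cell i j) ≤ X i j := fun i j => by
    rw [free_cell]; split_ifs <;> omega
  refine valid_iff.mpr ⟨fun i => ?_, fun j => ?_, ?_⟩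
  · unfold negR
    rw [rowS_eq, ← a1]
    exact Nat.sub_eq_zero_of_le (Finset.sum_le_sum fun j _ => h1 i j)
  · unfold negC
    rw [colS_eq, ← a2]
    exact Nat.sub_eq_zero_of_le (Finset.sum_le_sum fun i _ => h1 i j)
  · unfold neg0
    refine Nat.sub_eq_zero_of_le ?_
    have e1 : I.N = ∑ i, ∑ j, X i j := by simp only [N, a1]
    have e2 : I.rs = ∑ i, ∑ j, if i = I.i0 then X i j else 0 := by
      rw [Finset.sum_comm]; simp [rs, a1]
    have e3 : I.cs = ∑ i, ∑ j, if j = I.j0 then X i j else 0 := by simp [cs, a2]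
    rw [e1, e2, e3, add_zero, totS_eq, ← sum_add_distrib, ← sum_add_distrib]
    refine Finset.sum_le_sum fun i _ => ?_
    rw [← sum_add_distrib, ← sum_add_distrib]
    refine Finset.sum_le_sum fun j _ => ?_
    rw [free_cell]
    by_cases hi : i = I.i0 <;> by_cases hj : j = I.j0 <;> simp [hi, hj]

end Inst

theorem Inst.tab_mem {I : Inst} (h : I.OK) {x : I.St} (hx : x ∈ box I.M) (hv : I.valid x) :
    I.tab x ∈ tables I.r I.c := by
  rw [mem_tables]
  constructor
  · intro i
    have := Inst.tabZ_row h hx i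
    simp only [← Inst.tab_cast hv] at this
    exact_mod_cast this
  · intro j
    have := Inst.tabZ_col h hx j
    simp only [← Inst.tab_cast hv] at this
    exact_mod_cast this

theorem Inst.sum_valid {I : Inst} (h : I.OK) (σ : I.Tab → ℝ) :
    ∑ x ∈ box I.M, (if I.valid x then σ (I.tab x) else 0) = ∑ X ∈ tables I.r I.c, σ X := by
  rw [← Finset.sum_filter]
  refine Finset.sum_nbij' I.tab I.free ?_ ?_ ?_ ?_ fun _ _ => rfl
  · intro x hx
    exact Inst.tab_mem h (mem_filter.mp hx).1 (mem_filter.mp hx).2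
  · intro X hX
    exact mem_filter.mpr ⟨Inst.free_mem hX, Inst.free_valid hX⟩
  · intro x hx
    have hx1 := (mem_filter.mp hx).1
    funext s
    rw [← Inst.cell_div_mod s, Inst.free_cell]
    split_ifs with hc
    · rcases hc with hc | hc
      · rw [hc, Inst.x_i0 hx1]
      · rw [hc, Inst.x_j0 hx1]
    · push Not at hc
      unfold Inst.tab
      rw [if_neg hc.1, if_neg hc.2]
  · intro X hX
    refine Inst.table_ext (Inst.tab_mem h (Inst.free_mem hX) (Inst.free_valid hX)) hX ?_
    intro i j hi hj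
    unfold Inst.tab
    rw [if_neg hi, if_neg hj, Inst.free_cell, if_neg (by tauto)]

end Vale.Agent.P328
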